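import Vale.Agent.P088.H27.Solve

/-!
# P088: the harmonic coordinates of `s₁` and `s₂` agree off `Ω`
-/

open MeasureTheory Set Filter
open scoped ContDiff Matrix Topology

noncomputable section

namespace Vale.Agent.P088.LR.H27

open Vale.Agent.P088.LR

variable {n : ℕ}

/-- Test functions of mean zero detect constancy on the part of the cube off `Ω`. -/
theorem const_of_test (Ω : Set (V n)) (hreg : interior (closure Ω) = Ω)
    {f : V n → ℂ} (hf : Continuous f)
    (ht : ∀ ψ : V n → ℂ, ContDiff ℝ ∞ ψ → tsupport ψ ⊆ cube n → HasCompactSupport ψ →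
      (∀ x ∈ Ω, ψ x = 0) → (∫ x, ψ x = 0) → ∫ x, ψ x * f x = 0) :
    ∃ c0 : ℂ, ∀ x ∈ cube n, x ∉ Ω → f x = c0 := by
  set O : Set (V n) := cube n ∩ (closure Ω)ᶜ with hO
  have hOo : IsOpen O := (isOpen_cube n).inter isClosed_closure.isOpen_compl
  -- reduction to `O`
  suffices h : ∃ c0 : ℂ, ∀ x ∈ O, f x = c0 by
    obtain ⟨c0, h⟩ := h
    refine ⟨c0, fun x hx hxΩ => ?_⟩
    have hx' : x ∈ closure O := by
      have h1 : x ∈ closure (closure Ω)ᶜ := by
        rw [closure_compl, hreg]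
        exact hxΩ
      rw [hO, Set.inter_comm]
      rw [mem_closure_iff] at h1 ⊢
      intro o ho hxo
      obtain ⟨y, hy1, hy2⟩ := h1 (o ∩ cube n) (ho.inter (isOpen_cube n)) ⟨hxo, hx⟩
      exact ⟨y, hy1.1, hy2, hy1.2⟩
    have hcl : IsClosed {x | f x = c0} := isClosed_eq hf continuous_const
    exact hcl.closure_subset_iff.2 (fun y hy => h y hy) hx'
  by_cases hne : O.Nonempty
  swap
  · exact ⟨0, fun x hx => (hne ⟨x, hx⟩).elim⟩
  obtain ⟨x0, hx0⟩ := hne
  -- a normalised bump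
  obtain ⟨r, hr, hball⟩ := Metric.isOpen_iff.1 hOo x0 hx0
  let χ : ContDiffBump x0 := ⟨r / 4, r / 2, by linarith, by linarith⟩
  set g0 : V n → ℝ := fun x => χ.normed volume x with hg0
  have hg0s : ContDiff ℝ ∞ g0 := χ.contDiff_normed
  have hg0c : HasCompactSupport g0 := χ.hasCompactSupport_normed
  have hg0t : tsupport g0 ⊆ O := by
    rw [hg0]
    refine (χ.tsupport_normed_eq (μ := volume)).subset.trans ?_
    refine (Metric.closedBall_subset_ball ?_).trans hball
    change r / 2 < r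
    linarith
  have hg0i : ∫ x, g0 x = 1 := χ.integral_normed
  have hcc : ∀ g : V n → ℝ, HasCompactSupport g → HasCompactSupport fun x => ((g x : ℝ) : ℂ) :=
    fun g hg => hg.comp_left Complex.ofReal_zero
  -- test functions
  have key : ∀ g : V n → ℝ, ContDiff ℝ ∞ g → HasCompactSupport g → tsupport g ⊆ O →
      (∫ x, g x = 0) → ∫ x, ((g x : ℝ) : ℂ) * f x = 0 := by
    intro g hg hgc hgt hgi
    have hts : tsupport (fun x => ((g x : ℝ) : ℂ)) ⊆ tsupport g :=
      closure_mono fun x hx => by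
        rw [Function.mem_support] at hx ⊢
        intro h
        exact hx (by rw [h, Complex.ofReal_zero])
    refine ht _ (Complex.ofRealCLM.contDiff.comp hg) (hts.trans (hgt.trans inter_subset_left))
      (hcc g hgc) ?_ ?_
    · intro x hx
      have : x ∉ tsupport g := fun h => (hgt h).2 (subset_closure hx)
      rw [image_eq_zero_of_notMem_tsupport this, Complex.ofReal_zero]
    · rw [integral_complex_ofReal, hgi, Complex.ofReal_zero]
  have hint : ∀ g : V n → ℝ, ContDiff ℝ ∞ g → HasCompactSupport g →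
      Integrable fun x => ((g x : ℝ) : ℂ) * f x := fun g hg hgc =>
    ((Complex.continuous_ofReal.comp hg.continuous).mul hf).integrable_of_hasCompactSupport
      (hcc g hgc).mul_right
  set c0 : ℂ := ∫ x, ((g0 x : ℝ) : ℂ) * f x with hc0
  refine ⟨c0, ?_⟩
  have hae : ∀ᵐ x, x ∈ O → f x - c0 = 0 := by
    refine hOo.ae_eq_zero_of_integral_contDiff_smul_eq_zero
      ((hf.sub continuous_const).locallyIntegrable.locallyIntegrableOn _) fun g hg hgc hgt => ?_
    set a : ℝ := ∫ x, g x with ha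
    have hgint : Integrable g := hg.continuous.integrable_of_hasCompactSupport hgc
    have hg0int : Integrable g0 := hg0s.continuous.integrable_of_hasCompactSupport hg0c
    have hk := key (fun x => g x - a * g0 x) (hg.sub (contDiff_const.mul hg0s))
      (hgc.sub (hg0c.mul_left)) ?_ ?_
    · have e1 : (∫ x, ((g x - a * g0 x : ℝ) : ℂ) * f x) =
          (∫ x, ((g x : ℝ) : ℂ) * f x) - a * c0 := by
        rw [hc0, ← integral_const_mul, ← integral_sub (hint g hg hgc)
          ((hint g0 hg0s hg0c).const_mul _)]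
        congr 1
        funext x
        push_cast
        ring
      rw [e1] at hk
      have e2 : (∫ x, g x • (f x - c0)) =
          (∫ x, ((g x : ℝ) : ℂ) * f x) - a * c0 := by
        have e3 : ((a : ℝ) : ℂ) * c0 = ∫ x, ((g x : ℝ) : ℂ) * c0 := by
          rw [integral_mul_const, integral_complex_ofReal]
        have hgC : Integrable fun x => ((g x : ℝ) : ℂ) := hgint.ofReal
        rw [e3, ← integral_sub (hint g hg hgc) (hgC.mul_const _)]
        congr 1
        funext x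
        rw [Complex.real_smul]
        ring
      rw [e2, hk]
    · refine (closure_minimal ?_ ((isClosed_tsupport g).union (isClosed_tsupport g0))).trans
        (union_subset hgt hg0t)
      intro x hx
      by_contra hcon
      rw [mem_union, not_or] at hcon
      rw [Function.mem_support] at hx
      apply hx
      rw [image_eq_zero_of_notMem_tsupport hcon.1, image_eq_zero_of_notMem_tsupport hcon.2]
      simp
    · rw [integral_sub hgint (hg0int.const_mul _), integral_const_mul, hg0i]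
      simp [ha]
  -- pointwise
  intro x hx
  by_contra hne
  have hopen : IsOpen (O ∩ {y | f y ≠ c0}) :=
    hOo.inter (isOpen_ne_fun hf continuous_const)
  have hpos : 0 < volume (O ∩ {y | f y ≠ c0}) := hopen.measure_pos _ ⟨x, hx, hne⟩
  have hzero : volume (O ∩ {y | f y ≠ c0}) = 0 := by
    rw [ae_iff] at hae
    refine measure_mono_null ?_ hae
    intro y hy
    simp only [mem_ofPred_eq, Classical.not_imp]
    exact ⟨hy.1, fun h => hy.2 (sub_eq_zero.1 h)⟩
  exact hpos.ne' hzero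

lemma int_cube_of_supp {f : V n → ℂ} (h : ∀ x ∉ cube n, f x = 0) :
    ∫ x in cube n, f x = ∫ x, f x :=
  setIntegral_eq_integral_of_forall_compl_eq_zero h

/-- `∫_cube Σ_ij s_ij ∂_i φ ∂_j W` for solutions vanishes. -/
lemma green_zero (a1 : RowA1) (a2 : RowA2) (a3 : RowA3) {s : MF n} (hs : SmM s)
    (h1 : ∀ x ∉ core n, s x = 1) {W φ : V n → ℂ} (hW : Pg W) (hφ : Pr φ)
    (hW0 : ∀ x ∈ cube n, dv s W x = 0) :
    ∫ x in cube n, ∑ i, pd i φ x * fl s W i x = 0 := by
  rw [green a1 a2 a3 hs h1 hW hφ, neg_eq_zero]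
  rw [← integral_zero (V n) ℂ (μ := volume.restrict (cube n))]
  exact setIntegral_congr_fun (isOpen_cube n).measurableSet fun x hx => by
    simp only [hW0 x hx, mul_zero]

/-- **TOR2, constancy.** If `x_a + w¹` and `x_a + w²` are harmonic for `s₁` and `s₂` on the torus
and the orthogonality identity holds, then `w² - w¹` is constant off `Ω`. -/
theorem const2 (a1 : RowA1) (a2 : RowA2) (a3 : RowA3) (neu : RowNEU) (Ω : Set (V n))
    (hreg : interior (closure Ω) = Ω) (hcore : Ω ⊆ core n) {s₁ s₂ : MF n}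
    (hs₁ : SmM s₁) (hs₂ : SmM s₂) (hsym₁ : ∀ x, (s₁ x).IsSymm)
    (h1 : ∀ x ∉ core n, s₁ x = 1) (h2 : ∀ x ∉ core n, s₂ x = 1) (h12 : ∀ x ∉ Ω, s₂ x = s₁ x)
    {δ : ℝ} (hδ : n ^ 2 * δ ≤ 1 / 2) (hM : ∀ i j, nm 0 (cf 0 (ent s₁ i j)) ≤ δ)
    (hstar : ∀ U W : V n → ℂ, ContDiff ℝ ∞ U → ContDiff ℝ ∞ W →
      (∀ x ∈ Ω, dv s₁ U x = 0) → (∀ x ∈ Ω, dv s₂ W x = 0) →
      bl Ω (fun x => s₂ x - s₁ x) U W = 0)
    {a : Fin n} {c₁ c₂ : Ix n → ℂ} (hc₁ : RD c₁) (hc₂ : RD c₂)
    (hW₁ : ∀ x ∈ cube n, dv s₁ (Wf a c₁) x = 0) (hW₂ : ∀ x ∈ cube n, dv s₂ (Wf a c₂) x = 0) :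
    ∃ c0 : ℂ, ∀ x ∈ cube n, x ∉ Ω → Es 0 c₂ x - Es 0 c₁ x = c0 := by
  have hEc₁ := (G.smooth_Es a1 hc₁)
  have hEc₂ := (G.smooth_Es a1 hc₂)
  refine const_of_test Ω hreg (hEc₂.continuous.sub hEc₁.continuous) ?_
  intro ψ hψ hψs hψc hψΩ hψ0
  obtain ⟨e, he, hφ⟩ := solve a1 a2 a3 neu hs₁ h1 hδ hM hψ hψs hψ0
  have hφP : Pr (Es 0 e) := Pr.es he
  have hφS : ContDiff ℝ ∞ (Es 0 e) := G.smooth_Es a1 he
  have hcc := core_sub_cube n
  -- the difference of the coordinates
  set D : V n → ℂ := fun x => Es 0 c₂ x - Es 0 c₁ x with hD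
  have hDP : Pr D := (Pr.es hc₂).sub (Pr.es hc₁)
  have hψcube : ∀ x ∉ cube n, ψ x = 0 := fun x hx =>
    image_eq_zero_of_notMem_tsupport fun h => hx (hψs h)
  have e1 : ∫ x, ψ x * D x = ∫ x in cube n, D x * dv s₁ (Es 0 e) x := by
    rw [← int_cube_of_supp fun x hx => by rw [hψcube x hx, zero_mul]]
    exact setIntegral_congr_fun (isOpen_cube n).measurableSet fun x hx => by
      simp only [hφ x hx, mul_comm]
  have e2 : ∫ x in cube n, ∑ i, pd i D x * fl s₁ (Es 0 e) i x =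
      -∫ x in cube n, D x * dv s₁ (Es 0 e) x :=
    green a1 a2 a3 hs₁ h1 (hφP.pg a1) hDP
  -- the gradient of `D` as a difference of gradients of the coordinates
  have e3 : ∀ x i, pd i D x = pd i (Wf a c₂) x - pd i (Wf a c₁) x := by
    intro x i
    have : pd i D x = pd i (Es 0 c₂) x - pd i (Es 0 c₁) x := by
      unfold pd
      rw [hD, fderiv_fun_sub (sm_diff hEc₂ x) (sm_diff hEc₁ x)]
      rfl
    rw [this, pd_Wf a1 a hc₁, pd_Wf a1 a hc₂]
    ring
  have hsymc : ∀ (s : MF n), (∀ x, (s x).IsSymm) → ∀ (W : V n → ℂ) x,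
      ∑ i, pd i W x * fl s (Es 0 e) i x = ∑ i, pd i (Es 0 e) x * fl s W i x := by
    intro s hs W x
    unfold fl
    simp_rw [Finset.mul_sum]
    rw [Finset.sum_comm]
    refine Finset.sum_congr rfl fun i _ => Finset.sum_congr rfl fun j _ => ?_
    have : s x j i = s x i j := (hs x).apply i j
    rw [this]
    ring
  have hPg₁ := Pg.wf a1 a hc₁
  have hPg₂ := Pg.wf a1 a hc₂
  have hi : ∀ (s : MF n), SmM s → (∀ x ∉ core n, s x = 1) → ∀ W : V n → ℂ, Pg W →
      IntegrableOn (fun x => ∑ i, pd i (Es 0 e) x * fl s W i x) (cube n) := fun s hs h W hW =>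
    (Pr.sum _ fun i => (hφP.pd a1 i).mul a2 (Pr.fl a2 a3 hs h hW i)).integrableOn a1
  have e4 : ∫ x in cube n, ∑ i, pd i D x * fl s₁ (Es 0 e) i x =
      (∫ x in cube n, ∑ i, pd i (Es 0 e) x * fl s₁ (Wf a c₂) i x) -
      ∫ x in cube n, ∑ i, pd i (Es 0 e) x * fl s₁ (Wf a c₁) i x := by
    rw [← integral_sub (hi s₁ hs₁ h1 _ hPg₂) (hi s₁ hs₁ h1 _ hPg₁)]
    congr 1
    funext x
    rw [← hsymc s₁ hsym₁, ← hsymc s₁ hsym₁, ← Finset.sum_sub_distrib]
    exact Finset.sum_congr rfl fun i _ => by rw [e3]; ring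
  have e5 := green_zero a1 a2 a3 hs₁ h1 hPg₁ hφP hW₁
  have e6 := green_zero a1 a2 a3 hs₂ h2 hPg₂ hφP hW₂
  -- the identity
  have e7 : (∫ x in cube n, ∑ i, pd i (Es 0 e) x * fl s₂ (Wf a c₂) i x) -
      (∫ x in cube n, ∑ i, pd i (Es 0 e) x * fl s₁ (Wf a c₂) i x) = 0 := by
    rw [← integral_sub (hi s₂ hs₂ h2 _ hPg₂) (hi s₁ hs₁ h1 _ hPg₂)]
    have h3 := hstar (Es 0 e) (Wf a c₂) hφS (Wf_smooth a1 a hc₂)
      (fun x hx => by rw [hφ x (hcc (hcore hx))]; exact hψΩ x hx)
      (fun x hx => hW₂ x (hcc (hcore hx)))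
    rw [← h3]
    unfold bl
    have h4 : ∀ x, (∑ i, pd i (Es 0 e) x * fl s₂ (Wf a c₂) i x -
        ∑ i, pd i (Es 0 e) x * fl s₁ (Wf a c₂) i x) =
        ∑ i, ∑ j, ((s₂ x i j - s₁ x i j : ℝ) : ℂ) * pd i (Es 0 e) x * pd j (Wf a c₂) x := by
      intro x
      rw [← Finset.sum_sub_distrib]
      refine Finset.sum_congr rfl fun i _ => ?_
      unfold fl
      rw [← mul_sub, ← Finset.sum_sub_distrib, Finset.mul_sum]
      refine Finset.sum_congr rfl fun j _ => ?_
      push_cast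
      ring
    have h5 : ∀ x ∉ Ω, (∑ i, ∑ j, ((s₂ x i j - s₁ x i j : ℝ) : ℂ) * pd i (Es 0 e) x *
        pd j (Wf a c₂) x) = 0 := by
      intro x hx
      refine Finset.sum_eq_zero fun i _ => Finset.sum_eq_zero fun j _ => ?_
      rw [h12 x hx, sub_self, Complex.ofReal_zero, zero_mul, zero_mul]
    simp_rw [h4]
    rw [setIntegral_eq_integral_of_forall_compl_eq_zero
      (fun x hx => h5 x fun h => hx (hcc (hcore h)))]
    exact (setIntegral_eq_integral_of_forall_compl_eq_zero h5).symm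
  rw [e1]
  have e8 : ∫ x in cube n, D x * dv s₁ (Es 0 e) x = 0 := by
    have h9 := e2
    rw [e4, e5, sub_zero] at h9
    rw [e6, zero_sub, neg_eq_zero] at e7
    rw [e7] at h9
    exact (neg_eq_zero.1 h9.symm)
  exact e8

end Vale.Agent.P088.LR.H27
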