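import Vale.Agent.P088.H27.KCG4

/-!
# P088, stage JB, row K_CG
-/

open MeasureTheory Set Filter
open scoped ContDiff Matrix Topology ComplexConjugate

noncomputable section

namespace Vale.Agent.P088.LR.H27

open Vale.Agent.P088.LR Vale.Agent.P088.LR.U Vale.Agent.P088.LR.H158 Vale.Agent.P088.H833
  Vale.Agent.P088.LR.K

variable {n N : ℕ}

/-- The matrix equation from its entries. -/
lemma mat_eq {f : Fin N → Fin N → V n → ℂ} {T : V n → V n} {M : ℕ} {Λ : Fin n → MC n N}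
    {Q : MC n N} {ν τ x : V n} (h : ∀ α β,
    (∑ j, pd j (pd j (fun y => f α β (T y))) x) + 2 * (((M : ℕ) : ℝ) : ℂ) *
      ∑ j, ze ν τ j * pd j (fun y => f α β (T y)) x +
      ∑ j, ∑ γ, Λ j x α γ * (pd j (fun y => f γ β (T y)) x + (((M : ℕ) : ℝ) : ℂ) * ze ν τ j *
        ((if γ = β then 1 else 0) + f γ β (T x))) +
      ∑ γ, Q x α γ * ((if γ = β then 1 else 0) + f γ β (T x)) = 0)
    (r : MC n N) (hr : r = fun x => Matrix.of fun α β => f α β (T x)) :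
    ∑ j, pdm j (pdm j r) x + (2 * (M : ℂ)) • ∑ j, ze ν τ j • pdm j r x +
      ∑ j, Λ j x * (pdm j r x + ((M : ℂ) * ze ν τ j) • (1 + r x)) + Q x * (1 + r x) = 0 := by
  ext α β
  have er : ∀ γ, r x γ β = f γ β (T x) := fun γ => by rw [hr]; rfl
  have ep : ∀ j γ, pdm j r x γ β = pd j (fun y => f γ β (T y)) x := fun j γ => by rw [hr]; rfl
  have epp : ∀ j, pdm j (pdm j r) x α β = pd j (pd j (fun y => f α β (T y))) x := fun j => by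
    rw [hr]
    rfl
  have e0 : ∀ γ, (1 + r x) γ β = (if γ = β then 1 else 0) + f γ β (T x) := by
    intro γ
    rw [Matrix.add_apply, Matrix.one_apply, er]
  rw [Matrix.add_apply, Matrix.add_apply, Matrix.add_apply, Matrix.zero_apply, Matrix.sum_apply,
    Matrix.smul_apply, Matrix.sum_apply, Matrix.sum_apply, Matrix.mul_apply, smul_eq_mul, ← h α β]
  simp only [Matrix.smul_apply, Matrix.mul_apply, Matrix.add_apply (pdm _ r x), smul_eq_mul, e0, ep,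
    epp, Complex.ofReal_natCast]

/-- The solution for one value of `M`. -/
lemma sol_one {χ : V n → ℂ} (hχ : ContDiff ℝ ∞ χ) (hχs : tsupport χ ⊆ cube n)
    {O : Matrix (Fin n) (Fin n) ℝ} {L : ℝ} {i₀ : Fin n}
    {τ : V n} (hτ : ∑ i, τ i ^ 2 ≤ 1) {C3 : ℝ} (hA3 : ∀ (f : V n → ℂ), ContDiff ℝ ∞ f →
      tsupport f ⊆ cube n → ∀ θ : V n, (∀ j, |θ j| ≤ 1) → ∀ B, Cl (2 + n + 1) B f →
      nm 2 (cf θ f) ≤ C3 * B) {w E ε : ℝ} {Λ : Fin n → MC n N} {Q : MC n N}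
    (hΛ : ∀ i, SmC (Λ i)) (hQ : SmC Q)
    (cL : ∀ a α β, Cl (2 + n + 1) w (fun x => tL χ O L Λ a x α β))
    (cQ' : ∀ α β, Cl (2 + n + 1) w (fun x => tQ χ O L Q x α β))
    (hE : C3 * ((2 * n + 1) * w) = E) (hE1 : C3 * w ≤ E) (hE0 : 0 ≤ E)
    (hs : ((N : ℝ) ^ 3 * (n + 1) ^ 2) * E ≤ 1 / 2)
    (hf : 98 * (((n : ℝ) + 1) ^ 3 * N) * E ≤ ε) {M : ℝ} (hM : 1 ≤ M) :
    ∃ c : Fin N → Fin N → Ix n → ℂ, (∀ α β, RD (c α β)) ∧
      (∀ α β, ∀ x ∈ cube n, ((∑ i, pd i (pd i (Es (CF.th0 i₀) (c α β))) x) +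
        2 * M * ∑ j, zq i₀ τ j * pd j (Es (CF.th0 i₀) (c α β)) x) +
        (M * Gz i₀ τ M (tL χ O L Λ) (tQ χ O L Q) α β x +
        ∑ γ, (Gz i₀ τ M (tL χ O L Λ) (tQ χ O L Q) α γ x * (M * Es (CF.th0 i₀) (c γ β) x) +
          ∑ j, tL χ O L Λ j x α γ * pd j (Es (CF.th0 i₀) (c γ β)) x)) = 0) ∧
      ∀ α β, 49 * (n + 1) ^ 2 * nm 2 (c α β) ≤ ε := by
  have hn0 : (0 : ℝ) ≤ n := Nat.cast_nonneg n
  have hN0 : (0 : ℝ) ≤ N := Nat.cast_nonneg N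
  have tsL : ∀ a α β, tsupport (fun x => tL χ O L Λ a x α β) ⊆ cube n := fun a α β =>
    tsub hχs fun x hx => by
      change χ x * _ = 0
      rw [hx, zero_mul]
  have nL : ∀ a α β, nm 2 (cf 0 (fun x => tL χ O L Λ a x α β)) ≤ E := fun a α β =>
    (hA3 _ (sm_tL hχ hΛ a α β) (tsL a α β) 0 (fun j => by simp) _ (cL a α β)).trans hE1
  have sG : ∀ α γ, ContDiff ℝ ∞ (Gz i₀ τ M (tL χ O L Λ) (tQ χ O L Q) α γ) := fun α γ =>
    (ContDiff.sum fun j _ => contDiff_const.mul (sm_tL hχ hΛ j α γ)).add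
      (contDiff_const.mul (sm_tQ hχ hQ α γ))
  have tG : ∀ α γ, tsupport (Gz i₀ τ M (tL χ O L Λ) (tQ χ O L Q) α γ) ⊆ cube n :=
    fun α γ => tsub hχs fun x hx => by
      have h1 : ∀ j, tL χ O L Λ j x α γ = 0 := fun j => by
        change χ x * _ = 0
        rw [hx, zero_mul]
      have h2 : tQ χ O L Q x α γ = 0 := by
        change χ x * _ = 0
        rw [hx, zero_mul]
      unfold Gz
      simp [h1, h2]
  have nG : ∀ (θ : V n), (∀ j, |θ j| ≤ 1) → ∀ α γ,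
      nm 2 (cf θ (Gz i₀ τ M (tL χ O L Λ) (tQ χ O L Q) α γ)) ≤ E := fun θ hθ α γ => by
    rw [← hE]
    exact hA3 _ (sG α γ) (tG α γ) θ hθ _ (cl_Gz hτ hM (fun i => sm_tL hχ hΛ i)
      (sm_tQ hχ hQ) α γ (fun i => cL i α γ) (cQ' α γ))
  obtain ⟨c, hc, he, hb⟩ := cubeK H501.rowA1 H501.rowA2 H776.rowA3 H102.neu i₀ τ hτ 2 hM
    (tL χ O L Λ) (tQ χ O L Q) (fun j => sm_tL hχ hΛ j) (sm_tQ hχ hQ) tG tsL (by
      have h1 : ∑ α, ∑ γ, (nm 2 (cf 0 (Gz i₀ τ M (tL χ O L Λ) (tQ χ O L Q) α γ)) +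
          ∑ j, nm 2 (cf 0 (fun x => tL χ O L Λ j x α γ))) ≤
          ∑ _α : Fin N, ∑ _γ : Fin N, (E + ∑ _j : Fin n, E) :=
        Finset.sum_le_sum fun α _ => Finset.sum_le_sum fun γ _ =>
          add_le_add (nG 0 (fun j => by simp) α γ) (Finset.sum_le_sum fun j _ => nL j α γ)
      have h2 : ∑ _α : Fin N, ∑ _γ : Fin N, (E + ∑ _j : Fin n, E) =
          N * (N * (E + n * E)) := by
        simp
        ring
      rw [h2] at h1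
      calc _ ≤ (N * (n + 1) : ℝ) * (N * (N * (E + n * E))) :=
            mul_le_mul_of_nonneg_left h1 (by positivity)
        _ = ((N : ℝ) ^ 3 * (n + 1) ^ 2) * E := by ring
        _ ≤ 1 / 2 := hs)
  refine ⟨c, hc, he, fun α β => ?_⟩
  have h3 : nm 2 (c α β) ≤ 2 * (n + 1) * (N * E) := by
    refine (Finset.single_le_sum (f := fun α => nm 2 (c α β))
      (fun _ _ => nm_nonneg' _ _) (Finset.mem_univ α)).trans ((hb β).trans ?_)
    refine mul_le_mul_of_nonneg_left ?_ (by positivity)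
    calc _ ≤ ∑ _α : Fin N, E := Finset.sum_le_sum fun α _ => nG _ (th0_le i₀) α β
      _ = N * E := by simp
  calc 49 * ((n : ℝ) + 1) ^ 2 * nm 2 (c α β) ≤
      49 * ((n : ℝ) + 1) ^ 2 * (2 * (n + 1) * (N * E)) :=
        mul_le_mul_of_nonneg_left h3 (by positivity)
    _ = 98 * (((n : ℝ) + 1) ^ 3 * N) * E := by ring
    _ ≤ ε := hf

/-- The constants. -/
lemma consts (n N : ℕ) {C3 W ε : ℝ} (hC3 : 0 < C3) (hW : 0 < W) (hε : 0 < ε) : ∃ δ E : ℝ,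
    0 < δ ∧ 0 ≤ E ∧ C3 * ((2 * n + 1) * (W * δ)) = E ∧ C3 * (W * δ) ≤ E ∧
    ((N : ℝ) ^ 3 * (n + 1) ^ 2) * E ≤ 1 / 2 ∧ 98 * (((n : ℝ) + 1) ^ 3 * N) * E ≤ ε := by
  have hn0 : (0 : ℝ) ≤ n := Nat.cast_nonneg n
  have hN0 : (0 : ℝ) ≤ N := Nat.cast_nonneg N
  set D : ℝ := 200 * (n + 1) ^ 3 * (N + 1) ^ 3 with hD
  have hD0 : 0 < D := by positivity
  have hm0 : 0 < min 1 ε := lt_min one_pos hε
  set δ : ℝ := min 1 ε / (C3 * ((2 * n + 1) * W) * D) with hδ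
  have hδ0 : 0 < δ := by positivity
  set E : ℝ := C3 * ((2 * n + 1) * (W * δ)) with hE
  have hE0 : 0 ≤ E := by positivity
  have hED : E * D = min 1 ε := by
    rw [hE, hδ]
    field_simp
  have hD1 : (N : ℝ) ^ 3 * (n + 1) ^ 2 ≤ D / 200 := by
    have h1 : (N : ℝ) ^ 3 ≤ (N + 1) ^ 3 := pow_le_pow_left₀ hN0 (by linarith) 3
    have h2 : ((n : ℝ) + 1) ^ 2 ≤ (n + 1) ^ 3 := pow_le_pow_right₀ (by linarith) (by norm_num)
    calc (N : ℝ) ^ 3 * (n + 1) ^ 2 ≤ (N + 1) ^ 3 * (n + 1) ^ 3 :=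
          mul_le_mul h1 h2 (by positivity) (by positivity)
      _ = D / 200 := by rw [hD]; ring
  have hD2 : ((n : ℝ) + 1) ^ 3 * N ≤ D / 200 := by
    have h1 : (N : ℝ) ≤ (N + 1) ^ 3 := by
      have : ((N : ℝ) + 1) ^ 1 ≤ (N + 1) ^ 3 := pow_le_pow_right₀ (by linarith) (by norm_num)
      linarith
    calc ((n : ℝ) + 1) ^ 3 * N ≤ (n + 1) ^ 3 * (N + 1) ^ 3 :=
          mul_le_mul_of_nonneg_left h1 (by positivity)
      _ = D / 200 := by rw [hD]; ring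
  refine ⟨δ, E, hδ0, hE0, rfl, ?_, ?_, ?_⟩
  · rw [hE]
    refine mul_le_mul_of_nonneg_left ?_ hC3.le
    have : 0 ≤ W * δ := by positivity
    nlinarith
  · calc (N : ℝ) ^ 3 * (n + 1) ^ 2 * E ≤ (D / 200) * E := mul_le_mul_of_nonneg_right hD1 hE0
      _ = (E * D) / 200 := by ring
      _ ≤ 1 / 2 := by
          rw [hED]
          have := min_le_left 1 ε
          linarith
  · calc 98 * (((n : ℝ) + 1) ^ 3 * N) * E ≤ 98 * (D / 200) * E := by gcongr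
      _ = (98 / 200) * (E * D) := by ring
      _ ≤ ε := by
          rw [hED]
          have := min_le_right 1 ε
          linarith

/-- **K_CG, strong form**: for every `ε`, all `M ≥ 1`. -/
theorem kcg (n N : ℕ) (R ε : ℝ) (hε : 0 < ε) : ∃ (k : ℕ) (δ : ℝ), 0 < δ ∧
    ∀ (ν τ : V n), OT ν τ → ∀ (Λ : Fin n → MC n N) (Q : MC n N), (∀ i, SmC (Λ i)) → SmC Q →
    (∀ i, ClC k δ (Λ i)) → ClC k δ Q → ∃ r : ℕ → MC n N, (∀ M, SmC (r M)) ∧ ∀ M : ℕ, 1 ≤ M →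
    (∀ x, ‖x‖ ≤ R → ∑ j, pdm j (pdm j (r M)) x + (2 * (M : ℂ)) • ∑ j, ze ν τ j • pdm j (r M) x +
      ∑ j, Λ j x * (pdm j (r M) x + ((M : ℂ) * ze ν τ j) • (1 + r M x)) +
      Q x * (1 + r M x) = 0) ∧
    ∀ x α β, ‖r M x α β‖ ≤ ε ∧ (∀ i, ‖pdm i (r M) x α β‖ ≤ ε) ∧
      ∀ i j, ‖pdm i (pdm j (r M)) x α β‖ ≤ ε := by
  obtain ⟨C3, hC3, hA3⟩ := H776.rowA3 n 2
  obtain ⟨χ, hχ, hχ1, hχs, hχc⟩ := H884.exists_chi n
  obtain ⟨X, hX0, hX⟩ := H884.exists_cl (k := 2 + n + 1) hχ hχc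
  have hn0 : (0 : ℝ) ≤ n := Nat.cast_nonneg n
  have hL1 : 1 ≤ 4 * ((n : ℝ) * |R| + 1) := by
    have : 0 ≤ (n : ℝ) * |R| := by positivity
    linarith
  obtain ⟨L, hL⟩ : ∃ L : ℝ, L = 4 * ((n : ℝ) * |R| + 1) := ⟨_, rfl⟩
  rw [← hL] at hL1
  have hL0 : L ≠ 0 := by positivity
  have hP0 : 0 < (1 + L * n) ^ (2 + n + 1) := by positivity
  have hW0 : 0 < 2 ^ (2 + n + 1) * (X * (L ^ 2 * (n + 1) * (1 + L * n) ^ (2 + n + 1))) := by
    positivity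
  obtain ⟨δ, E, hδ0, hE0, hE, hE1, hs, hf⟩ := consts n N hC3 hW0 hε
  refine ⟨2 + n + 1, δ, hδ0, fun ν τ hOT Λ Q hΛ hQ cΛ cQ => ?_⟩
  obtain ⟨hν, hτ, -⟩ := hOT
  have hn : 0 < n := by
    rcases Nat.eq_zero_or_pos n with h | h
    · subst h
      simp at hν
    · exact h
  let i₀ : Fin n := ⟨0, hn⟩
  have hnr : CF.nr ν = 1 := by
    unfold CF.nr
    rw [hν, Real.sqrt_one]
  obtain ⟨O, hO, hOν⟩ := CF.H952.exists_refl i₀ ν hnr
  have hτ' := ta_sq hO hτ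
  have nt := num_tL n (2 + n + 1) hL1 hX0.le hP0.le hδ0.le
  have hex : ∀ M : ℕ, ∃ c : Fin N → Fin N → Ix n → ℂ, (∀ α β, RD (c α β)) ∧ (1 ≤ M →
      (∀ α β, ∀ x ∈ cube n, ((∑ i, pd i (pd i (Es (CF.th0 i₀) (c α β))) x) +
        2 * ((M * L : ℝ) : ℂ) * ∑ j, zq i₀ (fun i => ∑ k, O i k * τ k) j *
          pd j (Es (CF.th0 i₀) (c α β)) x) +
        (((M * L : ℝ) : ℂ) * Gz i₀ (fun i => ∑ k, O i k * τ k) (M * L) (tL χ O L Λ)
          (tQ χ O L Q) α β x +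
        ∑ γ, (Gz i₀ (fun i => ∑ k, O i k * τ k) (M * L) (tL χ O L Λ) (tQ χ O L Q) α γ x *
          (((M * L : ℝ) : ℂ) * Es (CF.th0 i₀) (c γ β) x) +
          ∑ j, tL χ O L Λ j x α γ * pd j (Es (CF.th0 i₀) (c γ β)) x)) = 0) ∧
      ∀ α β, 49 * (n + 1) ^ 2 * nm 2 (c α β) ≤ ε) := by
    intro M
    by_cases hM : 1 ≤ M
    · have hM1 : (1 : ℝ) ≤ M := by exact_mod_cast hM
      have hML : 1 ≤ (M : ℝ) * L := by nlinarith
      obtain ⟨c, h1, h2, h3⟩ := sol_one (i₀ := i₀) hχ hχs hτ'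
        (fun f h1 h2 θ h3 B h4 => (hA3 f h1 h2 θ h3).2.2 B h4) hΛ hQ
        (fun a α β => H535.cl_le (cl_tL hχ hO hL1 hX hΛ cΛ a α β) le_rfl nt.1)
        (fun α β => H535.cl_le (cl_tQ hχ hO hL1 hX hQ cQ α β) le_rfl nt.2)
        hE hE1 hE0 hs hf hML
      exact ⟨c, h1, fun _ => ⟨h2, h3⟩⟩
    · exact ⟨fun _ _ _ => 0, fun _ _ => rd_zero, fun h => absurd h hM⟩
  choose c hc hcs using hex
  have sE : ∀ M α β, ContDiff ℝ ∞ (Es (CF.th0 i₀) (c M α β)) := fun M α β =>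
    (H501.rowA1 (CF.th0 i₀) (c M α β) (hc M α β)).1
  refine ⟨fun M x => Matrix.of fun α β => Es (CF.th0 i₀) (c M α β) (aff O L x),
    fun M α β => (sE M α β).comp (aff_contDiff O L), fun M hM => ⟨fun x hx => ?_,
      fun x α β => ?_⟩⟩
  · have hM1 : (M : ℝ) ≠ 0 := by
      have : (1 : ℝ) ≤ M := by exact_mod_cast hM
      positivity
    have hX := aff_core hO R hx
    rw [← hL] at hX
    exact mat_eq (f := fun α β => Es (CF.th0 i₀) (c M α β)) (T := aff O L) (M := M) (fun α β =>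
      eq_aff hχ1 hO hL0 (τ := τ) hOν (M := (M : ℝ)) hM1 Λ Q (sE M) hX
        ((hcs M hM).1 α β _ (H884.core_subset_cube n hX))) _ rfl
  · have hb := (hcs M hM).2 α β
    have hbd := fun y => Es_bds H501.rowA1 (sh_th0 i₀) (hc M α β) (le_refl _) y
    have h2 := aff_bds hO hL1 (sE M α β) (fun y => (hbd y).1) (fun y i => (hbd y).2.1 i)
      (fun y i j => (hbd y).2.2 i j) x
    exact ⟨h2.1.trans hb, fun i => (h2.2.1 i).trans hb, fun i j => (h2.2.2 i j).trans hb⟩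

/-- **Row K_CG** (literal). -/
theorem rowCG : K.RowCG := by
  intro n N R
  have h0 : (0 : ℝ) < 1 / (4 * (N + 1)) := by positivity
  obtain ⟨k, δ, hδ, h⟩ := kcg n N R (1 / (4 * (N + 1))) h0
  refine ⟨k, δ, hδ, fun ν τ hOT Λ Q hΛ hQ cΛ cQ => ?_⟩
  obtain ⟨r, hr, hM⟩ := h ν τ hOT Λ Q hΛ hQ cΛ cQ
  refine ⟨r, hr, ?_⟩
  filter_upwards [eventually_ge_atTop 1] with M hM1
  obtain ⟨h1, h2⟩ := hM M hM1
  have hle : (1 : ℝ) / (4 * (N + 1)) ≤ 1 := by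
    rw [div_le_one (by positivity)]
    have : (0 : ℝ) ≤ N := Nat.cast_nonneg N
    linarith
  exact ⟨h1, fun x _ α β => ⟨(h2 x α β).1, fun i => ((h2 x α β).2.1 i).trans hle,
    fun i j => ((h2 x α β).2.2 i j).trans hle⟩⟩

end Vale.Agent.P088.LR.H27
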