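import Vale.Agent.P088.H27.JDual

/-!
# P088, stage J: row U_G2
-/

open MeasureTheory Set Filter
open scoped ContDiff Matrix Topology ComplexConjugate

noncomputable section

namespace Vale.Agent.P088.LR.H27

open Vale.Agent.P088.LR U H158

variable {n N : ℕ}

/-- A cut-off: one on the core, supported in the cube. -/
def chi (x : V n) : ℝ :=
  ∏ j, (Real.smoothTransition (8 * x j - 1) * Real.smoothTransition (8 * (1 - x j) - 1))

lemma chi_smooth : ContDiff ℝ ∞ (chi : V n → ℝ) := by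
  unfold chi
  refine contDiff_prod fun j _ => ?_
  exact (Real.smoothTransition.contDiff.comp
    ((contDiff_const.mul (contDiff_apply ℝ ℝ j)).sub contDiff_const)).mul
    (Real.smoothTransition.contDiff.comp
      ((contDiff_const.mul (contDiff_const.sub (contDiff_apply ℝ ℝ j))).sub contDiff_const))

lemma chi_one {x : V n} (hx : x ∈ core n) : chi x = 1 := by
  unfold chi
  refine Finset.prod_eq_one fun j _ => ?_
  rw [Real.smoothTransition.one_of_one_le (by linarith [(hx j).1]),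
    Real.smoothTransition.one_of_one_le (by linarith [(hx j).2]), one_mul]

lemma chi_supp : tsupport (chi : V n → ℝ) ⊆ cube n := by
  have h1 : Function.support (chi : V n → ℝ) ⊆ {x | ∀ j, 1 / 8 ≤ x j ∧ x j ≤ 7 / 8} := by
    intro x hx j
    by_contra h
    refine hx ?_
    unfold chi
    refine Finset.prod_eq_zero (Finset.mem_univ j) ?_
    rw [not_and_or] at h
    rcases h with h | h
    · rw [Real.smoothTransition.zero_of_nonpos (by linarith [not_le.1 h]), zero_mul]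
    · rw [Real.smoothTransition.zero_of_nonpos (x := 8 * (1 - x j) - 1)
        (by linarith [not_le.1 h]), mul_zero]
  have h2 : IsClosed {x : V n | ∀ j, 1 / 8 ≤ x j ∧ x j ≤ 7 / 8} := by
    simp only [ofPred_forall]
    refine isClosed_iInter fun j => ?_
    exact (isClosed_le continuous_const (continuous_apply j)).inter
      (isClosed_le (continuous_apply j) continuous_const)
  refine (closure_minimal h1 h2).trans fun x hx j => ?_
  exact ⟨by linarith [(hx j).1], by linarith [(hx j).2]⟩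

lemma opA_congr (s : MF n) (A : Cn n N) {u v : Fin N → V n → ℂ} {x : V n}
    (h : ∀ β, u β =ᶠ[𝓝 x] v β) (α : Fin N) : opA s A u α x = opA s A v α x := by
  have hall : ∀ᶠ y in 𝓝 x, ∀ β, u β =ᶠ[𝓝 y] v β :=
    Filter.eventually_all.2 fun β => (h β).eventually_nhds
  have hf : ∀ i α, flS s A u i α =ᶠ[𝓝 x] flS s A v i α := by
    intro i α
    filter_upwards [hall] with y hy
    unfold flS dS
    refine Finset.sum_congr rfl fun j _ => ?_
    rw [pd_congr (hy α)]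
    congr 2
    exact Finset.sum_congr rfl fun β _ => by rw [(hy β).eq_of_nhds]
  unfold opA
  refine Finset.sum_congr rfl fun i _ => ?_
  rw [pd_congr (hf i α)]
  congr 1
  exact Finset.sum_congr rfl fun β _ => by rw [(hf i β).eq_of_nhds]

/-- Both solutions with leading part `P · 1`. -/
theorem pair (a1 : RowA1) (a2 : RowA2) (a3 : RowA3) (neu : RowNEU) (M : ℕ) {θ : V n}
    (hθ : Sh θ) {Ω : Set (V n)}
    (hreg : interior (closure Ω) = Ω) (hcore : Ω ⊆ core n) {s₁ s₂ : MF n}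
    (hs₁ : SmM s₁) (hs₂ : SmM s₂) (hsym₁ : ∀ x, (s₁ x).IsSymm) (hsym₂ : ∀ x, (s₂ x).IsSymm)
    (hs₁1 : ∀ x ∉ core n, s₁ x = 1) (h12 : ∀ x ∉ Ω, s₂ x = s₁ x) {A₁ A₂ : Cn n N}
    (hA₁ : SmU A₁) (hA₂ : SmU A₂) (hA₁0 : ∀ i, ∀ x ∉ core n, A₁ i x = 0)
    (hA12 : ∀ i, ∀ x ∉ Ω, A₂ i x = A₁ i x) (hO : OrU Ω s₁ A₁ s₂ A₂) {δ K : ℝ} (hδ0 : 0 ≤ δ)
    (hδ1 : δ ≤ 1) (hδ : 7 * (n + 3) * (N ^ 2 * ((n + 1) ^ 2 * (2 * (n + 1) ^ 2 * (N + 1) * δ)))
      ≤ 1 / 2)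
    (hM₁ : ∀ i j, nm M (cf 0 (ent s₁ i j)) ≤ δ) (hM₂ : ∀ i j, nm M (cf 0 (ent s₂ i j)) ≤ δ)
    (hc₁ : ∀ i a b, nm M (cf 0 (fun x => A₁ i x a b)) ≤ δ)
    (hc₂ : ∀ i a b, nm M (cf 0 (fun x => A₂ i x a b)) ≤ δ)
    {P : V n → ℂ} (hP : ContDiff ℝ ∞ P) {d : Fin n → ℂ} (hd : ∀ j x, pd j P x = d j)
    (hd1 : ∀ j, ‖d j‖ ≤ 1) {e1 e : Ix n → ℂ} (he1 : RD e1) (he : RD e)
    (r1 : ∀ x ∈ core n, (1 : ℂ) = Es θ e1 x) (r2 : ∀ x ∈ core n, P x = Es θ e x)
    (hK0 : 0 ≤ K) (hK1 : nm M e1 ≤ K) (hK2 : nm M e ≤ K) :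
    ∃ U₁ U₂ : MC n N, SmC U₁ ∧ SmC U₂ ∧ (∀ x ∉ Ω, U₂ x = U₁ x) ∧
      ClC (M + 1) ((2 * Real.pi) ^ (M + 1) *
        (2 * (N * ((n + 3) * (n ^ 2 * (5 + 2 * N) * K))) * δ)) (fun x => U₁ x - P x • 1) ∧
      ClC (M + 1) ((2 * Real.pi) ^ (M + 1) *
        (2 * (N * ((n + 3) * (n ^ 2 * (5 + 2 * N) * K))) * δ)) (fun x => U₂ x - P x • 1) ∧
      (∀ x ∈ cube n, LaC s₁ A₁ U₁ x = 0) ∧ (∀ x ∈ cube n, LaC s₂ A₂ U₂ x = 0) := by
  classical
  have hcc := core_sub_cube n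
  have hs₂1 : ∀ x ∉ core n, s₂ x = 1 := fun x hx => by
    rw [h12 x fun h => hx (hcore h), hs₁1 x hx]
  have hA₂0 : ∀ i, ∀ x ∉ core n, A₂ i x = 0 := fun i x hx => by
    rw [hA12 i x fun h => hx (hcore h), hA₁0 i x hx]
  have q1 := fun i j => rep_core a3 (G.smooth_ent hs₁ i j) fun x hx => ent_off (hs₁1 x hx) i j
  have q2 := fun i j => rep_core a3 (G.smooth_ent hs₂ i j) fun x hx => ent_off (hs₂1 x hx) i j
  have q3 := fun i α β => rep_core a3 (hA₁.1 i α β) fun x hx => by rw [hA₁0 i x hx]; rfl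
  have q4 := fun i α β => rep_core a3 (hA₂.1 i α β) fun x hx => by rw [hA₂0 i x hx]; rfl
  choose w₁ hw₁ he₁ hn₁ using fun b => exists_sol a1 a2 neu M hθ hs₁ hs₁1 hA₁.1 hA₁0
    (fun i j => (q1 i j).1) (fun i α β => (q3 i α β).1) (fun i j => (q1 i j).2)
    (fun i α β => (q3 i α β).2) hδ0 hδ1 hδ hM₁ hc₁ hP hd hd1 he1 he r1 r2 hK0 hK1 hK2 b
  choose w₂ hw₂ he₂ hn₂ using fun b => exists_sol a1 a2 neu M hθ hs₂ hs₂1 hA₂.1 hA₂0
    (fun i j => (q2 i j).1) (fun i α β => (q4 i α β).1) (fun i j => (q2 i j).2)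
    (fun i α β => (q4 i α β).2) hδ0 hδ1 hδ hM₂ hc₂ hP hd hd1 he1 he r1 r2 hK0 hK1 hK2 b
  -- the solver for the second pair
  have hd3 : δ ≤ 2 * (n + 1) ^ 2 * (N + 1) * δ := by
    refine le_mul_of_one_le_left hδ0 ?_
    have h1 : (1 : ℝ) ≤ (n + 1) ^ 2 := by
      have : (0 : ℝ) ≤ n := Nat.cast_nonneg n
      nlinarith
    have h2 : (1 : ℝ) ≤ N + 1 := by
      have : (0 : ℝ) ≤ N := Nat.cast_nonneg N
      linarith
    nlinarith
  have hd2 : (2 * n * δ : ℝ) ≤ 2 * (n + 1) ^ 2 * (N + 1) * δ := by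
    refine mul_le_mul_of_nonneg_right ?_ hδ0
    have h1 : (n : ℝ) ≤ (n + 1) ^ 2 := by
      have : (0 : ℝ) ≤ n := Nat.cast_nonneg n
      nlinarith
    have h2 : (1 : ℝ) ≤ N + 1 := by
      have : (0 : ℝ) ≤ N := Nat.cast_nonneg N
      linarith
    calc (2 * n : ℝ) ≤ 2 * (n + 1) ^ 2 := by linarith
      _ ≤ 2 * (n + 1) ^ 2 * (N + 1) := le_mul_of_one_le_right (by positivity) h2
  have hd4 : (n * (N * (2 * n * δ)) : ℝ) ≤ 2 * (n + 1) ^ 2 * (N + 1) * δ := by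
    have h0 : (0 : ℝ) ≤ n := Nat.cast_nonneg n
    have h0' : (0 : ℝ) ≤ N := Nat.cast_nonneg N
    have h1 : (n * (N * (2 * n)) : ℝ) ≤ 2 * (n + 1) ^ 2 * (N + 1) := by
      have h2 : (n : ℝ) ^ 2 ≤ (n + 1) ^ 2 := by nlinarith
      calc (n * (N * (2 * n)) : ℝ) = 2 * n ^ 2 * N := by ring
        _ ≤ 2 * (n + 1) ^ 2 * (N + 1) := by gcongr; linarith
    calc (n * (N * (2 * n * δ)) : ℝ) = n * (N * (2 * n)) * δ := by ring
      _ ≤ _ := mul_le_mul_of_nonneg_right h1 hδ0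
  have hsol : ∀ ψ : Fin N → V n → ℂ, (∀ α, ContDiff ℝ ∞ (ψ α)) →
      (∀ α, tsupport (ψ α) ⊆ cube n) → ∃ v : Fin N → Ix n → ℂ, (∀ α, RD (v α)) ∧
        ∀ α, ∀ x ∈ cube n, opA s₂ A₂ (fun β => Es θ (v β)) α x = ψ α x := by
    intro ψ hψ hψs
    have q5 := fun α => rep_cube a3 (hψ α) (hψs α) hθ
    have hh := fun i j => (q2 i j).1
    have hc := fun i α β => (q4 i α β).1
    have rs := fun i j => (q2 i j).2
    have rc := fun i α β => (q4 i α β).2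
    obtain ⟨v, hv, hve, -⟩ := solveS (ψ := ψ) a1 a2 neu M hθ hh
      (fun i α β => rd_bA a2 hh hc i α β) (fun i α β => rd_bA' a2 hh hc i α β)
      (fun α β => rd_qA a2 hh hc α β) (fun α => (q5 α).1) rs
      (fun i α β => rep_bA a2 hh hc rs rc i α β) (fun i α β => rep_bA' a2 hh hc rs rc i α β)
      (fun α β => rep_qA a2 hh hc rs rc α β) (fun α => (q5 α).2) hδ
      (fun i j => (hM₂ i j).trans hd3)
      (fun i α β => (nm_bA_le a2 hh hc hδ1 hM₂ hc₂ i α β).trans hd2)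
      (fun i α β => (nm_bA'_le a2 hh hc hδ1 hM₂ hc₂ i α β).trans hd2)
      (fun α β => (nm_qA_le a2 hh hc hδ1 hM₂ hc₂ α β).trans hd4)
    exact ⟨v, hv, fun α x hx => by rw [opA_eq]; exact hve α x hx⟩
  have hag : ∀ b γ, ∀ x ∈ cube n, x ∉ Ω → Es θ (w₂ b γ) x = Es θ (w₁ b γ) x := fun b γ =>
    dual a1 a2 a3 hθ hreg hcore hs₁ hs₂ hsym₁ hsym₂ hs₁1 h12 hA₁ hA₂ hA₁0 hA12 hO hP hd b
      (hw₁ b) (hw₂ b) (he₁ b) (he₂ b) hsol γ
  -- the two matrix functions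
  let f₁ : Fin N → Fin N → V n → ℂ := fun α b x => (if α = b then P x else 0) + Es θ (w₁ b α) x
  let f₂ : Fin N → Fin N → V n → ℂ := fun α b x => (if α = b then P x else 0) + Es θ (w₂ b α) x
  let U₁ : MC n N := fun x => Matrix.of fun α b => f₁ α b x
  let U₂ : MC n N := fun x => Matrix.of fun α b => if x ∈ cube n then f₂ α b x else f₁ α b x
  have hp : ∀ α b : Fin N, ContDiff ℝ ∞ (fun y => if α = b then P y else 0) := fun α b => by
    split_ifs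
    · exact hP
    · exact contDiff_const
  have sf₁ : ∀ α b, ContDiff ℝ ∞ (f₁ α b) := fun α b =>
    (hp α b).add (smooth_EsS a1 θ (hw₁ b α))
  have sf₂ : ∀ α b, ContDiff ℝ ∞ (f₂ α b) := fun α b =>
    (hp α b).add (smooth_EsS a1 θ (hw₂ b α))
  have hoff : ∀ α b, ∀ x ∉ Ω, U₂ x α b = f₁ α b x := by
    intro α b x hx
    change (if x ∈ cube n then f₂ α b x else f₁ α b x) = f₁ α b x
    split_ifs with h
    · change _ + Es θ (w₂ b α) x = _ + Es θ (w₁ b α) x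
      rw [hag b α x h hx]
    · rfl
  have hcl : IsClosed (core n) := (compact_core n).isClosed
  have hin : ∀ α b, ∀ x ∈ cube n, (fun z => U₂ z α b) =ᶠ[𝓝 x] f₂ α b := by
    intro α b x hx
    filter_upwards [(isOpen_cube n).mem_nhds hx] with z hz
    exact if_pos hz
  have hout : ∀ α b, ∀ x ∉ core n, (fun z => U₂ z α b) =ᶠ[𝓝 x] f₁ α b := by
    intro α b x hx
    filter_upwards [hcl.isOpen_compl.mem_nhds hx] with z hz
    exact hoff α b z (fun h => hz (hcore h))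
  have hcover : ∀ x : V n, x ∈ cube n ∨ x ∉ core n := fun x => by
    by_cases h : x ∈ core n
    · exact Or.inl (hcc h)
    · exact Or.inr h
  have hpi : (1 : ℝ) ≤ 2 * Real.pi := by linarith [Real.pi_gt_three]
  set C0 : ℝ := 2 * (N * ((n + 3) * (n ^ 2 * (5 + 2 * N) * K))) * δ with hC0
  have hbE : ∀ (w : Ix n → ℂ), RD w → nm (M + 1) w ≤ C0 → ∀ l ≤ M + 1, ∀ x,
      ‖iteratedFDeriv ℝ l (Es θ w) x‖ ≤ (2 * Real.pi) ^ (M + 1) * C0 := by
    intro w hw hn l hl x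
    refine (norm_iter_EsS a1 hθ l hw x).trans ?_
    exact mul_le_mul (pow_le_pow_right₀ hpi hl) ((G.nm_mono _ hw hl).trans hn)
      (G.nm_nonneg _ _) (by positivity)
  have hPent : ∀ (α b : Fin N) x, (P x • (1 : Matrix (Fin N) (Fin N) ℂ)) α b =
      if α = b then P x else 0 := by
    intro α b x
    rw [Matrix.smul_apply, Matrix.one_apply, smul_eq_mul, mul_ite, mul_one, mul_zero]
  refine ⟨U₁, U₂, fun α b => sf₁ α b, fun α b => ?_, fun x hx => ?_, ?_, ?_, ?_, ?_⟩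
  · rw [contDiff_iff_contDiffAt]
    intro x
    rcases hcover x with h | h
    · exact (sf₂ α b).contDiffAt.congr_of_eventuallyEq (hin α b x h)
    · exact (sf₁ α b).contDiffAt.congr_of_eventuallyEq (hout α b x h)
  · ext α b
    exact hoff α b x hx
  · intro α b l hl x
    have e : (fun x => (U₁ x - P x • 1) α b) = Es θ (w₁ b α) := by
      funext x
      rw [Matrix.sub_apply, hPent]
      change (if α = b then P x else 0) + Es θ (w₁ b α) x - _ = _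
      ring
    rw [e]
    exact hbE _ (hw₁ b α) (hn₁ b α) l hl x
  · intro α b l hl x
    have e : ∀ z, (U₂ z - P z • 1) α b = U₂ z α b - if α = b then P z else 0 := by
      intro z
      rw [Matrix.sub_apply, hPent]
    rcases hcover x with h | h
    · have h1 : (fun x => (U₂ x - P x • 1) α b) =ᶠ[𝓝 x] Es θ (w₂ b α) := by
        filter_upwards [hin α b x h] with z hz
        rw [e z, hz]
        change (if α = b then P z else 0) + Es θ (w₂ b α) z - _ = _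
        ring
      rw [(h1.iteratedFDeriv ℝ l).eq_of_nhds]
      exact hbE _ (hw₂ b α) (hn₂ b α) l hl x
    · have h1 : (fun x => (U₂ x - P x • 1) α b) =ᶠ[𝓝 x] Es θ (w₁ b α) := by
        filter_upwards [hout α b x h] with z hz
        rw [e z, hz]
        change (if α = b then P z else 0) + Es θ (w₁ b α) z - _ = _
        ring
      rw [(h1.iteratedFDeriv ℝ l).eq_of_nhds]
      exact hbE _ (hw₁ b α) (hn₁ b α) l hl x
  · intro x hx
    ext α b
    rw [LaC_eq]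
    exact he₁ b α x hx
  · intro x hx
    ext α b
    rw [LaC_eq, opA_congr s₂ A₂ (v := fun β => f₂ β b) (fun β => hin β b x hx)]
    exact he₂ b α x hx

/-- **U_G2.** -/
theorem rowG2U (a1 : RowA1) (a2 : RowA2) (a3 : RowA3) (neu : RowNEU) : RowG2U := by
  intro n N M hn
  set θ : V n := CF.th0 ⟨0, hn⟩ with hθdef
  have hθ : Sh θ := ⟨⟨0, hn⟩, Or.inl rfl⟩
  -- the expansions of `χ` and `χ x_a`
  have hχc : ContDiff ℝ ∞ (fun x : V n => ((chi x : ℝ) : ℂ)) :=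
    Complex.ofRealCLM.contDiff.comp chi_smooth
  have hxc : ∀ a : Fin n, ContDiff ℝ ∞ (fun x : V n => ((x a : ℝ) : ℂ)) := fun a =>
    Complex.ofRealCLM.contDiff.comp (contDiff_apply ℝ ℝ a)
  have hsupp : tsupport (fun x : V n => ((chi x : ℝ) : ℂ)) ⊆ cube n := by
    refine (closure_mono ?_).trans chi_supp
    intro x hx
    simp only [Function.mem_support, ne_eq, Complex.ofReal_eq_zero] at hx ⊢
    exact hx
  have hsupp2 : ∀ a : Fin n,
      tsupport (fun x : V n => ((chi x : ℝ) : ℂ) * ((x a : ℝ) : ℂ)) ⊆ cube n := fun a => by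
    refine (closure_mono ?_).trans hsupp
    intro x hx
    simp only [Function.mem_support, ne_eq, mul_eq_zero, not_or] at hx ⊢
    exact hx.1
  have q1 := rep_cube a3 hχc hsupp hθ
  have q2 := fun a => rep_cube a3 (hχc.mul (hxc a)) (hsupp2 a) hθ
  set e1 : Ix n → ℂ := cf θ (fun x : V n => ((chi x : ℝ) : ℂ)) with he1
  set e2 : Fin n → Ix n → ℂ := fun a => cf θ (fun x : V n => ((chi x : ℝ) : ℂ) *
    ((x a : ℝ) : ℂ)) with he2
  set K : ℝ := nm M e1 + ∑ a, nm M (e2 a) with hK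
  have hs0 : 0 ≤ ∑ a, nm M (e2 a) := Finset.sum_nonneg fun a _ => G.nm_nonneg _ _
  have hK0 : 0 ≤ K := add_nonneg (G.nm_nonneg _ _) hs0
  have hK1 : nm M e1 ≤ K := by rw [hK]; linarith
  have hK2 : ∀ a, nm M (e2 a) ≤ K := fun a => by
    have h1 := Finset.single_le_sum (f := fun a => nm M (e2 a)) (fun _ _ => G.nm_nonneg _ _)
      (Finset.mem_univ a)
    have h2 := G.nm_nonneg M e1
    rw [hK]
    linarith
  have r1 : ∀ x ∈ core n, (1 : ℂ) = Es θ e1 x := fun x hx => by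
    rw [he1, ← q1.2 x (core_sub_cube n hx), chi_one hx, Complex.ofReal_one]
  have r2 : ∀ a, ∀ x ∈ core n, ((x a : ℝ) : ℂ) = Es θ (e2 a) x := fun a x hx => by
    rw [he2]
    simp only
    rw [← (q2 a).2 x (core_sub_cube n hx), chi_one hx, Complex.ofReal_one, one_mul]
  set Z : ℝ := 14 * (n + 3) * (N ^ 2 * ((n + 1) ^ 2 * (2 * (n + 1) ^ 2 * (N + 1)))) with hZ
  have hZ0 : 0 ≤ Z := by positivity
  refine ⟨(2 * Real.pi) ^ (M + 1) * (2 * (N * ((n + 3) * (n ^ 2 * (5 + 2 * N) * K)))) + 1,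
    1 / (Z + 1), by positivity, by positivity, ?_⟩
  intro Ω _ hreg hcore s₁ s₂ hs₁ hs₂ hsym₁ hsym₂ hs₁1 h12 A₁ A₂ hA₁ hA₂ hA₁0 hA12 hO δ hδ0 hδ
    hM₁ hM₂ hc₁ hc₂
  have hδZ : δ * (Z + 1) ≤ 1 := by rwa [le_div_iff₀ (by positivity)] at hδ
  have hδ1 : δ ≤ 1 := by nlinarith
  have hδ' : 7 * (n + 3) * (N ^ 2 * ((n + 1) ^ 2 * (2 * (n + 1) ^ 2 * (N + 1) * δ))) ≤
      (1 / 2 : ℝ) := by
    have h1 : 7 * (n + 3) * (N ^ 2 * ((n + 1) ^ 2 * (2 * (n + 1) ^ 2 * (N + 1) * δ))) =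
        (1 / 2 : ℝ) * (δ * Z) := by rw [hZ]; ring
    rw [h1]
    nlinarith
  have hCle : (2 * Real.pi) ^ (M + 1) *
      (2 * (N * ((n + 3) * (n ^ 2 * (5 + 2 * N) * K))) * δ) ≤
      ((2 * Real.pi) ^ (M + 1) * (2 * (N * ((n + 3) * (n ^ 2 * (5 + 2 * N) * K)))) + 1) * δ := by
    have h : ∀ a b : ℝ, a * (b * δ) ≤ (a * b + 1) * δ := fun a b => by nlinarith
    exact h _ _
  have hcle : ∀ {P : MC n N}, ClC (M + 1) ((2 * Real.pi) ^ (M + 1) *
      (2 * (N * ((n + 3) * (n ^ 2 * (5 + 2 * N) * K))) * δ)) P → ClC (M + 1)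
      (((2 * Real.pi) ^ (M + 1) * (2 * (N * ((n + 3) * (n ^ 2 * (5 + 2 * N) * K)))) + 1) * δ)
      P := fun h α b l hl x => (h α b l hl x).trans hCle
  obtain ⟨F₁, F₂, sF₁, sF₂, hF, bF₁, bF₂, zF₁, zF₂⟩ := pair a1 a2 a3 neu M hθ hreg hcore hs₁ hs₂
    hsym₁ hsym₂ hs₁1 h12 hA₁ hA₂ hA₁0 hA12 hO hδ0 hδ1 hδ' hM₁ hM₂ hc₁ hc₂
    (P := fun _ => 1) (d := fun _ => 0) contDiff_const (fun j x => pd_const j 1 x)
    (fun j => by simp) q1.1 q1.1 r1 r1 hK0 hK1 hK1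
  choose X₁ X₂ sX₁ sX₂ hX bX₁ bX₂ zX₁ zX₂ using fun a => pair a1 a2 a3 neu M hθ hreg hcore hs₁
    hs₂ hsym₁ hsym₂ hs₁1 h12 hA₁ hA₂ hA₁0 hA12 hO hδ0 hδ1 hδ' hM₁ hM₂ hc₁ hc₂
    (P := fun x => ((x a : ℝ) : ℂ)) (d := fun j => if j = a then 1 else 0) (hxc a)
    (fun j x => pd_lin a j x) (fun j => by split_ifs <;> simp) q1.1 (q2 a).1 r1 (r2 a) hK0 hK1
    (hK2 a)
  refine ⟨F₁, F₂, X₁, X₂, sF₁, sF₂, sX₁, sX₂, hF, fun a => hX a, ?_, ?_, fun a => hcle (bX₁ a),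
    fun a => hcle (bX₂ a), zF₁, zF₂, fun a => zX₁ a, fun a => zX₂ a⟩
  · have h := hcle bF₁
    simp only [one_smul] at h
    exact h
  · have h := hcle bF₂
    simp only [one_smul] at h
    exact h

end Vale.Agent.P088.LR.H27
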