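import Vale.Agent.P088.H27.Const2
import Vale.Agent.P088.H442.Defs3

/-!
# P088, conformally flat backgrounds: rows CF_TOR and CF_G2
-/

open MeasureTheory Set Filter
open scoped ContDiff Matrix Topology ComplexConjugate

noncomputable section

namespace Vale.Agent.P088.LR.H27

open Vale.Agent.P088.LR

variable {n : ℕ}

/-- **CF_TOR.** -/
theorem rowTOR2 (a1 : RowA1) (a2 : RowA2) (a3 : RowA3) (neu : RowNEU) : CF.RowTOR2 := by
  intro n
  refine ⟨1 / (2 * (n ^ 2 + 1)), by positivity, ?_⟩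
  intro s hs h1 hM ψ hψ hψs hψ0
  refine solve a1 a2 a3 neu hs h1 ?_ hM hψ hψs hψ0
  rw [mul_one_div, div_le_iff₀ (by positivity)]
  have : (0 : ℝ) ≤ (n : ℝ) ^ 2 := by positivity
  linarith

lemma wt_neg (k : Ix n) : wt (-k) = wt k := by
  unfold wt
  simp

/-- Coefficients of the conjugate. -/
def rf (c : Ix n → ℂ) (k : Ix n) : ℂ := conj (c (-k))

lemma rd_rf {c : Ix n → ℂ} (hc : RD c) : RD (rf c) := fun m => by
  have h := (Equiv.neg (Ix n)).summable_iff.2 (hc m)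
  refine h.congr fun k => ?_
  simp only [Function.comp_apply, Equiv.neg_apply, rf, wt_neg, RCLike.norm_conj]

lemma nm_rf (m : ℕ) (c : Ix n → ℂ) : nm m (rf c) = nm m c := by
  unfold nm
  rw [← (Equiv.neg (Ix n)).tsum_eq]
  refine tsum_congr fun k => ?_
  simp only [Equiv.neg_apply, rf, wt_neg, RCLike.norm_conj, neg_neg]

lemma Es_rf (c : Ix n → ℂ) (x : V n) : Es 0 (rf c) x = conj (Es 0 c x) := by
  unfold Es
  rw [Complex.conj_tsum, ← (Equiv.neg (Ix n)).tsum_eq]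
  refine tsum_congr fun k => ?_
  simp only [Equiv.neg_apply, rf, neg_neg, map_mul]
  congr 1
  unfold ex
  rw [← Complex.exp_conj]
  congr 1
  simp only [map_mul, Complex.conj_I, Complex.conj_ofReal, fr, Pi.neg_apply, Pi.zero_apply,
    add_zero, map_ofNat, Int.cast_neg]
  push_cast
  simp only [neg_mul, Finset.sum_neg_distrib]
  ring

/-- Coefficients of the real part. -/
def sy (c : Ix n → ℂ) (k : Ix n) : ℂ := (1 / 2) * (c k + rf c k)

lemma rd_half {c : Ix n → ℂ} (hc : RD c) (a : ℂ) : RD fun k => a * c k := fun m => by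
  refine ((hc m).mul_left ‖a‖).congr fun k => ?_
  rw [norm_mul]
  ring

lemma rd_sy {c : Ix n → ℂ} (hc : RD c) : RD (sy c) := rd_half (rd_add hc (rd_rf hc)) _

lemma nm_sy_le {c : Ix n → ℂ} (hc : RD c) (m : ℕ) : nm m (sy c) ≤ nm m c := by
  have h1 : nm m (sy c) ≤ (1 / 2) * (nm m c + nm m (rf c)) := by
    unfold nm
    rw [← (hc m).tsum_add (rd_rf hc m), ← tsum_mul_left]
    refine (rd_sy hc m).tsum_le_tsum (fun k => ?_) (((hc m).add (rd_rf hc m)).mul_left _)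
    unfold sy
    rw [norm_mul, ← mul_add]
    have h2 : ‖(1 / 2 : ℂ)‖ = 1 / 2 := by norm_num
    rw [h2]
    have h3 := norm_add_le (c k) (rf c k)
    have h4 := one_le_wt k
    have h5 : 0 ≤ wt k ^ m := by positivity
    nlinarith [mul_le_mul_of_nonneg_left h3 h5]
  rw [nm_rf] at h1
  linarith

lemma Es_sy {c : Ix n → ℂ} (hc : RD c) (x : V n) :
    Es 0 (sy c) x = (((Es 0 c x).re : ℝ) : ℂ) := by
  have h1 : Es 0 (sy c) x = (1 / 2) * Es 0 (fun k => c k + rf c k) x := by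
    unfold Es sy
    rw [← tsum_mul_left]
    exact tsum_congr fun k => by ring
  rw [h1, G.Es_add hc (rd_rf hc), Es_rf, Complex.add_conj]
  push_cast
  ring

lemma re_Es_sy {c : Ix n → ℂ} (hc : RD c) (x : V n) :
    (((Es 0 (sy c) x).re : ℝ) : ℂ) = Es 0 (sy c) x := by
  rw [Es_sy hc, Complex.ofReal_re]

/-- The torus coordinates of one tensor, real coefficients. -/
lemma tor_real (a1 : RowA1) (a2 : RowA2) (a3 : RowA3) (neu : RowNEU) (M : ℕ)
    {s : MF n} (hs : SmM s) (h1 : ∀ x ∉ core n, s x = 1) {δ : ℝ}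
    (hδ : n ^ 2 * δ ≤ 1 / 2) (hM : ∀ i j, nm M (cf 0 (ent s i j)) ≤ δ) (a : Fin n) :
    ∃ c : Ix n → ℂ, RD c ∧ (∀ x, (((Es 0 c x).re : ℝ) : ℂ) = Es 0 c x) ∧
      nm (M + 1) c ≤ (n + 1) * (2 * (n * δ)) ∧ ∀ x ∈ cube n, dv s (Wf a c) x = 0 := by
  obtain ⟨c, y, T, hn⟩ := G.tor a1 a2 a3 neu M (subset_refl (core n)) hs h1 hδ hM a
  have T' : Tor s a c y := ⟨T.rc, T.ry, fun k => by simpa using T.eq k, T.rep⟩
  refine ⟨sy c, rd_sy T.rc, re_Es_sy T.rc, (nm_sy_le T.rc _).trans hn, fun x hx => ?_⟩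
  have h2 : Wf a (sy c) = fun z => (((Wf a c z).re : ℝ) : ℂ) := by
    funext z
    unfold Wf
    rw [Es_sy T.rc, Complex.add_re, Complex.ofReal_re]
    push_cast
    ring
  rw [h2, dv_re hs (Wf_smooth a1 a T.rc), dv_Wf a1 T' hx, Complex.zero_re, Complex.ofReal_zero]

lemma norm_iter_re_le {f : V n → ℂ} (hf : ContDiff ℝ ∞ f) (l : ℕ) (x : V n) :
    ‖iteratedFDeriv ℝ l (fun z => (f z).re) x‖ ≤ ‖iteratedFDeriv ℝ l f x‖ := by
  have h2 := Complex.reCLM.norm_iteratedFDeriv_comp_left (n := l) (N := ∞)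
    (f := f) (x := x) hf.contDiffAt (by exact_mod_cast le_top)
  refine h2.trans (mul_le_of_le_one_left (norm_nonneg _) ?_)
  exact Complex.reCLM_norm.le

/-- Derivatives of a Fourier series minus a constant. -/
lemma norm_iter_sub_le (a1 : RowA1) {c : Ix n → ℂ} (hc : RD c) {c0 : ℂ} {B : ℝ}
    {L : ℕ} (hB : (2 * Real.pi) ^ L * nm L c ≤ B) (h0 : ‖c0‖ ≤ 2 * B) (hB0 : 0 ≤ B) {l : ℕ}
    (hl : l ≤ L) (x : V n) : ‖iteratedFDeriv ℝ l (fun z => Es 0 c z - c0) x‖ ≤ 3 * B := by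
  have hpi : (1 : ℝ) ≤ 2 * Real.pi := by linarith [Real.pi_gt_three]
  have hBl : (2 * Real.pi) ^ l * nm l c ≤ B :=
    (mul_le_mul (pow_le_pow_right₀ hpi hl) (G.nm_mono _ hc hl)
      (G.nm_nonneg _ _) (by positivity)).trans hB
  rcases Nat.eq_zero_or_pos l with h3 | h3
  · subst h3
    rw [norm_iteratedFDeriv_zero]
    have h4 := G.norm_Es_le hc 0 x
    rw [pow_zero, one_mul] at hBl
    calc ‖Es 0 c x - c0‖ ≤ ‖Es 0 c x‖ + ‖c0‖ := norm_sub_le _ _
      _ ≤ 3 * B := by linarith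
  · obtain ⟨l', rfl⟩ := Nat.exists_eq_succ_of_ne_zero h3.ne'
    have h4 : iteratedFDeriv ℝ (l' + 1) (fun z => Es 0 c z - c0) x =
        iteratedFDeriv ℝ (l' + 1) (Es 0 c) x := by
      rw [iteratedFDeriv_succ_eq_comp_right, iteratedFDeriv_succ_eq_comp_right]
      simp only [Function.comp_apply]
      congr 2
      funext z
      rw [fderiv_sub_const]
    rw [Nat.succ_eq_add_one, h4]
    refine (G.norm_iter_Es a1 (l' + 1) hc x).trans (hBl.trans ?_)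
    linarith

lemma pd_comp_apply {w : V n → V n} (hw : ContDiff ℝ ∞ w) (j a : Fin n) (x : V n) :
    pd j w x a = pd j (fun z => w z a) x := by
  unfold pd
  have h : HasFDerivAt (fun z => w z a)
      ((ContinuousLinearMap.proj (R := ℝ) (φ := fun _ : Fin n => ℝ) a).comp (fderiv ℝ w x)) x :=
    (ContinuousLinearMap.proj (R := ℝ) (φ := fun _ : Fin n => ℝ) a).hasFDerivAt.comp x
      ((hw.differentiable (by simp)) x).hasFDerivAt
  rw [h.fderiv]
  rfl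

lemma pd_ofReal {f : V n → ℝ} (hf : ContDiff ℝ ∞ f) (j : Fin n) (x : V n) :
    pd j (fun z => ((f z : ℝ) : ℂ)) x = ((pd j f x : ℝ) : ℂ) := by
  have h : HasFDerivAt (fun z => ((f z : ℝ) : ℂ))
      (Complex.ofRealCLM.comp (fderiv ℝ f x)) x :=
    Complex.ofRealCLM.hasFDerivAt.comp x ((hf.differentiable (by simp)) x).hasFDerivAt
  unfold pd
  rw [h.fderiv]
  rfl

/-- **CF_G2.** -/
theorem rowG2 (a1 : RowA1) (a2 : RowA2) (a3 : RowA3) (neu : RowNEU) : CF.RowG2 := by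
  intro n M
  have hpi : (1 : ℝ) ≤ 2 * Real.pi := by linarith [Real.pi_gt_three]
  set K : ℝ := (2 * Real.pi) ^ (M + 1) * ((n + 1) * (2 * (n + 1))) with hK
  have hKpos : 0 < K := by positivity
  refine ⟨3 * K, 1 / (2 * (n ^ 2 + 1)), by positivity, by positivity, ?_⟩
  intro Ω _ hreg hcore s₁ s₂ hs₁ hs₂ hsym₁ _ hs₁1 h12 hst δ hδ0 hδ hM₁ hM₂
  have hδ' : (n : ℝ) ^ 2 * δ ≤ 1 / 2 := by
    have h1 : (n : ℝ) ^ 2 * δ ≤ n ^ 2 * (1 / (2 * (n ^ 2 + 1))) :=
      mul_le_mul_of_nonneg_left hδ (by positivity)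
    refine h1.trans ?_
    rw [mul_one_div, div_le_iff₀ (by positivity)]
    linarith
  have hs₂1 : ∀ x ∉ core n, s₂ x = 1 := fun x hx => by
    rw [h12 x fun h => hx (hcore h), hs₁1 x hx]
  choose c₁ hc₁ hr₁ hn₁ hW₁ using fun a => tor_real a1 a2 a3 neu M hs₁ hs₁1 hδ' hM₁ a
  choose c₂ hc₂ hr₂ hn₂ hW₂ using fun a => tor_real a1 a2 a3 neu M hs₂ hs₂1 hδ' hM₂ a
  have hB : ∀ (c : Fin n → Ix n → ℂ), (∀ a, nm (M + 1) (c a) ≤ (n + 1) * (2 * (n * δ))) → ∀ a,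
      (2 * Real.pi) ^ (M + 1) * nm (M + 1) (c a) ≤ K * δ := by
    intro c hc a
    have h1 : ((n : ℝ) + 1) * (2 * (n * δ)) ≤ (n + 1) * (2 * (n + 1)) * δ := by
      have : (n : ℝ) * δ ≤ (n + 1) * δ := by nlinarith
      calc ((n : ℝ) + 1) * (2 * (n * δ)) ≤ (n + 1) * (2 * ((n + 1) * δ)) :=
            mul_le_mul_of_nonneg_left (by linarith) (by positivity)
        _ = _ := by ring
    calc (2 * Real.pi) ^ (M + 1) * nm (M + 1) (c a)
        ≤ (2 * Real.pi) ^ (M + 1) * ((n + 1) * (2 * (n + 1)) * δ) :=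
          mul_le_mul_of_nonneg_left ((hc a).trans h1) (by positivity)
      _ = K * δ := by rw [hK]; ring
  have hB₁ := hB c₁ hn₁
  have hB₂ := hB c₂ hn₂
  have hKδ : 0 ≤ K * δ := by positivity
  have hrd : ∀ i j, RD (cf 0 (ent s₁ i j)) := fun i j => by
    obtain ⟨C, -, h⟩ := a3 n 0
    exact (h (ent s₁ i j) (G.smooth_ent hs₁ i j)
      ((G.tsupport_ent (subset_refl _) hs₁1 i j).trans (core_sub_cube n)) 0
      (fun j => by simp)).1
  have hM0 : ∀ i j, nm 0 (cf 0 (ent s₁ i j)) ≤ δ := fun i j =>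
    (G.nm_mono _ (hrd i j) (Nat.zero_le M)).trans (hM₁ i j)
  -- the constants
  have hconst : ∀ a, ∃ c0 : ℂ, ‖c0‖ ≤ 2 * (K * δ) ∧
      ∀ x ∈ cube n, x ∉ Ω → Es 0 (c₂ a) x - Es 0 (c₁ a) x = c0 := by
    intro a
    obtain ⟨c0, h0⟩ := const2 a1 a2 a3 neu Ω hreg hcore hs₁ hs₂ hsym₁ hs₁1 hs₂1 h12 hδ' hM0
      hst (hc₁ a) (hc₂ a) (hW₁ a) (hW₂ a)
    by_cases hne : ∃ x ∈ cube n, x ∉ Ω
    · obtain ⟨x, hx, hxΩ⟩ := hne
      refine ⟨c0, ?_, h0⟩
      rw [← h0 x hx hxΩ]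
      have hz : ∀ c : Ix n → ℂ, RD c → (2 * Real.pi) ^ (M + 1) * nm (M + 1) c ≤ K * δ →
          ‖Es 0 c x‖ ≤ K * δ := by
        intro c hc h
        refine ((G.norm_Es_le hc 0 x).trans (G.nm_mono _ hc (Nat.zero_le (M + 1)))).trans ?_
        refine le_trans ?_ h
        exact le_mul_of_one_le_left (G.nm_nonneg _ _) (one_le_pow₀ hpi)
      have h1 := hz _ (hc₁ a) (hB₁ a)
      have h2 := hz _ (hc₂ a) (hB₂ a)
      calc ‖Es 0 (c₂ a) x - Es 0 (c₁ a) x‖ ≤ ‖Es 0 (c₂ a) x‖ + ‖Es 0 (c₁ a) x‖ :=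
            norm_sub_le _ _
        _ ≤ 2 * (K * δ) := by linarith
    · refine ⟨0, ?_, fun x hx hxΩ => (hne ⟨x, hx, hxΩ⟩).elim⟩
      rw [norm_zero]
      positivity
  choose c0 hc0 hc0' using hconst
  have hcl : IsClosed (core n) := (compact_core n).isClosed
  classical
  let u₂ : Fin n → V n → ℝ := fun a x => (Es 0 (c₂ a) x - c0 a).re
  let w₁ : V n → V n := fun x a => (Es 0 (c₁ a) x).re
  let w₂ : V n → V n := fun x a => if x ∈ cube n then u₂ a x else w₁ x a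
  have hu₂ : ∀ a, ContDiff ℝ ∞ (u₂ a) := fun a =>
    Complex.reCLM.contDiff.comp ((G.smooth_Es a1 (hc₂ a)).sub contDiff_const)
  have hw₁a : ∀ a, ContDiff ℝ ∞ (fun z => w₁ z a) := fun a =>
    Complex.reCLM.contDiff.comp (G.smooth_Es a1 (hc₁ a))
  have hw₁ : ContDiff ℝ ∞ w₁ := contDiff_pi.2 hw₁a
  have hoff : ∀ x ∉ Ω, ∀ a, w₂ x a = w₁ x a := by
    intro x hx a
    change (if x ∈ cube n then u₂ a x else w₁ x a) = w₁ x a
    split_ifs with h
    · change (Es 0 (c₂ a) x - c0 a).re = (Es 0 (c₁ a) x).re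
      rw [← hc0' a x h hx]
      simp
    · rfl
  have hin : ∀ a, ∀ x ∈ cube n, (fun z => w₂ z a) =ᶠ[𝓝 x] u₂ a := by
    intro a x hx
    filter_upwards [(isOpen_cube n).mem_nhds hx] with z hz
    exact if_pos hz
  have hout : ∀ a, ∀ x ∉ core n, (fun z => w₂ z a) =ᶠ[𝓝 x] fun z => w₁ z a := by
    intro a x hx
    filter_upwards [hcl.isOpen_compl.mem_nhds hx] with z hz
    exact hoff z (fun h => hz (hcore h)) a
  have hcover : ∀ x : V n, x ∈ cube n ∨ x ∉ core n := fun x => by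
    by_cases h : x ∈ core n
    · exact Or.inl (core_sub_cube n h)
    · exact Or.inr h
  have hw₂a : ∀ a, ContDiff ℝ ∞ (fun z => w₂ z a) := fun a => by
    rw [contDiff_iff_contDiffAt]
    intro x
    rcases hcover x with h | h
    · exact (hu₂ a).contDiffAt.congr_of_eventuallyEq (hin a x h)
    · exact (hw₁a a).contDiffAt.congr_of_eventuallyEq (hout a x h)
  have hw₂ : ContDiff ℝ ∞ w₂ := contDiff_pi.2 hw₂a
  have hb₁ : ∀ a, ∀ l ≤ M + 1, ∀ x, ‖iteratedFDeriv ℝ l (fun z => w₁ z a) x‖ ≤ 3 * (K * δ) := by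
    intro a l hl x
    refine (norm_iter_re_le (G.smooth_Es a1 (hc₁ a)) l x).trans ?_
    have h := norm_iter_sub_le a1 (hc₁ a) (c0 := 0) (hB₁ a) (by rw [norm_zero]; positivity)
      hKδ hl x
    simpa using h
  refine ⟨w₁, w₂, fun j a => G.dc j (c₁ a), hw₁, hw₂, ?_, ?_, fun x hx => funext fun a =>
    hoff x hx a, ?_, ?_, ?_, ?_⟩
  · intro l hl x
    rw [mul_assoc]
    exact G.norm_iter_pi (by positivity) (hw₁.contDiffAt.of_le (by exact_mod_cast le_top))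
      fun a => hb₁ a l hl x
  · intro l hl x
    rw [mul_assoc]
    refine G.norm_iter_pi (by positivity) (hw₂.contDiffAt.of_le (by exact_mod_cast le_top))
      fun a => ?_
    rcases hcover x with h | h
    · rw [((hin a x h).iteratedFDeriv ℝ l).eq_of_nhds]
      exact (norm_iter_re_le ((G.smooth_Es a1 (hc₂ a)).sub contDiff_const) l x).trans
        (norm_iter_sub_le a1 (hc₂ a) (hB₂ a) (hc0 a) hKδ hl x)
    · rw [((hout a x h).iteratedFDeriv ℝ l).eq_of_nhds]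
      exact hb₁ a l hl x
  · intro a x hx
    have h1 : (fun z => ((z a + w₁ z a : ℝ) : ℂ)) = Wf a (c₁ a) := by
      funext z
      change ((z a + (Es 0 (c₁ a) z).re : ℝ) : ℂ) = ((z a : ℝ) : ℂ) + Es 0 (c₁ a) z
      rw [Complex.ofReal_add, hr₁ a z]
    rw [h1]
    exact hW₁ a x hx
  · intro a x hx
    have h1 : (fun z => ((z a + w₂ z a : ℝ) : ℂ)) =ᶠ[𝓝 x] fun z =>
        (((Wf a (c₂ a) z - c0 a).re : ℝ) : ℂ) := by
      filter_upwards [hin a x hx] with z hz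
      rw [hz]
      change ((z a + (Es 0 (c₂ a) z - c0 a).re : ℝ) : ℂ) =
        (((((z a : ℝ) : ℂ) + Es 0 (c₂ a) z - c0 a).re : ℝ) : ℂ)
      simp only [Complex.sub_re, Complex.add_re, Complex.ofReal_re]
      push_cast
      ring
    rw [dv_congr s₂ h1, dv_re hs₂ ((Wf_smooth a1 a (hc₂ a)).sub contDiff_const),
      dv_sub_const, hW₂ a x hx, Complex.zero_re, Complex.ofReal_zero]
  · intro j a
    refine ⟨G.rd_dc (hc₁ a) j, ?_⟩
    have h1 := G.sum_nm_dc_le (hc₁ a) M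
    have h2 : nm M (G.dc j (c₁ a)) ≤ ∑ i, nm M (G.dc i (c₁ a)) :=
      Finset.single_le_sum (f := fun i => nm M (G.dc i (c₁ a)))
        (fun _ _ => G.nm_nonneg _ _) (Finset.mem_univ j)
    have h3 : 2 * Real.pi * nm (M + 1) (c₁ a) ≤ K * δ := by
      refine le_trans ?_ (hB₁ a)
      refine mul_le_mul_of_nonneg_right ?_ (G.nm_nonneg _ _)
      exact le_self_pow₀ hpi (Nat.succ_ne_zero M)
    calc nm M (G.dc j (c₁ a)) ≤ K * δ := h2.trans (h1.trans h3)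
      _ ≤ 3 * K * δ := by nlinarith
  · intro j a x
    rw [pd_comp_apply hw₁, ← pd_ofReal (hw₁a a), ← G.pd_Es a1 (hc₁ a)]
    congr 1
    funext z
    exact hr₁ a z

end Vale.Agent.P088.LR.H27
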