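import Vale.Agent.P088.H198.Defs

/-!
# P088, row GAUGE, second half: the harmonic coordinates are constant off `Ω`
-/

open MeasureTheory Set
open scoped ContDiff Matrix

noncomputable section

namespace Vale.Agent.P088.LR.H27

variable {n : ℕ}

lemma norm_ex (ξ x : V n) : ‖ex ξ x‖ = 1 := by
  unfold ex
  rw [Complex.norm_exp]
  simp

lemma ex_cont (ξ : V n) : Continuous (ex ξ) := by
  unfold ex
  fun_prop

lemma one_le_wt (k : Ix n) : 1 ≤ wt k := by
  unfold wt
  have : 0 ≤ ∑ j, |(k j : ℝ)| := Finset.sum_nonneg fun _ _ => abs_nonneg _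
  linarith

lemma rd_summable {c : Ix n → ℂ} (h : RD c) : Summable fun k => ‖c k‖ := by
  simpa using h 0

lemma rd_mono {c d : Ix n → ℂ} (h : RD c) (h' : ∀ k, ‖d k‖ ≤ ‖c k‖) : RD d := fun m =>
  Summable.of_nonneg_of_le (fun k => by have := one_le_wt k; positivity)
    (fun k => mul_le_mul_of_nonneg_left (h' k) (by have := one_le_wt k; positivity)) (h m)

lemma abs_le_wt (k : Ix n) (j : Fin n) : |(k j : ℝ)| ≤ wt k := by
  unfold wt
  have := Finset.single_le_sum (f := fun j => |(k j : ℝ)|) (fun _ _ => abs_nonneg _)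
    (Finset.mem_univ j)
  linarith

/-- Multiplication by `2πi k_j` keeps rapid decrease. -/
lemma rd_mul_k {c : Ix n → ℂ} (h : RD c) (j : Fin n) :
    RD (fun k => 2 * Real.pi * Complex.I * ((fr 0 k j : ℝ) : ℂ) * c k) := fun m => by
  refine Summable.of_nonneg_of_le (fun k => by have := one_le_wt k; positivity)
    (fun k => ?_) ((h (m + 1)).mul_left (2 * Real.pi))
  have h1 := one_le_wt k
  have h2 := abs_le_wt k j
  rw [norm_mul, norm_mul, norm_mul, norm_mul]
  simp only [Complex.norm_I, Complex.norm_real, Real.norm_eq_abs, abs_of_pos Real.pi_pos,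
    Complex.norm_ofNat, mul_one, fr, Pi.zero_apply, add_zero]
  have : wt k ^ m * (2 * Real.pi * |(k j : ℝ)| * ‖c k‖) =
    2 * Real.pi * (wt k ^ m * |(k j : ℝ)| * ‖c k‖) := by ring
  rw [this]
  refine mul_le_mul_of_nonneg_left ?_ (by positivity)
  refine mul_le_mul_of_nonneg_right ?_ (norm_nonneg _)
  rw [pow_succ]
  exact mul_le_mul_of_nonneg_left h2 (by positivity)

/-- `∫ f Es 0 c = Σ c_k f^(-k)`. -/
lemma hasSum_ft {f : V n → ℂ} (hf : Integrable f) {c : Ix n → ℂ} (hc : RD c) :
    HasSum (fun k => c k * cf 0 f (-k)) (∫ x, f x * Es 0 c x) := by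
  have key := hasSum_integral_of_summable_integral_norm (μ := (volume : Measure (V n)))
    (F := fun (k : Ix n) x => f x * (c k * ex (fr 0 k) x)) ?_ ?_
  · have e1 : (fun k : Ix n => c k * cf 0 f (-k)) =
        fun k => ∫ x, f x * (c k * ex (fr 0 k) x) := by
      funext k
      unfold cf ft
      rw [← integral_const_mul]
      congr 1
      funext x
      have : -(fr (0 : V n) (-k)) = fr 0 k := by
        funext j
        simp [fr]
      rw [this]
      ring
    have e2 : (∫ x, f x * Es 0 c x) = ∫ x, ∑' k, f x * (c k * ex (fr 0 k) x) := by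
      congr 1
      funext x
      unfold Es
      rw [tsum_mul_left]
    rw [e1, e2]
    exact key
  · intro k
    have : Integrable (fun x => (c k * ex (fr 0 k) x) * f x) := by
      refine hf.bdd_mul (c := ‖c k‖) ?_ ?_
      · exact (continuous_const.mul (ex_cont _)).aestronglyMeasurable
      · exact Filter.Eventually.of_forall fun x => by rw [norm_mul, norm_ex, mul_one]
    refine this.congr (Filter.Eventually.of_forall fun x => ?_)
    simp only
    ring
  · have e3 : (fun k : Ix n => ∫ x, ‖f x * (c k * ex (fr 0 k) x)‖) =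
        fun k => (∫ x, ‖f x‖) * ‖c k‖ := by
      funext k
      rw [← integral_mul_const]
      congr 1
      funext x
      rw [norm_mul, norm_mul, norm_ex, mul_one]
    rw [e3]
    exact (rd_summable hc).mul_left _

/-- `|k|²` as a complex number. -/
def sq (k : Ix n) : ℂ := ∑ j, (k j : ℂ) ^ 2

lemma sq_eq (k : Ix n) : sq k = ((∑ j, (k j) ^ 2 : ℤ) : ℂ) := by
  unfold sq
  push_cast
  rfl

lemma sq_ne {k : Ix n} (hk : k ≠ 0) : sq k ≠ 0 ∧ 1 ≤ ‖sq k‖ := by
  have h1 : 1 ≤ ∑ j, (k j) ^ 2 := by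
    obtain ⟨j, hj⟩ : ∃ j, k j ≠ 0 := by
      by_contra h
      push Not at h
      exact hk (funext h)
    have h2 : 1 ≤ (k j) ^ 2 := by
      have := sq_pos_of_ne_zero hj
      omega
    exact h2.trans (Finset.single_le_sum (f := fun j => (k j) ^ 2) (fun _ _ => sq_nonneg _)
      (Finset.mem_univ j))
  rw [sq_eq]
  constructor
  · exact_mod_cast (by omega : (∑ j, (k j) ^ 2) ≠ 0)
  · rw [Complex.norm_intCast]
    have : (1 : ℝ) ≤ ((∑ j, (k j) ^ 2 : ℤ) : ℝ) := by exact_mod_cast h1
    exact this.trans (le_abs_self _)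

lemma sq_neg' (k : Ix n) : sq (-k) = sq k := by
  unfold sq
  simp

/-- The solution of `Δ φ = ψ` on the torus. -/
def lap (d : Ix n → ℂ) (k : Ix n) : ℂ := -(d k / (4 * Real.pi ^ 2 * sq k))

lemma norm_lap_le (d : Ix n → ℂ) (k : Ix n) : ‖lap d k‖ ≤ ‖d k‖ := by
  unfold lap
  rw [norm_neg]
  by_cases hk : k = 0
  · have : sq k = 0 := by
      rw [hk]; unfold sq; simp
    rw [this, mul_zero, div_zero, norm_zero]
    exact norm_nonneg _
  · obtain ⟨-, h⟩ := sq_ne hk
    rw [norm_div, norm_mul, norm_mul, norm_pow]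
    simp only [Complex.norm_real, Real.norm_eq_abs, abs_of_pos Real.pi_pos, Complex.norm_ofNat]
    refine div_le_self (norm_nonneg _) ?_
    have hpi : 1 ≤ Real.pi := by linarith [Real.pi_gt_three]
    have : (1 : ℝ) ≤ Real.pi ^ 2 := by nlinarith
    nlinarith

lemma lap_spec {d : Ix n → ℂ} (h0 : d 0 = 0) (k : Ix n) :
    ∑ i, 2 * Real.pi * Complex.I * ((fr (0 : V n) k i : ℝ) : ℂ) *
      (2 * Real.pi * Complex.I * ((fr (0 : V n) k i : ℝ) : ℂ) * lap d k) = d k := by
  have e : ∀ i, 2 * Real.pi * Complex.I * ((fr (0 : V n) k i : ℝ) : ℂ) *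
      (2 * Real.pi * Complex.I * ((fr (0 : V n) k i : ℝ) : ℂ) * lap d k) =
      (k i : ℂ) ^ 2 * (-(4 * Real.pi ^ 2) * lap d k) := by
    intro i
    simp only [fr, Pi.zero_apply, add_zero, Complex.ofReal_intCast]
    have := Complex.I_sq
    linear_combination 4 * (Real.pi : ℂ) ^ 2 * (k i : ℂ) ^ 2 * lap d k * this
  rw [Finset.sum_congr rfl fun i _ => e i, ← Finset.sum_mul]
  change sq k * _ = _
  by_cases hk : k = 0
  · have : sq k = 0 := by
      rw [hk]; unfold sq; simp
    rw [this, zero_mul, hk, h0]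
  · obtain ⟨h, -⟩ := sq_ne hk
    have hpi : (Real.pi : ℂ) ≠ 0 := by exact_mod_cast Real.pi_pos.ne'
    unfold lap
    field_simp

/-- The Laplacian of a Fourier series. -/
lemma dv_one (hA1 : RowA1) {c : Ix n → ℂ} (hc : RD c) (x : V n) :
    dv (fun _ => 1) (Es 0 c) x = Es 0 (fun k => ∑ i, 2 * Real.pi * Complex.I *
      ((fr (0 : V n) k i : ℝ) : ℂ) * (2 * Real.pi * Complex.I *
        ((fr (0 : V n) k i : ℝ) : ℂ) * c k)) x := by
  unfold dv
  have e1 : ∀ i : Fin n, (fun y => ∑ j, (((1 : Matrix (Fin n) (Fin n) ℝ) i j : ℝ) : ℂ) *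
      pd j (Es 0 c) y) = Es 0 (fun k => 2 * Real.pi * Complex.I *
        ((fr (0 : V n) k i : ℝ) : ℂ) * c k) := by
    intro i
    funext y
    rw [Finset.sum_eq_single i]
    · rw [(hA1 0 c hc).2 i y]
      simp
    · intro j _ hj
      simp [hj.symm]
    · intro h
      exact absurd (Finset.mem_univ i) h
  have e2 : ∀ i : Fin n, pd i (fun y => ∑ j, (((1 : Matrix (Fin n) (Fin n) ℝ) i j : ℝ) : ℂ) *
      pd j (Es 0 c) y) x = Es 0 (fun k => 2 * Real.pi * Complex.I *
        ((fr (0 : V n) k i : ℝ) : ℂ) * (2 * Real.pi * Complex.I *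
        ((fr (0 : V n) k i : ℝ) : ℂ) * c k)) x := by
    intro i
    rw [e1 i]
    exact (hA1 0 _ (rd_mul_k hc i)).2 i x
  rw [Finset.sum_congr rfl fun i _ => e2 i]
  unfold Es
  rw [← Summable.tsum_finsetSum]
  · congr 1
    funext k
    rw [Finset.sum_mul]
  · intro i _
    have h := rd_summable (rd_mul_k (rd_mul_k hc i) i)
    refine Summable.of_norm ?_
    refine h.congr fun k => ?_
    rw [norm_mul (_ * _) (ex _ _), norm_ex, mul_one]

lemma compact_core (n : ℕ) : IsCompact (core n) := by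
  have : core n = Set.pi Set.univ fun _ : Fin n => Set.Icc (1 / 4 : ℝ) (3 / 4) := by
    ext x
    simp only [core, Set.mem_pi, Set.mem_univ, true_implies, Set.mem_Icc]
    rfl
  rw [this]
  exact isCompact_univ_pi fun _ => isCompact_Icc

lemma core_sub_cube (n : ℕ) : core n ⊆ cube n := fun x hx j =>
  ⟨by have := (hx j).1; linarith, by have := (hx j).2; linarith⟩

lemma isOpen_cube (n : ℕ) : IsOpen (cube n) := by
  have : cube n = Set.pi Set.univ fun _ : Fin n => Set.Ioo (0 : ℝ) 1 := by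
    ext x
    simp [cube]
  rw [this]
  exact isOpen_set_pi Set.finite_univ fun _ _ => isOpen_Ioo

lemma hcs_of_core {f : V n → ℂ} (h : ∀ x ∉ core n, f x = 0) : HasCompactSupport f :=
  HasCompactSupport.intro (compact_core n) h

/-- The orthogonality against a test function of mean zero. -/
lemma test_zero (hA1 : RowA1) (hA3 : RowA3) (Ω : Set (V n)) (hcore : Ω ⊆ core n)
    (F : Fin n → V n → ℂ) (hF : ∀ j, ContDiff ℝ ∞ (F j)) (hF0 : ∀ j, ∀ x ∉ Ω, F j x = 0)
    (hort : ∀ U : V n → ℂ, ContDiff ℝ ∞ U → (∀ x ∈ Ω, dv (fun _ => 1) U x = 0) →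
      ∫ x in Ω, ∑ j, F j x * pd j U x = 0)
    (c : Ix n → ℂ) (hc : RD c)
    (hck : ∀ k, (sq k * (2 * Real.pi)) * c k = Complex.I * ∑ j, (k j : ℂ) * cf 0 (F j) k)
    (ψ : V n → ℂ) (hψ : ContDiff ℝ ∞ ψ) (hs : tsupport ψ ⊆ cube n) (hψc : HasCompactSupport ψ)
    (hΩψ : ∀ x ∈ Ω, ψ x = 0) (h0 : ∫ x, ψ x = 0) : ∫ x, ψ x * Es 0 c x = 0 := by
  obtain ⟨C, -, hA3'⟩ := hA3 n 0
  obtain ⟨hd, hrep, -⟩ := hA3' ψ hψ hs 0 (fun j => by simp)
  set d := cf 0 ψ with hd_def
  have hd0 : d 0 = 0 := by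
    rw [hd_def]
    unfold cf ft
    rw [← h0]
    congr 1
    funext x
    have : -(fr (0 : V n) (0 : Ix n)) = 0 := by
      funext j
      simp [fr]
    rw [this]
    simp [ex]
  have hl : RD (lap d) := rd_mono hd (norm_lap_le d)
  have hU := (hA1 0 (lap d) hl).1
  have h1 := hort (Es 0 (lap d)) hU ?_
  swap
  · intro x hx
    rw [dv_one hA1 hl]
    have : (fun k => ∑ i, 2 * Real.pi * Complex.I * ((fr (0 : V n) k i : ℝ) : ℂ) *
        (2 * Real.pi * Complex.I * ((fr (0 : V n) k i : ℝ) : ℂ) * lap d k)) = d := by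
      funext k
      exact lap_spec hd0 k
    rw [this, ← hrep x (core_sub_cube n (hcore hx))]
    exact hΩψ x hx
  have hFc : ∀ j, HasCompactSupport (F j) := fun j =>
    hcs_of_core fun x hx => hF0 j x fun h => hx (hcore h)
  have hFi : ∀ j, Integrable (F j) := fun j =>
    (hF j).continuous.integrable_of_hasCompactSupport (hFc j)
  have hEc : ∀ j, Continuous (pd j (Es 0 (lap d))) := fun j => by
    unfold pd
    exact (hU.continuous_fderiv (by simp)).clm_apply continuous_const
  have hint : ∀ j, Integrable (fun x => F j x * pd j (Es 0 (lap d)) x) := fun j =>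
    ((hF j).continuous.mul (hEc j)).integrable_of_hasCompactSupport (hFc j).mul_right
  have h2 : ∑ j, ∫ x, F j x * pd j (Es 0 (lap d)) x = 0 := by
    rw [← integral_finsetSum _ fun j _ => hint j, ← h1]
    symm
    refine setIntegral_eq_integral_of_forall_compl_eq_zero fun x hx => ?_
    exact Finset.sum_eq_zero fun j _ => by rw [hF0 j x hx, zero_mul]
  have h3 : HasSum (fun k => ∑ j, (2 * Real.pi * Complex.I * ((fr (0 : V n) k j : ℝ) : ℂ) *
      lap d k) * cf 0 (F j) (-k)) 0 := by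
    rw [← h2]
    refine hasSum_sum fun j _ => ?_
    have := hasSum_ft (hFi j) (rd_mul_k hl j)
    have e : (∫ x, F j x * pd j (Es 0 (lap d)) x) = ∫ x, F j x * Es 0 (fun k =>
        2 * Real.pi * Complex.I * ((fr 0 k j : ℝ) : ℂ) * lap d k) x := by
      congr 1
      funext x
      rw [(hA1 0 (lap d) hl).2 j x]
    rw [e]
    exact this
  have h4 := hasSum_ft (hψ.continuous.integrable_of_hasCompactSupport hψc) hc
  rw [← (Equiv.neg (Ix n)).hasSum_iff] at h4
  refine h4.unique ?_
  convert h3 using 1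
  funext k
  simp only [Function.comp_apply, Equiv.neg_apply, neg_neg]
  change c (-k) * d k = _
  by_cases hk : k = 0
  · subst hk
    rw [hd0, mul_zero]
    symm
    refine Finset.sum_eq_zero fun j _ => ?_
    simp [fr]
  · obtain ⟨hsq, -⟩ := sq_ne hk
    have hpi : (Real.pi : ℂ) ≠ 0 := by exact_mod_cast Real.pi_pos.ne'
    have hk' := hck (-k)
    rw [sq_neg'] at hk'
    have e1 : ∑ j, (2 * Real.pi * Complex.I * ((fr (0 : V n) k j : ℝ) : ℂ) *
        lap d k) * cf 0 (F j) (-k) = -(2 * Real.pi * lap d k) *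
        (Complex.I * ∑ j, (((-k) j : ℤ) : ℂ) * cf 0 (F j) (-k)) := by
      rw [Finset.mul_sum, Finset.mul_sum]
      refine Finset.sum_congr rfl fun j _ => ?_
      simp only [fr, Pi.zero_apply, add_zero, Complex.ofReal_intCast, Pi.neg_apply, Int.cast_neg]
      ring
    rw [e1, ← hk']
    unfold lap
    field_simp
    ring

/-- **Second half of GAUGE.** The potential is constant off `Ω`. -/
theorem const_off (hA1 : RowA1) (hA3 : RowA3) (Ω : Set (V n))
    (hreg : interior (closure Ω) = Ω) (hcore : Ω ⊆ core n)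
    (F : Fin n → V n → ℂ) (hF : ∀ j, ContDiff ℝ ∞ (F j)) (hF0 : ∀ j, ∀ x ∉ Ω, F j x = 0)
    (hort : ∀ U : V n → ℂ, ContDiff ℝ ∞ U → (∀ x ∈ Ω, dv (fun _ => 1) U x = 0) →
      ∫ x in Ω, ∑ j, F j x * pd j U x = 0)
    (c : Ix n → ℂ) (hc : RD c)
    (hck : ∀ k, ((∑ j, (k j : ℂ) ^ 2) * (2 * Real.pi)) * c k =
      Complex.I * ∑ j, (k j : ℂ) * cf 0 (F j) k) :
    ∃ c0 : ℂ, ∀ x ∈ cube n, x ∉ Ω → Es 0 c x = c0 := by
  set O : Set (V n) := cube n ∩ (closure Ω)ᶜ with hO
  have hOo : IsOpen O := (isOpen_cube n).inter isClosed_closure.isOpen_compl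
  have hWc : Continuous (Es 0 c) := (hA1 0 c hc).1.continuous
  -- reduction to `O`
  suffices h : ∃ c0 : ℂ, ∀ x ∈ O, Es 0 c x = c0 by
    obtain ⟨c0, h⟩ := h
    refine ⟨c0, fun x hx hxΩ => ?_⟩
    have hx' : x ∈ closure O := by
      have h1 : x ∈ closure (closure Ω)ᶜ := by
        rw [closure_compl, hreg]
        exact hxΩ
      rw [hO, Set.inter_comm]
      rw [mem_closure_iff] at h1 ⊢
      intro o ho hxo
      obtain ⟨y, hy1, hy2⟩ := h1 (o ∩ cube n) (ho.inter (isOpen_cube n)) ⟨hxo, hx⟩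
      exact ⟨y, hy1.1, hy2, hy1.2⟩
    have hcl : IsClosed {x | Es 0 c x = c0} := isClosed_eq hWc continuous_const
    exact hcl.closure_subset_iff.2 (fun y hy => h y hy) hx'
  by_cases hne : O.Nonempty
  swap
  · exact ⟨0, fun x hx => (hne ⟨x, hx⟩).elim⟩
  obtain ⟨x0, hx0⟩ := hne
  -- a normalised bump
  obtain ⟨r, hr, hball⟩ := Metric.isOpen_iff.1 hOo x0 hx0
  let χ : ContDiffBump x0 := ⟨r / 4, r / 2, by linarith, by linarith⟩
  set g0 : V n → ℝ := fun x => χ.normed volume x with hg0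
  have hg0s : ContDiff ℝ ∞ g0 := χ.contDiff_normed
  have hg0c : HasCompactSupport g0 := χ.hasCompactSupport_normed
  have hg0t : tsupport g0 ⊆ O := by
    rw [hg0]
    refine (χ.tsupport_normed_eq (μ := volume)).subset.trans ?_
    refine (Metric.closedBall_subset_ball ?_).trans hball
    change r / 2 < r
    linarith
  have hg0i : ∫ x, g0 x = 1 := χ.integral_normed
  have hcc : ∀ g : V n → ℝ, HasCompactSupport g → HasCompactSupport fun x => ((g x : ℝ) : ℂ) :=
    fun g hg => hg.comp_left Complex.ofReal_zero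
  -- test functions
  have key : ∀ g : V n → ℝ, ContDiff ℝ ∞ g → HasCompactSupport g → tsupport g ⊆ O →
      (∫ x, g x = 0) → ∫ x, ((g x : ℝ) : ℂ) * Es 0 c x = 0 := by
    intro g hg hgc hgt hgi
    have hts : tsupport (fun x => ((g x : ℝ) : ℂ)) ⊆ tsupport g :=
      closure_mono fun x hx => by
        rw [Function.mem_support] at hx ⊢
        intro h
        exact hx (by rw [h, Complex.ofReal_zero])
    refine test_zero hA1 hA3 Ω hcore F hF hF0 hort c hc hck _
      (Complex.ofRealCLM.contDiff.comp hg) (hts.trans (hgt.trans inter_subset_left))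
      (hcc g hgc) ?_ ?_
    · intro x hx
      have : x ∉ tsupport g := fun h => (hgt h).2 (subset_closure hx)
      rw [image_eq_zero_of_notMem_tsupport this, Complex.ofReal_zero]
    · rw [integral_complex_ofReal, hgi, Complex.ofReal_zero]
  have hint : ∀ g : V n → ℝ, ContDiff ℝ ∞ g → HasCompactSupport g →
      Integrable fun x => ((g x : ℝ) : ℂ) * Es 0 c x := fun g hg hgc =>
    ((Complex.continuous_ofReal.comp hg.continuous).mul hWc).integrable_of_hasCompactSupport
      (hcc g hgc).mul_right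
  set c0 : ℂ := ∫ x, ((g0 x : ℝ) : ℂ) * Es 0 c x with hc0
  refine ⟨c0, ?_⟩
  have hae : ∀ᵐ x, x ∈ O → Es 0 c x - c0 = 0 := by
    refine hOo.ae_eq_zero_of_integral_contDiff_smul_eq_zero
      ((hWc.sub continuous_const).locallyIntegrable.locallyIntegrableOn _) fun g hg hgc hgt => ?_
    set a : ℝ := ∫ x, g x with ha
    have hgint : Integrable g := hg.continuous.integrable_of_hasCompactSupport hgc
    have hg0int : Integrable g0 := hg0s.continuous.integrable_of_hasCompactSupport hg0c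
    have hk := key (fun x => g x - a * g0 x) (hg.sub (contDiff_const.mul hg0s))
      (hgc.sub (hg0c.mul_left)) ?_ ?_
    · have e1 : (∫ x, ((g x - a * g0 x : ℝ) : ℂ) * Es 0 c x) =
          (∫ x, ((g x : ℝ) : ℂ) * Es 0 c x) - a * c0 := by
        rw [hc0, ← integral_const_mul, ← integral_sub (hint g hg hgc)
          ((hint g0 hg0s hg0c).const_mul _)]
        congr 1
        funext x
        push_cast
        ring
      rw [e1] at hk
      have e2 : (∫ x, g x • (Es 0 c x - c0)) =
          (∫ x, ((g x : ℝ) : ℂ) * Es 0 c x) - a * c0 := by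
        have e3 : ((a : ℝ) : ℂ) * c0 = ∫ x, ((g x : ℝ) : ℂ) * c0 := by
          rw [integral_mul_const, integral_complex_ofReal]
        have hgC : Integrable fun x => ((g x : ℝ) : ℂ) := hgint.ofReal
        rw [e3, ← integral_sub (hint g hg hgc) (hgC.mul_const _)]
        congr 1
        funext x
        rw [Complex.real_smul]
        ring
      rw [e2, hk]
    · refine (closure_minimal ?_ ((isClosed_tsupport g).union (isClosed_tsupport g0))).trans
        (union_subset hgt hg0t)
      intro x hx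
      by_contra hcon
      rw [mem_union, not_or] at hcon
      rw [Function.mem_support] at hx
      apply hx
      rw [image_eq_zero_of_notMem_tsupport hcon.1, image_eq_zero_of_notMem_tsupport hcon.2]
      simp
    · rw [integral_sub hgint (hg0int.const_mul _), integral_const_mul, hg0i]
      simp [ha]
  -- pointwise
  intro x hx
  by_contra hne
  have hopen : IsOpen (O ∩ {y | Es 0 c y ≠ c0}) :=
    hOo.inter (isOpen_ne_fun hWc continuous_const)
  have hpos : 0 < volume (O ∩ {y | Es 0 c y ≠ c0}) := hopen.measure_pos _ ⟨x, hx, hne⟩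
  have hzero : volume (O ∩ {y | Es 0 c y ≠ c0}) = 0 := by
    rw [ae_iff] at hae
    refine measure_mono_null ?_ hae
    intro y hy
    simp only [mem_ofPred_eq, Classical.not_imp]
    exact ⟨hy.1, fun h => hy.2 (sub_eq_zero.1 h)⟩
  exact hpos.ne' hzero

end Vale.Agent.P088.LR.H27
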