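import Vale.Agent.P088.H27.GQA
import Vale.Agent.P088.H198.Defs4

/-!
# P088, row F_GQ2: the solution `v = 1 + w` of `div (s ∇ v) = q v`
-/

open MeasureTheory Set Filter
open scoped ContDiff Matrix Topology ComplexConjugate

noncomputable section

namespace Vale.Agent.P088.LR.H27

open Vale.Agent.P088.LR

variable {n : ℕ}

/-- **GQ2, second half.** -/
theorem gqB2 (a1 : RowA1) (a2 : RowA2) (a3 : RowA3) (neu : RowNEU) (n M : ℕ) :
    ∃ C' : ℝ, 0 < C' ∧
    ∀ (Ω : Set (V n)), interior (closure Ω) = Ω → Ω ⊆ core n → ∀ s₁ s : MF n, SmM s₁ → SmM s →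
    (∀ x, (s₁ x).IsSymm) → (∀ x ∉ core n, s₁ x = 1) → (∀ x ∉ Ω, s x = s₁ x) →
    ∀ q : V n → ℝ, ContDiff ℝ ∞ q → (∀ x ∉ Ω, q x = 0) → StQ Ω s₁ s q →
    ∀ δ : ℝ, n ^ 2 * δ ≤ 1 / 2 → (∀ i j, nm 0 (cf 0 (ent s₁ i j)) ≤ δ) →
    ∀ (r : V n → ℂ), Pr r → (∀ x ∈ core n, r x = 0) → (∫ x in cube n, r x) ≠ 0 →
    ∀ (L : ℂ) (c : Ix n → ℂ), RD c →
    (∀ x ∈ cube n, dv s (Es 0 c) x = (q x : ℂ) * (1 + Es 0 c x) - L * r x) →
    ∀ d : ℝ, 0 ≤ d → d ≤ 1 / 4 → nm (M + 1) c ≤ d →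
    ∃ w : V n → ℝ, ContDiff ℝ ∞ w ∧ (∀ x ∉ Ω, w x = 0) ∧ Cl (M + 1) (C' * d) w ∧
      ∀ x, dv s (fun y => ((1 + w y : ℝ) : ℂ)) x = (q x : ℂ) * ((1 + w x : ℝ) : ℂ) := by
  have hpi : (1 : ℝ) ≤ 2 * Real.pi := by linarith [Real.pi_gt_three]
  refine ⟨2 * (3 * (2 * Real.pi) ^ (M + 1)), by positivity, ?_⟩
  intro Ω hreg hcore s₁ s hs₁ hs hsym₁ hs₁1 hss q hq hq0 hst δ hδ hMδ r hr hr0 hr1 L c hc heq d
    hd0 hd hcd
  have hcc := core_sub_cube n
  have hs1' : ∀ x ∉ core n, s x = 1 := fun x hx => by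
    rw [hss x fun h => hx (hcore h), hs₁1 x hx]
  have hEc := G.smooth_Es a1 hc
  have hWP : Pr (Es 0 c) := Pr.es hc
  have hqP : Pr fun x => ((q x : ℝ) : ℂ) := by
    obtain ⟨C, -, h⟩ := a3 n 0
    have hsup : tsupport (fun x => ((q x : ℝ) : ℂ)) ⊆ core n := by
      refine closure_minimal (fun x hx => ?_) (compact_core n).isClosed
      by_contra hx'
      exact hx (by simp [hq0 x fun h => hx' (hcore h)])
    have h4 := h (fun x => ((q x : ℝ) : ℂ)) (Complex.ofRealCLM.contDiff.comp hq)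
      (hsup.trans hcc) 0 (fun j => by simp)
    exact ⟨_, h4.1, h4.2.1⟩
  have hv0 : ContDiff ℝ ∞ (fun y => 1 + Es 0 c y) := contDiff_const.add hEc
  have hv0eq : ∀ x ∈ Ω, dv s (fun y => 1 + Es 0 c y) x = (q x : ℂ) * (1 + Es 0 c x) := by
    intro x hx
    rw [dv_add_const, heq x (hcc (hcore hx)), hr0 x (hcore hx), mul_zero, sub_zero]
  -- integrals over `Ω` and over the cube
  have hΩcube : ∀ f : V n → ℂ, (∀ x ∉ Ω, f x = 0) → ∫ x in Ω, f x = ∫ x in cube n, f x := by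
    intro f hf
    rw [setIntegral_eq_integral_of_forall_compl_eq_zero hf,
      setIntegral_eq_integral_of_forall_compl_eq_zero fun x hx => hf x fun h =>
        hx (hcc (hcore h))]
  -- `L = 0`
  have hL : L = 0 := by
    have h1 : ∫ x in cube n, ∑ i, pd i (fun _ : V n => (1 : ℂ)) x * fl s (Es 0 c) i x =
        -∫ x in cube n, (1 : ℂ) * dv s (Es 0 c) x :=
      green a1 a2 a3 hs hs1' (hWP.pg a1) (Pr.const 1)
    have h2 : ∫ x in cube n, ∑ i, pd i (fun _ : V n => (1 : ℂ)) x * fl s (Es 0 c) i x = 0 := by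
      simp_rw [pd_const, zero_mul, Finset.sum_const_zero]
      simp
    rw [h2] at h1
    have h3 : ∫ x in cube n, (1 : ℂ) * dv s (Es 0 c) x =
        (∫ x in cube n, (q x : ℂ) * (1 + Es 0 c x)) - L * ∫ x in cube n, r x := by
      rw [← integral_const_mul, ← integral_sub
        ((hqP.mul a2 ((Pr.const 1).add hWP)).integrableOn a1) ((hr.integrableOn a1).const_mul _)]
      exact setIntegral_congr_fun (isOpen_cube n).measurableSet fun x hx => by
        simp only [heq x hx, one_mul]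
    have h4 := hst (fun _ => 1) (fun y => 1 + Es 0 c y) contDiff_const hv0
      (fun x _ => by unfold dv; simp [pd_const]) hv0eq
    have h5 : bl Ω (fun x => s x - s₁ x) (fun _ => (1 : ℂ)) (fun y => 1 + Es 0 c y) = 0 := by
      unfold bl
      simp [pd_const]
    rw [h5, zero_add, hΩcube _ fun x hx => by rw [hq0 x hx]; simp] at h4
    have h6 : ∫ x in cube n, (q x : ℂ) * (1 + Es 0 c x) = 0 := by
      rw [← h4]
      congr 1
      funext x
      ring
    rw [h3, h6, zero_sub, neg_neg] at h1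
    exact (mul_eq_zero.1 h1.symm).resolve_right hr1
  subst hL
  simp only [zero_mul, sub_zero] at heq
  -- constancy
  obtain ⟨c0', h0'⟩ := const_of_test Ω hreg hEc.continuous (by
    intro ψ hψ hψs hψc hψΩ hψ0
    obtain ⟨e, he, hUeq⟩ := solve a1 a2 a3 neu hs₁ hs₁1 hδ hMδ hψ hψs hψ0
    have hU := G.smooth_Es a1 he
    have hUP : Pr (Es 0 e) := Pr.es he
    have hψcube : ∀ x ∉ cube n, ψ x = 0 := fun x hx =>
      image_eq_zero_of_notMem_tsupport fun h => hx (hψs h)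
    have h1 := hst (Es 0 e) (fun y => 1 + Es 0 c y) hU hv0
      (fun x hx => by rw [hUeq x (hcc (hcore hx))]; exact hψΩ x hx) hv0eq
    have g1 : ∫ x in cube n, ∑ i, pd i (Es 0 c) x * fl s₁ (Es 0 e) i x =
        -∫ x in cube n, Es 0 c x * dv s₁ (Es 0 e) x :=
      green a1 a2 a3 hs₁ hs₁1 (hUP.pg a1) hWP
    have g2 : ∫ x in cube n, ∑ i, pd i (Es 0 e) x * fl s (Es 0 c) i x =
        -∫ x in cube n, Es 0 e x * dv s (Es 0 c) x :=
      green a1 a2 a3 hs hs1' (hWP.pg a1) hUP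
    have e1 : ∫ x, ψ x * Es 0 c x = ∫ x in cube n, Es 0 c x * dv s₁ (Es 0 e) x := by
      rw [← int_cube_of_supp fun x hx => by rw [hψcube x hx, zero_mul]]
      exact setIntegral_congr_fun (isOpen_cube n).measurableSet fun x hx => by
        simp only [hUeq x hx, mul_comm]
    have e2 : ∫ x in cube n, Es 0 e x * dv s (Es 0 c) x =
        ∫ x in Ω, (q x : ℂ) * Es 0 e x * (1 + Es 0 c x) := by
      rw [hΩcube _ fun x hx => by rw [hq0 x hx]; simp]
      exact setIntegral_congr_fun (isOpen_cube n).measurableSet fun x hx => by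
        simp only [heq x hx]
        ring
    have hbl : bl Ω (fun x => s x - s₁ x) (Es 0 e) (fun y => 1 + Es 0 c y) =
        ∫ x in cube n, ∑ i, ∑ j, ((s x i j - s₁ x i j : ℝ) : ℂ) * pd i (Es 0 e) x *
          pd j (Es 0 c) x := by
      rw [← hΩcube _ fun x hx => Finset.sum_eq_zero fun i _ => Finset.sum_eq_zero fun j _ => by
        rw [hss x hx]; simp]
      unfold bl
      congr 1
      funext x
      refine Finset.sum_congr rfl fun i _ => Finset.sum_congr rfl fun j _ => ?_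
      rw [pd_add_const]
      rfl
    have hi1 : IntegrableOn (fun x => ∑ i, pd i (Es 0 c) x * fl s₁ (Es 0 e) i x)
        (cube n) :=
      (Pr.sum _ fun i => (hWP.pd a1 i).mul a2
        (Pr.fl a2 a3 hs₁ hs₁1 (hUP.pg a1) i)).integrableOn a1
    have hi2 : IntegrableOn (fun x => ∑ i, ∑ j, ((s x i j - s₁ x i j : ℝ) : ℂ) *
        pd i (Es 0 e) x * pd j (Es 0 c) x) (cube n) := by
      refine (Pr.sum _ fun i => Pr.sum _ fun j => ((Pr.mul a2 ?_
        (hUP.pd a1 i)).mul a2 (hWP.pd a1 j))).integrableOn a1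
      exact ((Pr.mat a3 hs hs1' i j).sub (Pr.mat a3 hs₁ hs₁1 i j)).congr fun x _ => by
        push_cast
        ring
    have e3 : ∫ x in cube n, ∑ i, pd i (Es 0 e) x * fl s (Es 0 c) i x =
        (∫ x in cube n, ∑ i, pd i (Es 0 c) x * fl s₁ (Es 0 e) i x) +
        ∫ x in cube n, ∑ i, ∑ j, ((s x i j - s₁ x i j : ℝ) : ℂ) * pd i (Es 0 e) x *
          pd j (Es 0 c) x := by
      rw [← integral_add hi1 hi2]
      congr 1
      funext x
      have hsy : ∑ i, pd i (Es 0 c) x * fl s₁ (Es 0 e) i x =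
          ∑ i, pd i (Es 0 e) x * fl s₁ (Es 0 c) i x := by
        unfold fl
        simp_rw [Finset.mul_sum]
        rw [Finset.sum_comm]
        refine Finset.sum_congr rfl fun i _ => Finset.sum_congr rfl fun j _ => ?_
        have : s₁ x j i = s₁ x i j := (hsym₁ x).apply i j
        rw [this]
        ring
      rw [hsy, ← Finset.sum_add_distrib]
      refine Finset.sum_congr rfl fun i _ => ?_
      unfold fl
      rw [Finset.mul_sum, Finset.mul_sum, ← Finset.sum_add_distrib]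
      refine Finset.sum_congr rfl fun j _ => ?_
      push_cast
      ring
    rw [hbl] at h1
    rw [e1]
    have e4 : ∫ x in cube n, ∑ i, pd i (Es 0 c) x * fl s₁ (Es 0 e) i x = 0 := by
      rw [e3, e2] at g2
      linear_combination g2 + (-1 : ℂ) * h1
    rw [e4] at g1
    exact neg_eq_zero.1 g1.symm)
  obtain ⟨c0, hc0, h0⟩ : ∃ c0 : ℂ, ‖c0‖ ≤ d ∧ ∀ x ∈ cube n, x ∉ Ω → Es 0 c x = c0 := by
    by_cases hne : ∃ x ∈ cube n, x ∉ Ω
    · obtain ⟨x, hx, hxΩ⟩ := hne
      refine ⟨c0', ?_, h0'⟩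
      rw [← h0' x hx hxΩ]
      exact ((G.norm_Es_le hc 0 x).trans (G.nm_mono _ hc (Nat.zero_le (M + 1)))).trans hcd
    · refine ⟨0, ?_, fun x hx hxΩ => (hne ⟨x, hx, hxΩ⟩).elim⟩
      rw [norm_zero]
      exact hd0
  set κ : ℝ := c0.re with hκ
  have hκ1 : |κ| ≤ 1 / 4 := (Complex.abs_re_le_norm c0).trans (hc0.trans hd)
  have hκ2 : 3 / 4 ≤ 1 + κ := by linarith [(abs_le.1 hκ1).1]
  have hκ3 : (1 + κ)⁻¹ ≤ 2 := by
    rw [inv_le_comm₀ (by linarith) (by norm_num)]
    linarith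
  have hκ4 : 0 ≤ (1 + κ)⁻¹ := inv_nonneg.2 (by linarith)
  classical
  let u : V n → ℝ := fun x => (1 + κ)⁻¹ • (Es 0 c x - c0).re
  let w : V n → ℝ := fun x => if x ∈ cube n then u x else 0
  have hu0 : ContDiff ℝ ∞ (fun x => (Es 0 c x - c0).re) :=
    Complex.reCLM.contDiff.comp (hEc.sub contDiff_const)
  have hu : ContDiff ℝ ∞ u := by
    have h := hu0.const_smul ((1 + κ)⁻¹)
    exact h
  have hcl : IsClosed (core n) := (compact_core n).isClosed
  have hoff : ∀ x ∉ Ω, w x = 0 := by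
    intro x hx
    change (if x ∈ cube n then u x else 0) = 0
    split_ifs with h
    · change (1 + κ)⁻¹ • (Es 0 c x - c0).re = 0
      rw [h0 x h hx]
      simp
    · rfl
  have hin : ∀ x ∈ cube n, w =ᶠ[𝓝 x] u := by
    intro x hx
    filter_upwards [(isOpen_cube n).mem_nhds hx] with z hz
    exact if_pos hz
  have hout : ∀ x ∉ core n, w =ᶠ[𝓝 x] fun _ => 0 := by
    intro x hx
    filter_upwards [hcl.isOpen_compl.mem_nhds hx] with z hz
    exact hoff z (fun h => hz (hcore h))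
  have hcover : ∀ x : V n, x ∈ cube n ∨ x ∉ core n := fun x => by
    by_cases h : x ∈ core n
    · exact Or.inl (core_sub_cube n h)
    · exact Or.inr h
  have hw : ContDiff ℝ ∞ w := by
    rw [contDiff_iff_contDiffAt]
    intro x
    rcases hcover x with h | h
    · exact hu.contDiffAt.congr_of_eventuallyEq (hin x h)
    · exact contDiffAt_const.congr_of_eventuallyEq (hout x h)
  refine ⟨w, hw, hoff, ?_, ?_⟩
  · intro l hl x
    rcases hcover x with h | h
    · rw [((hin x h).iteratedFDeriv ℝ l).eq_of_nhds]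
      have h1 : iteratedFDeriv ℝ l u x =
          (1 + κ)⁻¹ • iteratedFDeriv ℝ l (fun x => (Es 0 c x - c0).re) x :=
        iteratedFDeriv_const_smul_apply' (hu0.of_le (by exact_mod_cast le_top)).contDiffAt
      rw [h1, norm_smul, Real.norm_of_nonneg hκ4]
      have hB : (2 * Real.pi) ^ (M + 1) * nm (M + 1) c ≤ (2 * Real.pi) ^ (M + 1) * d :=
        mul_le_mul_of_nonneg_left hcd (by positivity)
      have hd' : d ≤ (2 * Real.pi) ^ (M + 1) * d :=
        le_mul_of_one_le_left hd0 (one_le_pow₀ hpi)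
      have h2 := (norm_iter_re_le (hEc.sub (contDiff_const (c := c0))) l x).trans
        (norm_iter_sub_le a1 hc hB (by linarith) (by positivity) hl x)
      calc (1 + κ)⁻¹ * ‖iteratedFDeriv ℝ l (fun x => (Es 0 c x - c0).re) x‖
          ≤ 2 * (3 * ((2 * Real.pi) ^ (M + 1) * d)) :=
            mul_le_mul hκ3 h2 (norm_nonneg _) (by norm_num)
        _ = _ := by ring
    · rw [((hout x h).iteratedFDeriv ℝ l).eq_of_nhds]
      have : iteratedFDeriv ℝ l (fun _ : V n => (0 : ℝ)) x = 0 := by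
        rw [iteratedFDeriv_fun_zero]
        rfl
      rw [this, norm_zero]
      positivity
  · intro x
    rcases hcover x with h | h
    · have h1 : (fun z => ((1 + w z : ℝ) : ℂ)) =ᶠ[𝓝 x] fun z =>
          ((((((1 + κ)⁻¹ : ℝ) : ℂ) * (1 + Es 0 c z)).re : ℝ) : ℂ) := by
        filter_upwards [hin x h] with z hz
        rw [hz]
        congr 1
        rw [Complex.re_ofReal_mul]
        change 1 + (1 + κ)⁻¹ • (Es 0 c z - c0).re = _
        simp only [Complex.sub_re, Complex.add_re, Complex.one_re, smul_eq_mul]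
        rw [← hκ]
        have : (1 + κ) ≠ 0 := by linarith
        field_simp
        ring
      have h2 := h1.eq_of_nhds
      rw [dv_congr s h1, dv_re hs (contDiff_const.mul hv0), dv_const_mul hs hv0, dv_add_const,
        heq x h, h2]
      have : (((1 + κ)⁻¹ : ℝ) : ℂ) * ((q x : ℂ) * (1 + Es 0 c x)) =
          ((q x : ℝ) : ℂ) * ((((1 + κ)⁻¹ : ℝ) : ℂ) * (1 + Es 0 c x)) := by ring
      rw [this, Complex.re_ofReal_mul, Complex.ofReal_mul]
    · have h1 : (fun z => ((1 + w z : ℝ) : ℂ)) =ᶠ[𝓝 x] fun _ => 1 := by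
        filter_upwards [hout x h] with z hz
        rw [hz, add_zero, Complex.ofReal_one]
      rw [dv_congr s h1, hq0 x fun h' => h (hcore h'), Complex.ofReal_zero, zero_mul]
      unfold dv
      simp [pd_const]

/-- A bump in the cube off the core. -/
lemma exists_bump (a3 : RowA3) (hn : 1 ≤ n) : ∃ (r : V n → ℂ) (rh : Ix n → ℂ), RD rh ∧
    (∀ x ∈ cube n, r x = Es 0 rh x) ∧ (∀ x ∈ core n, r x = 0) ∧ rh 0 = 1 ∧
    ∫ x in cube n, r x = 1 := by
  let x0 : V n := fun _ => 1 / 8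
  let χ : ContDiffBump x0 := ⟨1 / 32, 1 / 16, by norm_num, by norm_num⟩
  set g0 : V n → ℝ := fun x => χ.normed volume x with hg0
  have hg0s : ContDiff ℝ ∞ g0 := χ.contDiff_normed
  have hg0t : tsupport g0 ⊆ Metric.closedBall x0 (1 / 16) := by
    rw [hg0]
    exact (χ.tsupport_normed_eq (μ := volume)).subset
  have hg0i : ∫ x, g0 x = 1 := χ.integral_normed
  have hball : ∀ x ∈ Metric.closedBall x0 (1 / 16), ∀ j, 1 / 16 ≤ x j ∧ x j ≤ 3 / 16 := by
    intro x hx j
    rw [Metric.mem_closedBall, dist_pi_le_iff (by norm_num)] at hx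
    have h := hx j
    rw [Real.dist_eq, abs_le] at h
    change -(1 / 16) ≤ x j - 1 / 8 ∧ x j - 1 / 8 ≤ 1 / 16 at h
    constructor <;> linarith [h.1, h.2]
  have hts : tsupport (fun x => ((g0 x : ℝ) : ℂ)) ⊆ tsupport g0 :=
    closure_mono fun x hx => by
      rw [Function.mem_support] at hx ⊢
      intro h
      exact hx (by rw [h, Complex.ofReal_zero])
  have htc : tsupport (fun x => ((g0 x : ℝ) : ℂ)) ⊆ cube n := fun x hx j => by
    have h := hball x (hg0t (hts hx)) j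
    constructor <;> linarith [h.1, h.2]
  obtain ⟨C, -, h⟩ := a3 n 0
  have h4 := h (fun x => ((g0 x : ℝ) : ℂ)) (Complex.ofRealCLM.contDiff.comp hg0s) htc 0
    (fun j => by simp)
  have hint : ∫ x, ((g0 x : ℝ) : ℂ) = 1 := by
    rw [integral_complex_ofReal, hg0i, Complex.ofReal_one]
  refine ⟨fun x => ((g0 x : ℝ) : ℂ), _, h4.1, h4.2.1, ?_, ?_, ?_⟩
  · intro x hx
    have : x ∉ tsupport g0 := fun h' => by
      have h5 := hball x (hg0t h') ⟨0, hn⟩
      have h6 := hx ⟨0, hn⟩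
      linarith [h5.2, h6.1]
    change ((g0 x : ℝ) : ℂ) = 0
    rw [image_eq_zero_of_notMem_tsupport this, Complex.ofReal_zero]
  · unfold cf ft
    rw [← hint]
    congr 1
    funext x
    have : -(fr (0 : V n) (0 : Ix n)) = 0 := by
      funext j
      simp [fr]
    rw [this]
    simp [ex]
  · rw [int_cube_of_supp fun x hx => ?_, hint]
    have : x ∉ tsupport (fun x => ((g0 x : ℝ) : ℂ)) := fun h' => hx (htc h')
    exact image_eq_zero_of_notMem_tsupport (f := fun x => ((g0 x : ℝ) : ℂ)) this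

/-- **F_GQ2.** -/
theorem rowGQ2 (a1 : RowA1) (a2 : RowA2) (a3 : RowA3) (neu : RowNEU) : RowGQ2 := by
  intro n M hn
  obtain ⟨C', hC', hB⟩ := gqB2 a1 a2 a3 neu n M
  obtain ⟨r, rh, hrh, hr, hr0, hrh0, hri⟩ := exists_bump (n := n) a3 hn
  set B : ℝ := nm M rh with hBdef
  have hB0 : 0 ≤ B := G.nm_nonneg _ _
  have hn1 : (1 : ℝ) ≤ n := by exact_mod_cast hn
  set D : ℝ := (n + 1) * (2 * (n * (1 + B))) with hD
  have hD0 : 0 < D := by positivity
  set K : ℝ := n * (n ^ 2 + (1 + B)) with hK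
  have hK0 : 0 < K := by positivity
  refine ⟨C' * D, 1 / (4 * (K + D)), by positivity, by positivity, ?_⟩
  intro Ω _ hreg hcore s₁ s hs₁ hs hsym₁ _ hs₁1 hss q hq hq0 hst δ hδ0 hδ hM₁ hM hqM
  have hKδ : K * δ ≤ 1 / 4 := by
    calc K * δ ≤ K * (1 / (4 * (K + D))) := mul_le_mul_of_nonneg_left hδ hK0.le
      _ ≤ 1 / 4 := by
        rw [mul_one_div, div_le_iff₀ (by positivity)]
        linarith
  have hDδ : D * δ ≤ 1 / 4 := by
    calc D * δ ≤ D * (1 / (4 * (K + D))) := mul_le_mul_of_nonneg_left hδ hD0.le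
      _ ≤ 1 / 4 := by
        rw [mul_one_div, div_le_iff₀ (by positivity)]
        linarith
  have hδ1 : n * (n ^ 2 * δ + (1 + B) * δ) ≤ 1 / 2 := by
    have : n * (n ^ 2 * δ + (1 + B) * δ) = K * δ := by rw [hK]; ring
    rw [this]
    linarith
  have hδ2 : (n : ℝ) ^ 2 * δ ≤ 1 / 2 := by
    have h1 : (n : ℝ) ^ 2 * δ ≤ K * δ := by
      refine mul_le_mul_of_nonneg_right ?_ hδ0
      rw [hK]
      nlinarith [sq_nonneg (n : ℝ)]
    linarith
  have hcc := core_sub_cube n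
  have hs1' : ∀ x ∉ core n, s x = 1 := fun x hx => by
    rw [hss x fun h => hx (hcore h), hs₁1 x hx]
  obtain ⟨C3, -, h3⟩ := a3 n 0
  have hsup : tsupport (cx q) ⊆ core n := by
    refine closure_minimal (fun x hx => ?_) (compact_core n).isClosed
    by_contra hx'
    exact hx (by simp [cx, hq0 x fun h => hx' (hcore h)])
  have hqr := h3 (cx q) (Complex.ofRealCLM.contDiff.comp hq) (hsup.trans hcc) 0
    (fun j => by simp)
  obtain ⟨L, c, hc, heq, hcn⟩ := gqA a1 a2 a3 neu M hs hs1' (q := cx q) (r := r)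
    hqr.1 hrh hqr.2.1 hr hrh0 (le_refl B) hδ1 hM hqM
  have hrd : ∀ i j, RD (cf 0 (ent s₁ i j)) := fun i j => by
    exact (h3 (ent s₁ i j) (G.smooth_ent hs₁ i j)
      ((G.tsupport_ent (subset_refl _) hs₁1 i j).trans (core_sub_cube n)) 0
      (fun j => by simp)).1
  have hM0 : ∀ i j, nm 0 (cf 0 (ent s₁ i j)) ≤ δ := fun i j =>
    (G.nm_mono _ (hrd i j) (Nat.zero_le M)).trans (hM₁ i j)
  obtain ⟨w, h1, h2, h3', h4⟩ := hB Ω hreg hcore s₁ s hs₁ hs hsym₁ hs₁1 hss q hq hq0 hst δ hδ2 hM0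
    r ⟨rh, hrh, hr⟩ hr0 (by rw [hri]; exact one_ne_zero) L c hc heq (D * δ) (by positivity)
    hDδ (hcn.trans (by rw [hD]; exact le_of_eq (by ring)))
  refine ⟨w, h1, h2, ?_, h4⟩
  rw [mul_assoc]
  exact h3'

end Vale.Agent.P088.LR.H27
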