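import Vale.Agent.P088.H27.GQB

/-!
# P088, row GQ, first half: the torus solution
-/

open MeasureTheory Set Filter
open scoped ContDiff Matrix Topology ComplexConjugate

noncomputable section

namespace Vale.Agent.P088.LR.H27

open Vale.Agent.P088.LR

variable {n : ℕ}

/-- `-i k_i / (2π |k|²)`. -/
def tau (i : Fin n) (k : Ix n) : ℂ :=
  -(Complex.I * ((k i : ℝ) : ℂ)) / ((2 * Real.pi * G.q2 k : ℝ) : ℂ)

lemma wt_norm_tau_le (i : Fin n) (k : Ix n) : wt k * ‖tau i k‖ ≤ n + 1 := by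
  rcases eq_or_ne k 0 with rfl | hk
  · simp [tau]
    positivity
  have hq : 0 < G.q2 k := lt_of_le_of_ne (G.q2_nonneg k) (G.q2_ne_zero hk).symm
  unfold tau
  rw [norm_div, norm_neg, norm_mul, Complex.norm_I, one_mul, Complex.norm_real,
    Complex.norm_real, Real.norm_eq_abs, Real.norm_of_nonneg (by positivity : (0 : ℝ) ≤
      2 * Real.pi * G.q2 k), mul_div_assoc', div_le_iff₀ (by positivity)]
  have h1 := G.wt_mul_abs_le k i
  refine h1.trans ?_
  refine mul_le_mul_of_nonneg_left ?_ (by positivity)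
  nlinarith [Real.pi_gt_three]

lemma norm_tau_le (i : Fin n) (k : Ix n) : ‖tau i k‖ ≤ 1 := by
  rcases eq_or_ne k 0 with rfl | hk
  · simp [tau]
  have hq : 0 < G.q2 k := lt_of_le_of_ne (G.q2_nonneg k) (G.q2_ne_zero hk).symm
  unfold tau
  rw [norm_div, norm_neg, norm_mul, Complex.norm_I, one_mul, Complex.norm_real,
    Complex.norm_real, Real.norm_eq_abs, Real.norm_of_nonneg (by positivity : (0 : ℝ) ≤
      2 * Real.pi * G.q2 k), div_le_one (by positivity)]
  have h1 := G.abs_le_q2 k i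
  nlinarith [Real.pi_gt_three]

lemma tau_zero (i : Fin n) : tau i (0 : Ix n) = 0 := by simp [tau]

/-- The potential of `y`. -/
def pot (y : Ix n → Fin n → ℂ) (l : Ix n) : ℂ := ∑ j, tau j l * y l j

lemma norm_pot_le (y : Ix n → Fin n → ℂ) (l : Ix n) : ‖pot y l‖ ≤ ∑ j, ‖y l j‖ := by
  unfold pot
  refine (norm_sum_le _ _).trans (Finset.sum_le_sum fun j _ => ?_)
  rw [norm_mul]
  exact mul_le_of_le_one_left (norm_nonneg _) (norm_tau_le j l)

lemma rd_pot {y : Ix n → Fin n → ℂ} (hy : ∀ i, RD fun k => y k i) : RD (pot y) :=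
  G.rdOfSum Finset.univ hy (C := 1) (e := 0) fun k => by
    rw [pow_zero, one_mul, one_mul]; exact norm_pot_le y k

lemma nm_pot_le {y : Ix n → Fin n → ℂ} (hy : ∀ i, RD fun k => y k i) (m : ℕ) :
    nm (m + 1) (pot y) ≤ (n + 1) * ∑ i, nm m fun k => y k i :=
  G.nm_le_of_sum Finset.univ (F := fun i k => y k i) hy fun k => by
    rw [← Finset.mul_sum, pow_succ, mul_assoc]
    have h1 : wt k * ‖pot y k‖ ≤ (n + 1) * ∑ j, ‖y k j‖ := by
      unfold pot
      calc wt k * ‖∑ j, tau j k * y k j‖ ≤ wt k * ∑ j, ‖tau j k‖ * ‖y k j‖ := by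
            refine mul_le_mul_of_nonneg_left ?_ (G.wt_nonneg k)
            refine (norm_sum_le _ _).trans (Finset.sum_le_sum fun j _ => ?_)
            rw [norm_mul]
        _ = ∑ j, (wt k * ‖tau j k‖) * ‖y k j‖ := by
            rw [Finset.mul_sum]; exact Finset.sum_congr rfl fun j _ => by ring
        _ ≤ ∑ j, (n + 1) * ‖y k j‖ := Finset.sum_le_sum fun j _ =>
            mul_le_mul_of_nonneg_right (wt_norm_tau_le j k) (norm_nonneg _)
        _ = _ := by rw [← Finset.mul_sum]
    calc wt k ^ m * (wt k * ‖pot y k‖) ≤ wt k ^ m * ((n + 1) * ∑ j, ‖y k j‖) :=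
          mul_le_mul_of_nonneg_left h1 (pow_nonneg (G.wt_nonneg k) m)
      _ = _ := by ring

/-- The absolute values. -/
def ab (c : Ix n → ℂ) (k : Ix n) : ℂ := ((‖c k‖ : ℝ) : ℂ)

lemma rd_ab {c : Ix n → ℂ} (hc : RD c) : RD (ab c) := fun m => by
  simpa [ab] using hc m

lemma nm_ab (m : ℕ) (c : Ix n → ℂ) : nm m (ab c) = nm m c := by
  simp [nm, ab]

/-- A single term of the convolution of the absolute values. -/
lemma le_cv_ab (a2 : RowA2) {c d : Ix n → ℂ} (hc : RD c) (hd : RD d) (m l : Ix n) :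
    ‖c (m - l)‖ * ‖d l‖ ≤ ‖cv (ab c) (ab d) m‖ := by
  have hs := (a2 (0 : V n) 0 (ab c) (ab d) (rd_ab hc) (rd_ab hd)).2.1 m
  have e : cv (ab c) (ab d) m = ((∑' l, ‖c (m - l)‖ * ‖d l‖ : ℝ) : ℂ) := by
    unfold cv ab
    push_cast
    rfl
  have hs' : Summable fun l => ‖c (m - l)‖ * ‖d l‖ := by
    have : Summable fun l => ((‖c (m - l)‖ * ‖d l‖ : ℝ) : ℂ) := by
      refine hs.congr fun l => ?_
      unfold ab
      push_cast
      rfl
    exact_mod_cast this
  rw [e, Complex.norm_real, Real.norm_of_nonneg (tsum_nonneg fun _ => by positivity)]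
  exact hs'.le_tsum l fun _ _ => by positivity

/-- **GQ, the Neumann solution.** -/
lemma neumannQ (a2 : RowA2) (neu : RowNEU) (M : ℕ) (h : Fin n → Fin n → Ix n → ℂ)
    (hh : ∀ i j, RD (h i j)) {q r : Ix n → ℂ} (hq : RD q) (hr : RD r) (δ B : ℝ)
    (hB : nm M r ≤ B) (hδ : n * (n ^ 2 * δ + (1 + B) * δ) ≤ 1 / 2)
    (hM : ∀ i j, nm M (h i j) ≤ δ) (hqM : nm M q ≤ δ) :
    ∃ y : Ix n → Fin n → ℂ, (∀ i, RD fun k => y k i) ∧
      (∀ k i, y k i = -∑ p, G.PP k i p * ∑ m, cv (h p m) (fun l => y l m) k +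
        tau i k * (q k + cv q (pot y) k - (q 0 + cv q (pot y) 0) * r k)) ∧
      (∑ i, nm M fun k => y k i) ≤ 2 * (n * ((1 + B) * δ)) := by
  have hab := a2 (0 : V n) 0 (ab r) (ab q) (rd_ab hr) (rd_ab hq)
  have hb : ∀ i, RD fun k => tau i k * (q k - q 0 * r k) := fun i => by
    have h1 : RD fun k => q k - q 0 * r k := by
      have := rd_add hq (rd_half hr (-q 0))
      refine fun m => (this m).congr fun k => ?_
      congr 2
      ring
    exact rd_mono h1 fun k => by
      rw [norm_mul]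
      exact mul_le_of_le_one_left (norm_nonneg _) (norm_tau_le i k)
  set γ : Ix n → ℝ := fun k => n * ((∑ i, ∑ m, ‖h i m k‖) + ‖q k‖ + ‖cv (ab r) (ab q) k‖)
    with hγ
  have hγs : ∀ m : ℕ, Summable fun k : Ix n => wt k ^ m * γ k := fun m => by
    have h1 : Summable fun k : Ix n => ∑ i, ∑ j, wt k ^ m * ‖h i j k‖ :=
      summable_sum fun i _ => summable_sum fun j _ => hh i j m
    have h2 := ((h1.add (hq m)).add (hab.1 m)).mul_left (n : ℝ)
    refine h2.congr fun k => ?_
    rw [hγ]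
    simp only [← Finset.mul_sum]
    ring
  obtain ⟨y, hy, he, hbd⟩ := neu (n := n) (d := n)
    (fun k l i j => -∑ p, G.PP k i p * h p j (k - l) +
      tau i k * ((q (k - l) - q (-l) * r k) * tau j l)) γ
    (fun k i => tau i k * (q k - q 0 * r k)) hγs
    (fun k => by rw [hγ]; positivity)
    (fun k l i => by
      have h1 : ∀ j : Fin n, ‖-∑ p, G.PP k j p * h p i (k - l) +
          tau j k * ((q (k - l) - q (-l) * r k) * tau i l)‖ ≤
          (∑ i, ∑ m, ‖h i m (k - l)‖) + ‖q (k - l)‖ + ‖cv (ab r) (ab q) (k - l)‖ := by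
        intro j
        have e1 : ‖∑ p, G.PP k j p * h p i (k - l)‖ ≤ ∑ i, ∑ m, ‖h i m (k - l)‖ := by
          refine (norm_sum_le _ _).trans (Finset.sum_le_sum fun p _ => ?_)
          rw [norm_mul]
          refine (mul_le_of_le_one_left (norm_nonneg _) (G.norm_PP_le k j p)).trans ?_
          exact Finset.single_le_sum (f := fun m => ‖h p m (k - l)‖)
            (fun _ _ => norm_nonneg _) (Finset.mem_univ i)
        have e2 : ‖tau j k * ((q (k - l) - q (-l) * r k) * tau i l)‖ ≤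
            ‖q (k - l)‖ + ‖cv (ab r) (ab q) (k - l)‖ := by
          rw [norm_mul, norm_mul]
          refine (mul_le_of_le_one_left (by positivity) (norm_tau_le j k)).trans ?_
          refine (mul_le_of_le_one_right (norm_nonneg _) (norm_tau_le i l)).trans ?_
          refine (norm_sub_le _ _).trans ?_
          refine add_le_add (le_refl _) ?_
          rw [norm_mul]
          have e3 := le_cv_ab a2 hr hq (k - l) (-l)
          have e4 : k - l - -l = k := by abel
          rw [e4, mul_comm] at e3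
          exact e3
        refine (norm_add_le _ _).trans ?_
        rw [norm_neg]
        linarith
      calc ∑ j, ‖-∑ p, G.PP k j p * h p i (k - l) +
          tau j k * ((q (k - l) - q (-l) * r k) * tau i l)‖
          ≤ ∑ _j : Fin n, ((∑ i, ∑ m, ‖h i m (k - l)‖) + ‖q (k - l)‖ +
            ‖cv (ab r) (ab q) (k - l)‖) := Finset.sum_le_sum fun j _ => h1 j
        _ = γ (k - l) := by rw [hγ]; simp; ring)
    hb M
    (by
      have h1 : ∑' k : Ix n, wt k ^ M * γ k =
          n * ((∑ i, ∑ m, nm M (h i m)) + nm M q + nm M (cv (ab r) (ab q))) := by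
        have e1 : (fun k : Ix n => wt k ^ M * γ k) = fun k => (n : ℝ) *
            (((∑ i, ∑ j, wt k ^ M * ‖h i j k‖) + wt k ^ M * ‖q k‖) +
              wt k ^ M * ‖cv (ab r) (ab q) k‖) := by
          funext k
          rw [hγ]
          simp only [← Finset.mul_sum]
          ring
        have s1 : Summable fun k : Ix n => ∑ i, ∑ j, wt k ^ M * ‖h i j k‖ :=
          summable_sum fun i _ => summable_sum fun j _ => hh i j M
        rw [e1, tsum_mul_left, (s1.add (hq M)).tsum_add (hab.1 M), s1.tsum_add (hq M),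
          Summable.tsum_finsetSum fun i _ => summable_sum fun j _ => hh i j M]
        congr 4
        funext i
        rw [Summable.tsum_finsetSum fun j _ => hh i j M]
        rfl
      rw [h1]
      have h2 : ∑ i, ∑ m, nm M (h i m) ≤ n ^ 2 * δ := by
        calc ∑ i, ∑ m, nm M (h i m) ≤ ∑ _i : Fin n, ∑ _m : Fin n, δ :=
            Finset.sum_le_sum fun i _ => Finset.sum_le_sum fun m _ => hM i m
        _ = n ^ 2 * δ := by simp; ring
      have h3 : nm M (cv (ab r) (ab q)) ≤ B * δ := by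
        refine (hab.2.2.2 M).trans ?_
        rw [nm_ab, nm_ab]
        exact mul_le_mul hB hqM (G.nm_nonneg _ _) ((G.nm_nonneg _ _).trans hB)
      refine le_trans ?_ hδ
      refine mul_le_mul_of_nonneg_left ?_ (by positivity)
      linarith)
  refine ⟨y, hy, fun k i => ?_, ?_⟩
  · have hpot : RD (pot y) := rd_pot hy
    have s1 : ∀ p m k, Summable fun l => h p m (k - l) * y l m := fun p m k =>
      (a2 (0 : V n) 0 (h p m) (fun l => y l m) (hh p m) (hy m)).2.1 k
    have s2 : ∀ k, Summable fun l => q (k - l) * pot y l := fun k =>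
      (a2 (0 : V n) 0 q (pot y) hq hpot).2.1 k
    have e0 := he k i
    have e1 : ∀ l, ∑ j, (-∑ p, G.PP k i p * h p j (k - l) +
        tau i k * ((q (k - l) - q (-l) * r k) * tau j l)) * y l j =
        -∑ p, G.PP k i p * ∑ m, h p m (k - l) * y l m +
        tau i k * (q (k - l) * pot y l - q (0 - l) * pot y l * r k) := by
      intro l
      unfold pot
      have a : ∀ j, (-∑ p, G.PP k i p * h p j (k - l) +
          tau i k * ((q (k - l) - q (-l) * r k) * tau j l)) * y l j =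
          -(∑ p, G.PP k i p * (h p j (k - l) * y l j)) +
          tau i k * ((q (k - l) - q (-l) * r k) * (tau j l * y l j)) := by
        intro j
        rw [add_mul, neg_mul, Finset.sum_mul]
        congr 1
        · congr 1
          exact Finset.sum_congr rfl fun p _ => by ring
        · ring
      rw [Finset.sum_congr rfl fun j _ => a j, Finset.sum_add_distrib, Finset.sum_neg_distrib,
        Finset.sum_comm]
      congr 1
      · congr 1
        exact Finset.sum_congr rfl fun p _ => by rw [Finset.mul_sum]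
      · rw [← Finset.mul_sum, ← Finset.mul_sum, zero_sub]
        ring
    have e2 : ∑' l, ∑ j, (-∑ p, G.PP k i p * h p j (k - l) +
        tau i k * ((q (k - l) - q (-l) * r k) * tau j l)) * y l j =
        -∑ p, G.PP k i p * ∑ m, cv (h p m) (fun l => y l m) k +
        tau i k * (cv q (pot y) k - cv q (pot y) 0 * r k) := by
      simp_rw [e1]
      have t1 : Summable fun l => ∑ p, G.PP k i p * ∑ m, h p m (k - l) * y l m :=
        summable_sum fun p _ => (summable_sum fun m _ => s1 p m k).mul_left _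
      have t2 : Summable fun l => q (k - l) * pot y l - q (0 - l) * pot y l * r k :=
        (s2 k).sub ((s2 0).mul_right _)
      rw [t1.neg.tsum_add (t2.mul_left _), tsum_neg, tsum_mul_left,
        (s2 k).tsum_sub ((s2 0).mul_right _), tsum_mul_right,
        Summable.tsum_finsetSum fun p _ => (summable_sum fun m _ => s1 p m k).mul_left _]
      congr 1
      congr 1
      refine Finset.sum_congr rfl fun p _ => ?_
      rw [tsum_mul_left, Summable.tsum_finsetSum fun m _ => s1 p m k]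
      rfl
    rw [e0, e2]
    ring
  · refine (hbd M le_rfl).trans ?_
    refine mul_le_mul_of_nonneg_left ?_ (by norm_num)
    have h1 : ∀ i, nm M (fun k => tau i k * (q k - q 0 * r k)) ≤ (1 + B) * δ := by
      intro i
      have h2 : nm M (fun k => tau i k * (q k - q 0 * r k)) ≤ nm M q + ‖q 0‖ * nm M r := by
        unfold nm
        rw [← tsum_mul_left, ← (hq M).tsum_add ((hr M).mul_left _)]
        refine (hb i M).tsum_le_tsum (fun k => ?_) ((hq M).add ((hr M).mul_left _))
        have h3 : ‖tau i k * (q k - q 0 * r k)‖ ≤ ‖q k‖ + ‖q 0‖ * ‖r k‖ := by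
          rw [norm_mul]
          refine (mul_le_of_le_one_left (norm_nonneg _) (norm_tau_le i k)).trans ?_
          refine (norm_sub_le _ _).trans ?_
          rw [norm_mul]
        have h4 : 0 ≤ wt k ^ M := pow_nonneg (G.wt_nonneg k) M
        nlinarith [mul_le_mul_of_nonneg_left h3 h4]
      have h5 : ‖q 0‖ ≤ δ := by
        have h6 : wt (0 : Ix n) ^ M * ‖q 0‖ ≤ nm M q :=
          (hq M).le_tsum 0 fun k _ => mul_nonneg (pow_nonneg (G.wt_nonneg k) M) (norm_nonneg _)
        have h7 : wt (0 : Ix n) = 1 := by simp [wt]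
        rw [h7, one_pow, one_mul] at h6
        exact h6.trans hqM
      have h8 : ‖q 0‖ * nm M r ≤ δ * B :=
        mul_le_mul h5 hB (G.nm_nonneg _ _) ((norm_nonneg _).trans h5)
      linarith
    calc ∑ i, nm M (fun k => tau i k * (q k - q 0 * r k)) ≤ ∑ _i : Fin n, (1 + B) * δ :=
          Finset.sum_le_sum fun i _ => h1 i
      _ = n * ((1 + B) * δ) := by simp

/-- Consequences of the fixed point equation: `y` is a gradient. -/
lemma grad_of_fix {y : Ix n → Fin n → ℂ} {R : Ix n → ℂ}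
    {F : Fin n → Ix n → ℂ} (he : ∀ k i, y k i = -∑ p, G.PP k i p * F p k + tau i k * R k)
    (k : Ix n) (i : Fin n) : y k i = G.dc i (pot y) k := by
  rcases eq_or_ne k 0 with rfl | hk
  · rw [he, tau_zero]
    simp [G.PP, G.dc]
  have hq : ((G.q2 k : ℝ) : ℂ) ≠ 0 := by exact_mod_cast G.q2_ne_zero hk
  have hp : (Real.pi : ℂ) ≠ 0 := by exact_mod_cast Real.pi_ne_zero
  set Y : ℂ := -(∑ p, ((k p : ℝ) : ℂ) * F p k) / ((G.q2 k : ℝ) : ℂ) -
    Complex.I * R k / ((2 * Real.pi * G.q2 k : ℝ) : ℂ) with hY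
  have h1 : ∀ i, y k i = ((k i : ℝ) : ℂ) * Y := by
    intro i
    rw [he, hY]
    have e1 : ∑ p, G.PP k i p * F p k =
        ((k i : ℝ) : ℂ) * (∑ p, ((k p : ℝ) : ℂ) * F p k) / ((G.q2 k : ℝ) : ℂ) := by
      unfold G.PP
      rw [Finset.mul_sum, Finset.sum_div]
      exact Finset.sum_congr rfl fun p _ => by push_cast; ring
    rw [e1]
    unfold tau
    ring
  have h2 : (∑ i, ((k i : ℝ) : ℂ) ^ 2) = ((G.q2 k : ℝ) : ℂ) := by
    unfold G.q2; push_cast; rfl
  clear_value Y
  have h3 : pot y k = -(Complex.I * Y) / (2 * Real.pi) := by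
    unfold pot
    have e2 : ∀ j, tau j k * y k j = ((k j : ℝ) : ℂ) ^ 2 *
        (-(Complex.I * Y) / ((2 * Real.pi * G.q2 k : ℝ) : ℂ)) := by
      intro j
      rw [h1 j]
      unfold tau
      ring
    rw [Finset.sum_congr rfl fun j _ => e2 j, ← Finset.sum_mul, h2]
    push_cast
    field_simp
  rw [h1 i]
  unfold G.dc
  rw [h3]
  field_simp
  linear_combination (((k i : ℝ) : ℂ) * Y) * Complex.I_sq

/-- `Σ_i ∂_i (∂_i w + F_i) = R` in coefficients. -/
lemma lap_of_fix {y : Ix n → Fin n → ℂ} {R : Ix n → ℂ}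
    {F : Fin n → Ix n → ℂ} (he : ∀ k i, y k i = -∑ p, G.PP k i p * F p k + tau i k * R k)
    (hR : R 0 = 0) (k : Ix n) :
    ∑ i, (G.dc i (F i) k + G.dc i (fun l => y l i) k) = R k := by
  rcases eq_or_ne k 0 with rfl | hk
  · rw [hR]
    simp [G.dc]
  have hq : ((G.q2 k : ℝ) : ℂ) ≠ 0 := by exact_mod_cast G.q2_ne_zero hk
  have hp : (Real.pi : ℂ) ≠ 0 := by exact_mod_cast Real.pi_ne_zero
  set Y : ℂ := -(∑ p, ((k p : ℝ) : ℂ) * F p k) / ((G.q2 k : ℝ) : ℂ) -
    Complex.I * R k / ((2 * Real.pi * G.q2 k : ℝ) : ℂ) with hY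
  have h1 : ∀ i, y k i = ((k i : ℝ) : ℂ) * Y := by
    intro i
    rw [he, hY]
    have e1 : ∑ p, G.PP k i p * F p k =
        ((k i : ℝ) : ℂ) * (∑ p, ((k p : ℝ) : ℂ) * F p k) / ((G.q2 k : ℝ) : ℂ) := by
      unfold G.PP
      rw [Finset.mul_sum, Finset.sum_div]
      exact Finset.sum_congr rfl fun p _ => by push_cast; ring
    rw [e1]
    unfold tau
    ring
  have h2 : (∑ i, ((k i : ℝ) : ℂ) ^ 2) = ((G.q2 k : ℝ) : ℂ) := by
    unfold G.q2; push_cast; rfl
  rw [Finset.sum_add_distrib]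
  have e2 : ∑ i, G.dc i (F i) k = 2 * Real.pi * Complex.I * ∑ p, ((k p : ℝ) : ℂ) * F p k := by
    unfold G.dc
    rw [Finset.mul_sum]
    exact Finset.sum_congr rfl fun p _ => by ring
  have e3 : ∑ i, G.dc i (fun l => y l i) k = 2 * Real.pi * Complex.I * ((G.q2 k : ℝ) : ℂ) * Y := by
    have e4 : ∀ i, G.dc i (fun l => y l i) k =
        ((k i : ℝ) : ℂ) ^ 2 * (2 * Real.pi * Complex.I * Y) := by
      intro i
      unfold G.dc
      rw [show (fun l => y l i) k = y k i from rfl, h1 i]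
      ring
    rw [Finset.sum_congr rfl fun i _ => e4 i, ← Finset.sum_mul, h2]
    ring
  rw [e2, e3, hY]
  push_cast
  field_simp
  linear_combination (-R k) * Complex.I_sq

/-- **GQ, first half.** -/
theorem gqA (a1 : RowA1) (a2 : RowA2) (a3 : RowA3) (neu : RowNEU) (M : ℕ) {s : MF n}
    (hs : SmM s) (h1 : ∀ x ∉ core n, s x = 1) {q r : V n → ℂ} {qh rh : Ix n → ℂ}
    (hqh : RD qh) (hrh : RD rh) (hq : ∀ x ∈ cube n, q x = Es 0 qh x)
    (hr : ∀ x ∈ cube n, r x = Es 0 rh x) (hr0 : rh 0 = 1) {δ B : ℝ}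
    (hB : nm M rh ≤ B) (hδ : n * (n ^ 2 * δ + (1 + B) * δ) ≤ 1 / 2)
    (hM : ∀ i j, nm M (cf 0 (ent s i j)) ≤ δ) (hqM : nm M qh ≤ δ) :
    ∃ (L : ℂ) (c : Ix n → ℂ), RD c ∧
      (∀ x ∈ cube n, dv s (Es 0 c) x = q x * (1 + Es 0 c x) - L * r x) ∧
      nm (M + 1) c ≤ (n + 1) * (2 * (n * ((1 + B) * δ))) := by
  have hent : ∀ i j, RD (cf 0 (ent s i j)) ∧ ∀ x ∈ cube n, ent s i j x
      = Es 0 (cf 0 (ent s i j)) x := fun i j => by
    obtain ⟨C, -, h⟩ := a3 n 0
    have h4 := h (ent s i j) (G.smooth_ent hs i j)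
      ((G.tsupport_ent (subset_refl _) h1 i j).trans (core_sub_cube n)) 0 (fun j => by simp)
    exact ⟨h4.1, h4.2.1⟩
  obtain ⟨y, hy, he, hbd⟩ := neumannQ a2 neu M (fun i j => cf 0 (ent s i j))
    (fun i j => (hent i j).1) hqh hrh δ B hB hδ hM hqM
  have hpot : RD (pot y) := rd_pot hy
  set L : ℂ := qh 0 + cv qh (pot y) 0 with hL
  set R : Ix n → ℂ := fun k => qh k + cv qh (pot y) k - L * rh k with hR
  set F : Fin n → Ix n → ℂ := fun p k => ∑ m, cv (cf 0 (ent s p m)) (fun l => y l m) k with hF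
  have he' : ∀ k i, y k i = -∑ p, G.PP k i p * F p k + tau i k * R k := fun k i => he k i
  have hR0 : R 0 = 0 := by
    rw [hR]
    simp only [hr0, mul_one]
    rw [hL, sub_self]
  have hcvq := a2 (0 : V n) 0 qh (pot y) hqh hpot
  have hcv : ∀ p m, RD (cv (cf 0 (ent s p m)) (fun l => y l m)) := fun p m =>
    (a2 (0 : V n) 0 _ _ (hent p m).1 (hy m)).1
  have hFr : ∀ p, RD (F p) := fun p => G.rdSum _ (hcv p)
  refine ⟨L, pot y, hpot, ?_, (nm_pot_le hy M).trans (mul_le_mul_of_nonneg_left hbd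
    (by positivity))⟩
  -- the gradient
  have hgr : ∀ i, pd i (Es 0 (pot y)) = Es 0 (fun l => y l i) := fun i => by
    rw [G.pd_Es a1 hpot]
    congr 1
    funext k
    exact (grad_of_fix he' k i).symm
  have hfl : ∀ i, ∀ x ∈ cube n, ∑ j, (s x i j : ℂ) * pd j (Es 0 (pot y)) x =
      Es 0 (F i) x + Es 0 (fun l => y l i) x := by
    intro i x hx
    simp_rw [hgr]
    have e1 : Es 0 (F i) x = ∑ m, ent s i m x * Es 0 (fun l => y l m) x := by
      rw [hF, G.Es_sum _ (hcv i)]
      refine Finset.sum_congr rfl fun m _ => ?_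
      have h5 := (a2 (0 : V n) 0 _ _ (hent i m).1 (hy m)).2.2.1 x
      rw [add_zero] at h5
      rw [← h5, ← (hent i m).2 x hx]
    have e2 : Es 0 (fun l => y l i) x = ∑ j, (((1 : Matrix (Fin n) (Fin n) ℝ) i j : ℝ) : ℂ) *
        Es 0 (fun l => y l j) x := by
      rw [Finset.sum_eq_single i]
      · simp
      · intro j _ hj
        simp [hj.symm]
      · intro h
        exact absurd (Finset.mem_univ i) h
    rw [e1, e2, ← Finset.sum_add_distrib]
    refine Finset.sum_congr rfl fun j _ => ?_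
    unfold ent
    push_cast
    ring
  intro x hx
  have key : ∀ i, pd i (fun z => ∑ j, (s z i j : ℂ) * pd j (Es 0 (pot y)) z) x =
      Es 0 (fun k => G.dc i (F i) k + G.dc i (fun l => y l i) k) x := by
    intro i
    have h2 : (fun z => ∑ j, (s z i j : ℂ) * pd j (Es 0 (pot y)) z) =ᶠ[𝓝 x]
        fun z => Es 0 (F i) z + Es 0 (fun l => y l i) z := by
      filter_upwards [(isOpen_cube n).mem_nhds hx] with z hz
      exact hfl i z hz
    rw [pd_congr h2, pd_add (sm_diff (G.smooth_Es a1 (hFr i)) x)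
      (sm_diff (G.smooth_Es a1 (hy i)) x), G.pd_Es a1 (hFr i), G.pd_Es a1 (hy i),
      G.Es_add (G.rd_dc (hFr i) i) (G.rd_dc (hy i) i)]
  unfold dv
  rw [Finset.sum_congr rfl fun i _ => key i,
    ← G.Es_sum _ fun i => rd_add (G.rd_dc (hFr i) i) (G.rd_dc (hy i) i)]
  have e5 : (fun k => ∑ i, (G.dc i (F i) k + G.dc i (fun l => y l i) k)) =
      fun k => (qh k + cv qh (pot y) k) - L * rh k := funext fun k => lap_of_fix he' hR0 k
  rw [e5, G.Es_sub (rd_add hqh hcvq.1) (rd_half hrh L), G.Es_add hqh hcvq.1]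
  have e6 : Es 0 (cv qh (pot y)) x = q x * Es 0 (pot y) x := by
    have h5 := hcvq.2.2.1 x
    rw [add_zero] at h5
    rw [← h5, ← hq x hx]
  have e7 : Es 0 (fun k => L * rh k) x = L * r x := by
    rw [hr x hx]
    unfold Es
    rw [← tsum_mul_left]
    exact tsum_congr fun k => by ring
  rw [e6, e7, ← hq x hx]
  ring

end Vale.Agent.P088.LR.H27
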