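import Vale.Agent.P088.H198.K.Defs
import Vale.Agent.P088.H198.SdX
import Vale.Agent.P088.H378.KGs
import Vale.Agent.P088.H924.Frame

/-!
# P088, theorem JB near every globally trivial connection
-/

open MeasureTheory Set Filter Topology
open scoped ContDiff Matrix

noncomputable section

namespace Vale.Agent.P088.LR.K27

open Vale.Agent.P088.LR Vale.Agent.P088.LR.B Vale.Agent.P088.LR.CF Vale.Agent.P088.LR.U
  Vale.Agent.P088.LR.H158 Vale.Agent.P088.LR.K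

variable {n N : ℕ}

/-! ### transport by a smooth unitary `V` on `Ω` -/

section tw

variable {Ω : Set (V n)} (hΩ : IsOpen Ω) {A₀ : Cn n N} {W : MC n N} (hW : Gau₀ Ω W 0 A₀)

/-- `A'' = W (A - A₀) W*` on `Ω`. -/
def Tw (Ω : Set (V n)) (W : MC n N) (A₀ A A' : Cn n N) : Prop :=
  ∀ i, ∀ x ∈ Ω, A' i x = W x * (A i x - A₀ i x) * (W x)ᴴ

include hW

theorem cd_tw {A A' : Cn n N} (hT : Tw Ω W A₀ A A') {v : V n → Fin N → ℂ}
    (hv : ContDiff ℝ ∞ v) (j : Fin n) {x : V n} (hx : x ∈ Ω) :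
    cd A' j (fun y => W y *ᵥ v y) x = W x *ᵥ cd A j v x := by
  unfold cd
  rw [pd_mulVec hW.1 hv, hT j x hx, Matrix.mulVec_mulVec, Matrix.mul_assoc,
    hW.2.1 x (subset_closure hx), Matrix.mul_one, Matrix.mul_sub, gau_QA hW j hx,
    Matrix.sub_mulVec, Matrix.mulVec_add, Matrix.mulVec_mulVec]
  abel

include hΩ

theorem en_tw (g : MF n) {A A' : Cn n N} (hT : Tw Ω W A₀ A A') {u v : V n → Fin N → ℂ}
    (hu : ContDiff ℝ ∞ u) (hv : ContDiff ℝ ∞ v) :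
    en Ω g A' (fun y => W y *ᵥ u y) (fun y => W y *ᵥ v y) = en Ω g A u v := by
  unfold en
  refine setIntegral_congr_fun hΩ.measurableSet fun x hx => ?_
  refine Finset.sum_congr rfl fun i _ => Finset.sum_congr rfl fun j _ => ?_
  have h1 := H924.adj ((W x)ᴴ) (cd A i u x) (W x *ᵥ cd A j v x)
  rw [Matrix.conjTranspose_conjTranspose, Matrix.mulVec_mulVec, hW.2.1 x (subset_closure hx),
    Matrix.one_mulVec] at h1
  show (sg g x i j : ℂ) * (cd A' i (fun y => W y *ᵥ u y) x ⬝ᵥ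
    star (cd A' j (fun y => W y *ᵥ v y) x)) = _
  rw [cd_tw hW hT hu i hx, cd_tw hW hT hv j hx, h1]

omit hW in
theorem en_congr (g : MF n) (A : Cn n N) (u : V n → Fin N → ℂ) {v v' : V n → Fin N → ℂ}
    (h : ∀ x ∈ Ω, v x = v' x) : en Ω g A u v = en Ω g A u v' := by
  unfold en
  refine setIntegral_congr_fun hΩ.measurableSet fun x hx => ?_
  refine Finset.sum_congr rfl fun i _ => Finset.sum_congr rfl fun j _ => ?_
  show (sg g x i j : ℂ) * (cd A i u x ⬝ᵥ star (cd A j v x)) = _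
  have h1 : cd A j v x = cd A j v' x := by
    unfold cd
    rw [pd_congr hΩ h hx, h x hx]
  rw [h1]

theorem Hr_tw {g : MF n} {A A' : Cn n N} (hT : Tw Ω W A₀ A A') {f F u : V n → Fin N → ℂ}
    (hu : Hr Ω g A f u) (hF : ∀ x ∈ frontier Ω, W x *ᵥ f x = F x) :
    Hr Ω g A' F (fun y => W y *ᵥ u y) := by
  refine ⟨contDiff_mulVec hW.1 hu.1, fun x hx => ?_, fun φ hφ h0 => ?_⟩
  · show W x *ᵥ u x = F x
    rw [hu.2.1 x hx, hF x hx]
  · have h1 : ContDiff ℝ ∞ fun y => (W y)ᴴ *ᵥ φ y := contDiff_mulVec (SmC_star hW.1) hφ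
    have h2 : ∀ x ∈ Ω, φ x = W x *ᵥ ((W x)ᴴ *ᵥ φ x) := fun x hx => by
      rw [Matrix.mulVec_mulVec, gau_right hW (subset_closure hx), Matrix.one_mulVec]
    rw [en_congr hΩ g A' _ h2, en_tw hΩ hW g hT hu.1 h1]
    exact hu.2.2 _ h1 fun x hx => by rw [h0 x hx, Matrix.mulVec_zero]

theorem SDU_tw {g₁ g₂ : MF n} {A₁ A₁' A₂ A₂' : Cn n N} (h1 : Tw Ω W A₀ A₁ A₁')
    (h2 : Tw Ω W A₀ A₂ A₂') (hD : SDU Ω g₁ A₁ g₂ A₂) : SDU Ω g₁ A₁' g₂ A₂' := by
  intro f h hf hh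
  obtain ⟨u, v, u', v', hu, hv, hu', hv', he⟩ := hD _ _ (contDiff_mulVec (SmC_star hW.1) hf)
    (contDiff_mulVec (SmC_star hW.1) hh)
  have hb : ∀ F : V n → Fin N → ℂ, ∀ x ∈ frontier Ω, W x *ᵥ ((W x)ᴴ *ᵥ F x) = F x :=
    fun F x hx => by
      rw [Matrix.mulVec_mulVec, gau_right hW (frontier_subset_closure hx), Matrix.one_mulVec]
  refine ⟨_, _, _, _, Hr_tw hΩ hW h1 hu (hb f), Hr_tw hΩ hW h1 hv (hb h),
    Hr_tw hΩ hW h2 hu' (hb f), Hr_tw hΩ hW h2 hv' (hb h), ?_⟩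
  rw [en_tw hΩ hW g₁ h1 hu.1 hv.1, en_tw hΩ hW g₂ h2 hu'.1 hv'.1, he]

/-- the gauge back -/
theorem Gau_tw {A₁ A₁' A₂ A₂' : Cn n N} (h1 : Tw Ω W A₀ A₁ A₁') (h2 : Tw Ω W A₀ A₂ A₂')
    {Φ : V n → V n} (sΦ : ContDiff ℝ ∞ Φ) (hm : ∀ x ∈ Ω, Φ x ∈ Ω)
    (hf : ∀ x ∈ frontier Ω, Φ x = x) {U : MC n N} (hU : Gau Ω U (pbF Φ A₁') A₂') :
    ∃ U', Gau Ω U' (pbF Φ A₁) A₂ := by
  set P : V n → Matrix (Fin N) (Fin N) ℂ := fun x => W (Φ x) with hP
  have sP : SmC P := fun a b => (hW.1 a b).comp sΦ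
  have clH : ∀ x ∈ closure Ω, Φ x ∈ closure Ω := by
    intro x hx
    rw [closure_eq_self_union_frontier] at hx
    rcases hx with hx | hx
    · exact subset_closure (hm x hx)
    · rw [hf x hx]
      exact frontier_subset_closure hx
  have P1 : ∀ x ∈ closure Ω, (P x)ᴴ * P x = 1 := fun x hx => hW.2.1 _ (clH x hx)
  have P2 : ∀ x ∈ closure Ω, P x * (P x)ᴴ = 1 := fun x hx => mul_eq_one_comm.1 (P1 x hx)
  have dP : ∀ i x, pdm i P x = ∑ j, ((B.Jm Φ x j i : ℝ) : ℂ) • pdm j W (Φ x) := by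
    intro i x
    ext a b
    have h3 := pd_compF sΦ (u := fun y => W y a b) (x := x) (dfa (hW.1 a b) _) i
    rw [Matrix.sum_apply]
    simp only [Matrix.smul_apply, smul_eq_mul]
    exact h3
  have dPP : ∀ i, ∀ x ∈ Ω, pdm i P x * (P x)ᴴ + P x * (pdm i P x)ᴴ = 0 := by
    intro i x hx
    have h3 : pdm i (fun x => P x * (P x)ᴴ) x = 0 := by
      rw [pdm_congr hΩ (Q := fun _ => 1) (fun y hy => P2 y (subset_closure hy)) hx]
      exact pdm_const 1 x i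
    rwa [pdm_mul sP (SmC_star sP), pdm_star sP] at h3
  have pbP : ∀ i, ∀ x ∈ Ω, pbF Φ A₁' i x =
      P x * pbF Φ A₁ i x * (P x)ᴴ + P x * (pdm i P x)ᴴ := by
    intro i x hx
    have e1 : P x * (pdm i P x)ᴴ = -(pdm i P x * (P x)ᴴ) :=
      eq_neg_of_add_eq_zero_right (dPP i x hx)
    rw [e1, dP]
    unfold pbF
    rw [Matrix.mul_sum, Matrix.sum_mul, Matrix.sum_mul, ← sub_eq_add_neg,
      ← Finset.sum_sub_distrib]
    refine Finset.sum_congr rfl fun j _ => ?_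
    rw [h1 j _ (hm x hx), Matrix.mul_sub, gau_QA hW j (hm x hx), Matrix.sub_mul, smul_sub,
      Matrix.mul_smul, Matrix.smul_mul, Matrix.smul_mul]
  have a2 : ∀ i, ∀ x ∈ Ω, A₂ i x = (W x)ᴴ * A₂' i x * W x + (W x)ᴴ * pdm i W x := by
    intro i x hx
    have w1 := hW.2.1 x (subset_closure hx)
    rw [h2 i x hx, ← gau_QA hW i hx]
    calc A₂ i x = ((W x)ᴴ * W x) * (A₂ i x - A₀ i x) * ((W x)ᴴ * W x) +
          ((W x)ᴴ * W x) * A₀ i x := by
            rw [w1]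
            simp
      _ = _ := by simp only [Matrix.mul_assoc]
  refine ⟨fun x => (P x)ᴴ * U x * W x, ⟨SmC_mul (SmC_mul (SmC_star sP) hU.1.1) hW.1,
    fun x hx => ?_, fun i x hx => ?_⟩, fun x hx => ?_⟩
  · calc ((P x)ᴴ * U x * W x)ᴴ * ((P x)ᴴ * U x * W x)
        = (W x)ᴴ * ((U x)ᴴ * (P x * (P x)ᴴ) * U x) * W x := by
          simp only [Matrix.conjTranspose_mul, Matrix.conjTranspose_conjTranspose,
            Matrix.mul_assoc]
      _ = 1 := by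
          rw [P2 x hx, Matrix.mul_one, hU.1.2.1 x hx, Matrix.mul_one, hW.2.1 x hx]
  · have hx' := subset_closure hx
    have d1 : pdm i (fun x => (P x)ᴴ * U x * W x) x =
        ((pdm i P x)ᴴ * U x + (P x)ᴴ * pdm i U x) * W x + (P x)ᴴ * U x * pdm i W x := by
      rw [pdm_mul (SmC_mul (SmC_star sP) hU.1.1) hW.1, pdm_mul (SmC_star sP) hU.1.1,
        pdm_star sP]
    rw [d1, a2 i x hx, hU.1.2.2 i x hx, pbP i x hx]
    have u1 := hU.1.2.1 x hx'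
    have w1 := hW.2.1 x hx'
    have p2 := P2 x hx'
    have e2 : ((P x)ᴴ * U x * W x)ᴴ * ((P x)ᴴ * pdm i U x * W x) =
        (W x)ᴴ * ((U x)ᴴ * pdm i U x) * W x := by
      calc ((P x)ᴴ * U x * W x)ᴴ * ((P x)ᴴ * pdm i U x * W x)
          = (W x)ᴴ * ((U x)ᴴ * ((P x * (P x)ᴴ) * pdm i U x)) * W x := by
            simp only [Matrix.conjTranspose_mul, Matrix.conjTranspose_conjTranspose,
              Matrix.mul_assoc]
        _ = _ := by rw [p2, Matrix.one_mul]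
    have e3 : ((P x)ᴴ * U x * W x)ᴴ * ((P x)ᴴ * U x * pdm i W x) = (W x)ᴴ * pdm i W x := by
      calc ((P x)ᴴ * U x * W x)ᴴ * ((P x)ᴴ * U x * pdm i W x)
          = (W x)ᴴ * (((U x)ᴴ * ((P x * (P x)ᴴ) * U x)) * pdm i W x) := by
            simp only [Matrix.conjTranspose_mul, Matrix.conjTranspose_conjTranspose,
              Matrix.mul_assoc]
        _ = _ := by rw [p2, Matrix.one_mul, u1, Matrix.one_mul]
    show _ = ((P x)ᴴ * U x * W x)ᴴ * pbF Φ A₁ i x * ((P x)ᴴ * U x * W x) +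
      ((P x)ᴴ * U x * W x)ᴴ * (((pdm i P x)ᴴ * U x + (P x)ᴴ * pdm i U x) * W x +
        (P x)ᴴ * U x * pdm i W x)
    rw [Matrix.add_mul ((pdm i P x)ᴴ * U x), Matrix.mul_add (((P x)ᴴ * U x * W x)ᴴ),
      Matrix.mul_add (((P x)ᴴ * U x * W x)ᴴ), e2, e3]
    simp only [Matrix.conjTranspose_mul, Matrix.conjTranspose_conjTranspose, Matrix.mul_assoc,
      Matrix.mul_add, Matrix.add_mul]
    abel
  · show (P x)ᴴ * U x * W x = 1
    have e : P x = W x := by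
      rw [hP]
      simp only [hf x hx]
    rw [e, hU.2 x hx, Matrix.mul_one, hW.2.1 x (frontier_subset_closure hx)]

end tw

/-! ### the theorem -/

/-- **Joint local uniqueness on every smooth bounded domain, near every globally trivial
connection `A₀`.** -/
def FinJV : Prop := ∀ n N : ℕ, 3 ≤ n → 1 ≤ N → ∀ ρ : V n → ℝ, SDom ρ → ∀ A₀ : Cn n N, SmU A₀ →
  (∃ W, Gau₀ (Om ρ) W 0 A₀) →
  ∃ (k : ℕ) (ε : ℝ), 0 < ε ∧ ∀ (c : V n → ℝ) (g : MF n), ContDiff ℝ ∞ c → (∀ x, 0 < c x) →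
  SmM g → (∀ x, (g x).PosDef) → Cl k ε (fun x => c x - 1) →
  (∀ i j, Cl k ε (fun x => g x i j - dl i j)) → ∀ A₁ A₂ : Cn n N, SmU A₁ → SmU A₂ →
  (∀ i, ClC k ε (fun x => A₁ i x - A₀ i x)) → (∀ i, ClC k ε (fun x => A₂ i x - A₀ i x)) →
  SDU (Om ρ) (sc c) A₁ g A₂ →
  ∃ (Φ Ψ : V n → V n) (U : MC n N), ContDiff ℝ ∞ Φ ∧ ContDiff ℝ ∞ Ψ ∧
    (∀ x, Ψ (Φ x) = x) ∧ (∀ y, Φ (Ψ y) = y) ∧ (∀ x, ρ x = 0 → Φ x = x) ∧
    (∀ x, 0 < ρ (Φ x) ↔ 0 < ρ x) ∧ (∀ x, 0 < (Jm Φ x).det) ∧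
    (∀ x, 0 ≤ ρ x → g x = c (Φ x) • ((Jm Φ x)ᵀ * Jm Φ x)) ∧ Gau (Om ρ) U (pbF Φ A₁) A₂

theorem exists_cl27 {k : ℕ} {f : V n → ℂ} (hf : ContDiff ℝ ∞ f) (hc : HasCompactSupport f) :
    ∃ B : ℝ, 0 ≤ B ∧ Cl k B f := by
  have h : ∀ l : ℕ, ∃ C, ∀ x, ‖iteratedFDeriv ℝ l f x‖ ≤ C := fun l =>
    (hf.continuous_iteratedFDeriv (by exact_mod_cast le_top)).bounded_above_of_compact_support
      (hc.iteratedFDeriv l)
  choose C hC using h
  refine ⟨∑ l ∈ Finset.range (k + 1), |C l|, Finset.sum_nonneg fun _ _ => abs_nonneg _,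
    fun l hl x => ?_⟩
  calc ‖iteratedFDeriv ℝ l f x‖ ≤ C l := hC l x
    _ ≤ |C l| := le_abs_self _
    _ ≤ ∑ l ∈ Finset.range (k + 1), |C l| :=
      Finset.single_le_sum (f := fun l => |C l|) (fun i _ => abs_nonneg _)
        (Finset.mem_range.mpr (by omega))

theorem Cl_mono27 {F : Type*} [NormedAddCommGroup F] [NormedSpace ℝ F] {k : ℕ} {a b : ℝ}
    {f : V n → F} (h : Cl k a f) (hab : a ≤ b) : Cl k b f := fun l hl x => (h l hl x).trans hab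

/-- cut-off of a matrix function, equal to it on a bounded set -/
theorem cut (k : ℕ) {W : MC n N} (hW : SmC W) {Ω : Set (V n)} (hb : Bornology.IsBounded Ω) :
    ∃ (P : MC n N) (B : ℝ), SmC P ∧ 0 ≤ B ∧ ClC k B P ∧ ∀ x ∈ Ω, P x = W x := by
  obtain ⟨R, hR⟩ := hb.subset_closedBall (0 : V n)
  have hR0 : 0 < |R| + 1 := by positivity
  let χ : ContDiffBump (0 : V n) := ⟨|R| + 1, |R| + 2, hR0, by linarith⟩
  have sχ : ContDiff ℝ ∞ (fun x : V n => ((χ x : ℝ) : ℂ)) :=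
    Complex.ofRealCLM.contDiff.comp χ.contDiff
  have cχ : HasCompactSupport (fun x : V n => ((χ x : ℝ) : ℂ)) :=
    χ.hasCompactSupport.comp_left (g := fun r : ℝ => (r : ℂ)) Complex.ofReal_zero
  have hs : ∀ a b, ContDiff ℝ ∞ fun x => ((χ x : ℝ) : ℂ) * W x a b := fun a b => sχ.mul (hW a b)
  have hex : ∀ a b, ∃ B : ℝ, 0 ≤ B ∧ Cl k B fun x => ((χ x : ℝ) : ℂ) * W x a b := fun a b =>
    exists_cl27 (hs a b) cχ.mul_right
  choose B hB0 hB using hex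
  refine ⟨fun x => ((χ x : ℝ) : ℂ) • W x, ∑ a, ∑ b, B a b, fun a b => hs a b,
    Finset.sum_nonneg fun a _ => Finset.sum_nonneg fun b _ => hB0 a b, fun a b => ?_,
    fun x hx => ?_⟩
  · refine Cl_mono27 (hB a b) ?_
    calc B a b ≤ ∑ b, B a b :=
          Finset.single_le_sum (f := fun b => B a b) (fun b _ => hB0 a b) (Finset.mem_univ b)
      _ ≤ ∑ a, ∑ b, B a b :=
          Finset.single_le_sum (f := fun a => ∑ b, B a b)
            (fun a _ => Finset.sum_nonneg fun b _ => hB0 a b) (Finset.mem_univ a)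
  · have h1 : χ x = 1 := by
      refine χ.one_of_mem_closedBall ?_
      have h2 := hR hx
      rw [Metric.mem_closedBall] at h2 ⊢
      exact h2.trans ((le_abs_self R).trans (by show |R| ≤ |R| + 1; linarith))
    show ((χ x : ℝ) : ℂ) • W x = W x
    rw [h1]
    simp

/-- **Theorem JB near every globally trivial connection.** -/
theorem finJV (h : FinJ) : FinJV := by
  intro n N hn hN ρ hρ A₀ hA₀ hex
  obtain ⟨W, hW⟩ := hex
  obtain ⟨k, ε, hε, h1⟩ := h n N hn hN ρ hρ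
  have hO : IsOpen (Om ρ) := isOpen_lt continuous_const hρ.sm.continuous
  have hb : Bornology.IsBounded (Om ρ) :=
    hρ.bd.subset fun x (hx : 0 < ρ x) => (show 0 ≤ ρ x from hx.le)
  have hfr : ∀ x ∈ frontier (Om ρ), ρ x = 0 := fun x hx =>
    (show (0 : ℝ) = ρ x from
      frontier_lt_subset_eq (continuous_const (y := (0 : ℝ))) hρ.sm.continuous hx).symm
  obtain ⟨P, B, sP, hB0, hPB, hPW⟩ := cut k hW.1 hb
  set C : ℝ := N * (2 ^ k * (N * (2 ^ k * B) * B)) with hC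
  have hC0 : 0 ≤ C := by positivity
  refine ⟨k, min ε (ε / (C + 1)), lt_min hε (by positivity), ?_⟩
  set ε' : ℝ := min ε (ε / (C + 1)) with hε'
  have hε'0 : 0 ≤ ε' := le_min hε.le (by positivity)
  have hle : ε' ≤ ε := min_le_left _ _
  have hCε : C * ε' ≤ ε := by
    have h2 : ε' ≤ ε / (C + 1) := min_le_right _ _
    calc C * ε' ≤ (C + 1) * ε' := by nlinarith
      _ ≤ (C + 1) * (ε / (C + 1)) := by gcongr
      _ = ε := by field_simp
  intro c g hc hc0 hg hp hcc hcl A₁ A₂ hA₁ hA₂ hA₁c hA₂c hD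
  -- the twisted connections
  have key : ∀ A : Cn n N, SmU A → (∀ i, ClC k ε' (fun x => A i x - A₀ i x)) →
      SmU (fun i x => P x * (A i x - A₀ i x) * (P x)ᴴ : Cn n N) ∧
      (∀ i, ClC k ε (fun x => P x * (A i x - A₀ i x) * (P x)ᴴ)) ∧
      Tw (Om ρ) W A₀ A (fun i x => P x * (A i x - A₀ i x) * (P x)ᴴ) := by
    intro A hA hAc
    have sD : ∀ i, SmC (fun x => A i x - A₀ i x) := fun i a b => (hA.1 i a b).sub (hA₀.1 i a b)
    refine ⟨⟨fun i => SmC_mul (SmC_mul sP (sD i)) (SmC_star sP), fun i x => ?_⟩, fun i => ?_,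
      fun i x hx => ?_⟩
    · rw [Matrix.conjTranspose_mul, Matrix.conjTranspose_mul, Matrix.conjTranspose_conjTranspose,
        Matrix.conjTranspose_sub, hA.2 i x, hA₀.2 i x]
      noncomm_ring
    · have h2 := H378.clC_mul (SmC_mul sP (sD i)) (SmC_star sP)
        (H378.clC_mul sP (sD i) hPB (hAc i)) (H378.clC_star sP hPB)
      intro a b
      refine Cl_mono27 (h2 a b) ?_
      calc (N : ℝ) * (2 ^ k * (N * (2 ^ k * (B * ε')) * B)) = C * ε' := by rw [hC]; ring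
        _ ≤ ε := hCε
    · show P x * (A i x - A₀ i x) * (P x)ᴴ = _
      rw [hPW x hx]
  obtain ⟨s1, c1, t1⟩ := key A₁ hA₁ hA₁c
  obtain ⟨s2, c2, t2⟩ := key A₂ hA₂ hA₂c
  obtain ⟨Φ, Ψ, U, p1, p2, p3, p4, p5, p6, p7, p8, p9⟩ := h1 c g hc hc0 hg hp
    (Cl_mono27 hcc hle) (fun i j => Cl_mono27 (hcl i j) hle) _ _ s1 s2 c1 c2
    (SDU_tw hO hW t1 t2 hD)
  obtain ⟨U', hU'⟩ := Gau_tw hO hW t1 t2 p1 (fun x hx => (p6 x).2 hx)
    (fun x hx => p5 x (hfr x hx)) p9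
  exact ⟨Φ, Ψ, U', p1, p2, p3, p4, p5, p6, p7, p8, hU'⟩

/-- the zero connection is globally trivial -/
theorem triv0 (Ω : Set (V n)) : Gau₀ Ω (fun _ => (1 : Matrix (Fin N) (Fin N) ℂ)) 0 (0 : Cn n N) :=
  ⟨fun a b => contDiff_const, fun x _ => by simp, fun i x _ => by
    rw [pdm_const]
    simp⟩

end Vale.Agent.P088.LR.K27
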