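import Vale.Agent.P088.H738.G.Defs
import Vale.Agent.P088.H27.KV

/-!
# P088, theorem G near every globally trivial connection
-/

open MeasureTheory Set Filter Topology
open scoped ContDiff Matrix

noncomputable section

namespace Vale.Agent.P088.LR.K27

open Vale.Agent.P088.LR Vale.Agent.P088.LR.B Vale.Agent.P088.LR.CF Vale.Agent.P088.LR.U
  Vale.Agent.P088.LR.H158 Vale.Agent.P088.LR.K

variable {n N : ℕ}

/-- the twisted connections are near `0` -/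
theorem twist {ρ : V n → ℝ} (hρ : SDom ρ) {A₀ : Cn n N} (hA₀ : SmU A₀) {W : MC n N}
    (hW : Gau₀ (Om ρ) W 0 A₀) (k : ℕ) : ∃ C : ℝ, 0 ≤ C ∧ ∃ T : Cn n N → Cn n N,
      ∀ A : Cn n N, SmU A → SmU (T A) ∧ Tw (Om ρ) W A₀ A (T A) ∧
        ∀ ε : ℝ, (∀ i, ClC k ε (fun x => A i x - A₀ i x)) → ∀ i, ClC k (C * ε) (T A i) := by
  have hb : Bornology.IsBounded (Om ρ) :=
    hρ.bd.subset fun x (hx : 0 < ρ x) => (show 0 ≤ ρ x from hx.le)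
  obtain ⟨P, B, sP, hB0, hPB, hPW⟩ := cut k hW.1 hb
  refine ⟨N * (2 ^ k * (N * (2 ^ k * B) * B)), by positivity,
    fun A i x => P x * (A i x - A₀ i x) * (P x)ᴴ, fun A hA => ?_⟩
  have sD : ∀ i, SmC (fun x => A i x - A₀ i x) := fun i a b => (hA.1 i a b).sub (hA₀.1 i a b)
  refine ⟨⟨fun i => SmC_mul (SmC_mul sP (sD i)) (SmC_star sP), fun i x => ?_⟩,
    fun i x hx => ?_, fun ε hAc i => ?_⟩
  · rw [Matrix.conjTranspose_mul, Matrix.conjTranspose_mul, Matrix.conjTranspose_conjTranspose,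
      Matrix.conjTranspose_sub, hA.2 i x, hA₀.2 i x]
    noncomm_ring
  · show P x * (A i x - A₀ i x) * (P x)ᴴ = _
    rw [hPW x hx]
  · have h2 := H378.clC_mul (SmC_mul sP (sD i)) (SmC_star sP)
      (H378.clC_mul sP (sD i) hPB (hAc i)) (H378.clC_star sP hPB)
    intro a b
    refine Cl_mono27 (h2 a b) (le_of_eq ?_)
    ring

/-- **Theorem G near every globally trivial connection `A₀`.** -/
def FinGV : Prop := ∀ n N : ℕ, 3 ≤ n → 1 ≤ N → ∀ ρ : V n → ℝ, SDom ρ → ∀ A₀ : Cn n N, SmU A₀ →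
  (∃ W, Gau₀ (Om ρ) W 0 A₀) → ∀ B : ℕ → ℝ,
  ∃ (k : ℕ) (ε : ℝ), 0 < ε ∧ ∀ (c : V n → ℝ) (g : MF n), ContDiff ℝ ∞ c → (∀ x, 0 < c x) →
  SmM g → (∀ x, (g x).PosDef) → Cl k ε (fun x => c x - 1) →
  (∀ i j, E.Cb k B (fun x => g x i j)) → (∀ x, (B 0)⁻¹ ≤ (g x).det) →
  (∀ i j x, |g x i j - sc (fun x => (g x).det ^ (1 / (n : ℝ))) x i j| ≤ ε) →
  ∀ A₁ A₂ : Cn n N, SmU A₁ → SmU A₂ →
  (∀ i, ClC k ε (fun x => A₁ i x - A₀ i x)) → (∀ i, ClC k ε (fun x => A₂ i x - A₀ i x)) →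
  SDU (Om ρ) (sc c) A₁ g A₂ →
  ∃ (Φ Ψ : V n → V n) (U : MC n N), ContDiff ℝ ∞ Φ ∧ ContDiff ℝ ∞ Ψ ∧
    (∀ x, Ψ (Φ x) = x) ∧ (∀ y, Φ (Ψ y) = y) ∧ (∀ x, ρ x = 0 → Φ x = x) ∧
    (∀ x, 0 < ρ (Φ x) ↔ 0 < ρ x) ∧ (∀ x, 0 < (Jm Φ x).det) ∧
    (∀ x, 0 ≤ ρ x → g x = c (Φ x) • ((Jm Φ x)ᵀ * Jm Φ x)) ∧ Gau (Om ρ) U (pbF Φ A₁) A₂

/-- **Theorem G near every globally trivial connection.** -/
theorem finGV (h : G.FinG) : FinGV := by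
  intro n N hn hN ρ hρ A₀ hA₀ hex B
  obtain ⟨W, hW⟩ := hex
  obtain ⟨k, ε, hε, h1⟩ := h n N hn hN ρ hρ B
  have hO : IsOpen (Om ρ) := isOpen_lt continuous_const hρ.sm.continuous
  have hfr : ∀ x ∈ frontier (Om ρ), ρ x = 0 := fun x hx =>
    (show (0 : ℝ) = ρ x from
      frontier_lt_subset_eq (continuous_const (y := (0 : ℝ))) hρ.sm.continuous hx).symm
  obtain ⟨C, hC0, T, hT⟩ := twist hρ hA₀ hW k
  have hpos : 0 < min ε (ε / (C + 1)) := lt_min hε (by positivity)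
  refine ⟨k, min ε (ε / (C + 1)), hpos, ?_⟩
  set ε' : ℝ := min ε (ε / (C + 1)) with hε'
  have hle : ε' ≤ ε := min_le_left _ _
  have hCε : C * ε' ≤ ε := by
    have h2 : ε' ≤ ε / (C + 1) := min_le_right _ _
    calc C * ε' ≤ (C + 1) * ε' := by nlinarith
      _ ≤ (C + 1) * (ε / (C + 1)) := by gcongr
      _ = ε := by field_simp
  intro c g hc hc0 hg hp hcc hgb hgd hgc A₁ A₂ hA₁ hA₂ hA₁c hA₂c hD
  obtain ⟨s1, t1, c1⟩ := hT A₁ hA₁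
  obtain ⟨s2, t2, c2⟩ := hT A₂ hA₂
  obtain ⟨Φ, Ψ, U, p1, p2, p3, p4, p5, p6, p7, p8, p9⟩ := h1 c g hc hc0 hg hp
    (Cl_mono27 hcc hle) hgb hgd (fun i j x => (hgc i j x).trans hle) _ _ s1 s2
    (fun i a b => Cl_mono27 (c1 ε' hA₁c i a b) hCε) (fun i a b => Cl_mono27 (c2 ε' hA₂c i a b) hCε)
    (SDU_tw hO hW t1 t2 hD)
  obtain ⟨U', hU'⟩ := Gau_tw hO hW t1 t2 p1 (fun x hx => (p6 x).2 hx)
    (fun x hx => p5 x (hfr x hx)) p9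
  exact ⟨Φ, Ψ, U', p1, p2, p3, p4, p5, p6, p7, p8, hU'⟩

end Vale.Agent.P088.LR.K27
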