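import Vale.Agent.P088.H27.GaugeB
import Vale.Agent.P088.H53.T

/-!
# P088, row GAUGE: assembly
-/

open MeasureTheory Set Filter
open scoped ContDiff Matrix Topology

noncomputable section

namespace Vale.Agent.P088.LR.H27

open Vale.Agent.P088.LR

/-- **GAUGE** (the literal row with `0 ≤ δ`). -/
theorem gauge (a1 : RowA1) (a2 : RowA2) (a3 : RowA3) (neu : RowNEU) :
    ∀ (n M : ℕ), ∃ C ε₀ : ℝ, 0 < C ∧ 0 < ε₀ ∧ ∀ (Ω : Set (V n)), IsOpen Ω →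
  interior (closure Ω) = Ω → Ω ⊆ core n → ∀ s : MF n, SmM s → (∀ x, (s x).IsSymm) →
  (∀ x ∉ Ω, s x = 1) → Star Ω s → ∀ δ ≤ ε₀, 0 ≤ δ → (∀ i j, nm M (cf 0 (ent s i j)) ≤ δ) →
  ∃ w : V n → V n, ContDiff ℝ ∞ w ∧ (∀ x ∉ Ω, w x = 0) ∧ Cl (M + 1) (C * δ) w ∧
    ∀ a x, dv s (fun y => ((y a + w y a : ℝ) : ℂ)) x = 0 := by
  intro n M
  obtain ⟨C', hC', hB⟩ := gaugeB a1 a3 n M
  refine ⟨C' * ((n + 1) * (2 * (n + 1))), 1 / (2 * (n ^ 2 + 1)), by positivity, by positivity, ?_⟩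
  intro Ω _ hreg hcore s hs _ hs1 hstar δ hδ hδ0 hM
  have hδ' : (n : ℝ) ^ 2 * δ ≤ 1 / 2 := by
    have h1 : (n : ℝ) ^ 2 * δ ≤ n ^ 2 * (1 / (2 * (n ^ 2 + 1))) :=
      mul_le_mul_of_nonneg_left hδ (by positivity)
    refine h1.trans ?_
    rw [mul_one_div, div_le_iff₀ (by positivity)]
    linarith
  choose c y hT hn using fun a => G.tor a1 a2 a3 neu M hcore hs hs1 hδ' hM a
  obtain ⟨w, h1, h2, h3, h4⟩ := hB Ω hreg hcore s hs hs1 hstar c y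
    (fun a => ⟨(hT a).rc, (hT a).ry, fun k => by simpa using (hT a).eq k, (hT a).rep⟩)
    ((n + 1) * (2 * (n + 1)) * δ) (by positivity) fun a => (hn a).trans (by
      have : (n : ℝ) * δ ≤ (n + 1) * δ := by nlinarith
      calc ((n : ℝ) + 1) * (2 * (n * δ)) ≤ (n + 1) * (2 * ((n + 1) * δ)) :=
            mul_le_mul_of_nonneg_left (by linarith) (by positivity)
        _ = _ := by ring)
  refine ⟨w, h1, h2, ?_, h4⟩
  rw [mul_assoc]
  exact h3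

end Vale.Agent.P088.LR.H27
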