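import Vale.Agent.P088.H27.Const
import Vale.Agent.P088.H53.D

/-!
# P088, row GAUGE, second half: from the torus solution to the harmonic coordinates
-/

open MeasureTheory Set Filter
open scoped ContDiff Matrix Topology

noncomputable section

namespace Vale.Agent.P088.LR.H27

open Vale.Agent.P088.LR

variable {n : ℕ}

/-- The torus solution: `w = Es 0 c` solves `Δ w = - div F`, `F = (s - 1)(e_a + ∇ w)`, and `y` are
the coefficients of `F`. -/
structure Tor (s : MF n) (a : Fin n) (c : Ix n → ℂ) (y : Ix n → Fin n → ℂ) : Prop where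
  rc : RD c
  ry : ∀ i, RD (fun k => y k i)
  eq : ∀ k, 2 * Real.pi * (∑ i, (k i : ℂ) ^ 2) * c k = Complex.I * ∑ i, (k i : ℂ) * y k i
  rep : ∀ x ∈ cube n, ∀ i, Es 0 (fun k => y k i) x =
    ∑ j, ent s i j x * ((if j = a then 1 else 0) + pd j (Es 0 c) x)

/-- `F_i`. -/
def Fl (s : MF n) (a : Fin n) (c : Ix n → ℂ) (i : Fin n) (x : V n) : ℂ :=
  ∑ j, ent s i j x * ((if j = a then 1 else 0) + pd j (Es 0 c) x)

lemma ent_smooth {s : MF n} (hs : SmM s) (i j : Fin n) : ContDiff ℝ ∞ (ent s i j) := by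
  unfold ent
  exact Complex.ofRealCLM.contDiff.comp ((hs i j).sub contDiff_const)

lemma ent_off {s : MF n} {x : V n} (h : s x = 1) (i j : Fin n) : ent s i j x = 0 := by
  unfold ent
  rw [h, sub_self, Complex.ofReal_zero]

lemma Fl_smooth (a1 : RowA1) {s : MF n} (hs : SmM s) (a : Fin n) {c : Ix n → ℂ} (hc : RD c)
    (i : Fin n) : ContDiff ℝ ∞ (Fl s a c i) := by
  unfold Fl
  exact ContDiff.sum fun j _ => (ent_smooth hs i j).mul
    (contDiff_const.add (G.smooth_pd (G.smooth_Es a1 hc) j))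

lemma Fl_off {s : MF n} {x : V n} (h : s x = 1) (a : Fin n) (c : Ix n → ℂ) (i : Fin n) :
    Fl s a c i x = 0 := by
  unfold Fl
  exact Finset.sum_eq_zero fun j _ => by rw [ent_off h, zero_mul]

/-- Coefficients of a function represented by a series on the cube. -/
lemma cf_of_rep {f : V n → ℂ} (hf : ∀ x ∉ core n, f x = 0) {d : Ix n → ℂ} (hd : RD d)
    (hrep : ∀ x ∈ cube n, Es 0 d x = f x) (k : Ix n) : cf 0 f k = d k := by
  have hsh : RD (fun l => d (l + k)) := fun m => by
    have h1 := hd m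
    have h2 : Summable fun l => wt (l + k) ^ m * ‖d (l + k)‖ :=
      (Equiv.addRight k).summable_iff.2 h1
    refine Summable.of_nonneg_of_le (fun l => by have := one_le_wt l; positivity) (fun l => ?_)
      (h2.mul_left ((wt k) ^ m))
    have h3 : wt l ≤ wt k * wt (l + k) := by
      have h4 : wt l ≤ wt k + wt (l + k) - 1 := by
        unfold wt
        have : ∑ j, |(l j : ℝ)| ≤ ∑ j, |(k j : ℝ)| + ∑ j, |((l + k) j : ℝ)| := by
          rw [← Finset.sum_add_distrib]
          refine Finset.sum_le_sum fun j _ => ?_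
          have : (l j : ℝ) = ((l + k) j : ℝ) - (k j : ℝ) := by
            simp
          rw [this]
          have := abs_sub ((l + k) j : ℝ) (k j : ℝ)
          linarith [abs_nonneg (k j : ℝ)]
        linarith
      have h5 := one_le_wt k
      have h6 := one_le_wt (l + k)
      nlinarith
    have h7 : 0 ≤ wt l := by linarith [one_le_wt l]
    calc wt l ^ m * ‖d (l + k)‖ ≤ (wt k * wt (l + k)) ^ m * ‖d (l + k)‖ :=
          mul_le_mul_of_nonneg_right (pow_le_pow_left₀ h7 h3 m) (norm_nonneg _)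
      _ = wt k ^ m * (wt (l + k) ^ m * ‖d (l + k)‖) := by rw [mul_pow]; ring
  have h1 := G.int_Es hsh
  simp only [zero_add] at h1
  rw [← h1]
  unfold cf ft
  have h2 : (∫ x, f x * ex (-fr 0 k) x) = ∫ x in cube n, f x * ex (-fr 0 k) x := by
    symm
    refine setIntegral_eq_integral_of_forall_compl_eq_zero fun x hx => ?_
    rw [hf x fun h => hx (core_sub_cube n h), zero_mul]
  rw [h2]
  refine setIntegral_congr_fun (isOpen_cube n).measurableSet fun x hx => ?_
  rw [← hrep x hx]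
  unfold Es
  rw [← (Equiv.addRight k).tsum_eq, ← tsum_mul_right]
  refine tsum_congr fun l => ?_
  simp only [Equiv.coe_addRight]
  have : ex (fr 0 (l + k)) x * ex (-fr 0 k) x = ex (fr 0 l) x := by
    unfold ex
    rw [← Complex.exp_add]
    congr 1
    rw [← mul_add, ← Complex.ofReal_add, ← Finset.sum_add_distrib]
    congr 3
    funext j
    simp only [fr, Pi.add_apply, Pi.neg_apply, Pi.zero_apply]
    push_cast
    ring
  rw [mul_assoc, this]

/-- The potential with the linear part. -/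
def Wf (a : Fin n) (c : Ix n → ℂ) (x : V n) : ℂ := ((x a : ℝ) : ℂ) + Es 0 c x

lemma Wf_smooth (a1 : RowA1) (a : Fin n) {c : Ix n → ℂ} (hc : RD c) : ContDiff ℝ ∞ (Wf a c) := by
  unfold Wf
  exact (Complex.ofRealCLM.contDiff.comp (contDiff_apply ℝ ℝ a)).add (G.smooth_Es a1 hc)

lemma pd_lin (a j : Fin n) (x : V n) :
    pd j (fun y : V n => ((y a : ℝ) : ℂ)) x = if j = a then 1 else 0 := by
  have h : HasFDerivAt (fun y : V n => ((y a : ℝ) : ℂ))
      (Complex.ofRealCLM.comp (ContinuousLinearMap.proj (R := ℝ) (φ := fun _ : Fin n => ℝ) a)) x :=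
    (Complex.ofRealCLM.comp
      (ContinuousLinearMap.proj (R := ℝ) (φ := fun _ : Fin n => ℝ) a)).hasFDerivAt
  unfold pd
  rw [h.fderiv]
  simp only [ContinuousLinearMap.comp_apply, ContinuousLinearMap.proj_apply,
    Complex.ofRealCLM_apply, Pi.single_apply]
  split_ifs with h1 h2 h2
  · simp
  · exact absurd h1.symm h2
  · exact absurd h2.symm h1
  · simp

lemma pd_add {f g : V n → ℂ} {x : V n} (hf : DifferentiableAt ℝ f x)
    (hg : DifferentiableAt ℝ g x) (j : Fin n) :
    pd j (fun y => f y + g y) x = pd j f x + pd j g x := by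
  unfold pd
  rw [fderiv_fun_add hf hg]
  rfl

lemma sm_diff {f : V n → ℂ} (hf : ContDiff ℝ ∞ f) (x : V n) : DifferentiableAt ℝ f x :=
  (hf.differentiable (by simp)) x

lemma pd_Wf (a1 : RowA1) (a : Fin n) {c : Ix n → ℂ} (hc : RD c) (j : Fin n) (x : V n) :
    pd j (Wf a c) x = (if j = a then 1 else 0) + pd j (Es 0 c) x := by
  have h := pd_add (f := fun y : V n => ((y a : ℝ) : ℂ)) (g := Es 0 c) (x := x)
    (sm_diff (Complex.ofRealCLM.contDiff.comp (contDiff_apply ℝ ℝ a)) x)
    (sm_diff (G.smooth_Es a1 hc) x) j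
  rw [pd_lin] at h
  exact h

/-- The flux `s ∇ W`. -/
lemma flux_eq (a1 : RowA1) (s : MF n) (a : Fin n) {c : Ix n → ℂ} (hc : RD c) (i : Fin n)
    (x : V n) : ∑ j, (s x i j : ℂ) * pd j (Wf a c) x =
      Fl s a c i x + ((if i = a then 1 else 0) + pd i (Es 0 c) x) := by
  unfold Fl
  have e : ∀ j, (s x i j : ℂ) * pd j (Wf a c) x =
      ent s i j x * ((if j = a then 1 else 0) + pd j (Es 0 c) x) +
      (((1 : Matrix (Fin n) (Fin n) ℝ) i j : ℝ) : ℂ) *
        ((if j = a then 1 else 0) + pd j (Es 0 c) x) := by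
    intro j
    rw [pd_Wf a1 a hc, ← add_mul]
    congr 1
    unfold ent
    push_cast
    ring
  rw [Finset.sum_congr rfl fun j _ => e j, Finset.sum_add_distrib]
  congr 1
  rw [Finset.sum_eq_single i]
  · simp
  · intro j _ hj
    simp [hj.symm]
  · intro h
    exact absurd (Finset.mem_univ i) h

lemma pd_congr {f g : V n → ℂ} {x : V n} (h : f =ᶠ[𝓝 x] g) (i : Fin n) : pd i f x = pd i g x := by
  unfold pd
  rw [h.fderiv_eq]

lemma dv_congr (s : MF n) {f g : V n → ℂ} {x : V n} (h : f =ᶠ[𝓝 x] g) : dv s f x = dv s g x := by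
  unfold dv
  refine Finset.sum_congr rfl fun i _ => pd_congr ?_ i
  filter_upwards [h.eventually_nhds] with y hy
  exact Finset.sum_congr rfl fun j _ => by rw [pd_congr hy]

/-- The equation on the cube. -/
lemma dv_Wf (a1 : RowA1) {s : MF n} {a : Fin n} {c : Ix n → ℂ}
    {y : Ix n → Fin n → ℂ} (T : Tor s a c y) {x : V n} (hx : x ∈ cube n) :
    dv s (Wf a c) x = 0 := by
  have hdd : ∀ i, RD (fun k => G.dc i (fun k => y k i) k + G.dc i (G.dc i c) k) := fun i m => by
    have h1 := G.rd_dc (T.ry i) i m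
    have h2 := G.rd_dc (G.rd_dc T.rc i) i m
    refine Summable.of_nonneg_of_le (fun k => by have := one_le_wt k; positivity) (fun k => ?_)
      (h1.add h2)
    rw [← mul_add]
    exact mul_le_mul_of_nonneg_left (norm_add_le _ _) (by have := one_le_wt k; positivity)
  have key : ∀ i, pd i (fun z => ∑ j, (s z i j : ℂ) * pd j (Wf a c) z) x =
      Es 0 (fun k => G.dc i (fun k => y k i) k + G.dc i (G.dc i c) k) x := by
    intro i
    have h1 : (fun z => ∑ j, (s z i j : ℂ) * pd j (Wf a c) z) =ᶠ[𝓝 x] fun z =>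
        (Es 0 (fun k => y k i) z + Es 0 (G.dc i c) z) + (if i = a then 1 else 0) := by
      filter_upwards [(isOpen_cube n).mem_nhds hx] with z hz
      rw [flux_eq a1 s a T.rc, T.rep z hz i, G.pd_Es a1 T.rc]
      unfold Fl
      ring
    rw [pd_congr h1]
    have h2 : pd i (fun z => (Es 0 (fun k => y k i) z + Es 0 (G.dc i c) z) +
        (if i = a then (1 : ℂ) else 0)) x =
        pd i (fun z => Es 0 (fun k => y k i) z + Es 0 (G.dc i c) z) x := by
      unfold pd
      rw [fderiv_add_const]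
    rw [h2, pd_add (sm_diff (G.smooth_Es a1 (T.ry i)) x)
      (sm_diff (G.smooth_Es a1 (G.rd_dc T.rc i)) x), G.pd_Es a1 (T.ry i),
      G.pd_Es a1 (G.rd_dc T.rc i),
      G.Es_add (G.rd_dc (T.ry i) i) (G.rd_dc (G.rd_dc T.rc i) i)]
  unfold dv
  rw [Finset.sum_congr rfl fun i _ => key i, ← G.Es_sum _ hdd]
  have h0 : (fun k : Ix n => ∑ i, (G.dc i (fun k => y k i) k + G.dc i (G.dc i c) k)) =
      fun _ => 0 := by
    funext k
    have e := T.eq k
    have e1 : ∀ i, G.dc i (fun k => y k i) k + G.dc i (G.dc i c) k =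
        (2 * Real.pi) * (Complex.I * ((k i : ℂ) * y k i)) -
        (2 * Real.pi) * (2 * Real.pi * (k i : ℂ) ^ 2 * c k) := by
      intro i
      unfold G.dc
      simp only [Complex.ofReal_intCast]
      linear_combination 4 * (Real.pi : ℂ) ^ 2 * (k i : ℂ) ^ 2 * c k * Complex.I_sq
    rw [Finset.sum_congr rfl fun i _ => e1 i, Finset.sum_sub_distrib, ← Finset.mul_sum,
      ← Finset.mul_sum, ← Finset.mul_sum, ← e, Finset.mul_sum, Finset.sum_mul, sub_eq_zero]
  rw [h0]
  unfold Es
  simp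

/-- Real part of a derivative. -/
lemma pd_re {f : V n → ℂ} {x : V n} (hf : DifferentiableAt ℝ f x) (i : Fin n) :
    pd i (fun y => (((f y).re : ℝ) : ℂ)) x = (((pd i f x).re : ℝ) : ℂ) := by
  have h := (Complex.ofRealCLM.comp Complex.reCLM).hasFDerivAt.comp x hf.hasFDerivAt
  have h' : HasFDerivAt (fun y => (((f y).re : ℝ) : ℂ))
      ((Complex.ofRealCLM.comp Complex.reCLM).comp (fderiv ℝ f x)) x := h
  unfold pd
  rw [h'.fderiv]
  rfl

/-- Real part of the operator. -/
lemma dv_re {s : MF n} (hs : SmM s) {W : V n → ℂ} (hW : ContDiff ℝ ∞ W) (x : V n) :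
    dv s (fun y => (((W y).re : ℝ) : ℂ)) x = (((dv s W x).re : ℝ) : ℂ) := by
  have hfl : ∀ i, ContDiff ℝ ∞ (fun y => ∑ j, (s y i j : ℂ) * pd j W y) := fun i =>
    ContDiff.sum fun j _ => (Complex.ofRealCLM.contDiff.comp (hs i j)).mul (G.smooth_pd hW j)
  unfold dv
  rw [Complex.re_sum, Complex.ofReal_sum]
  refine Finset.sum_congr rfl fun i _ => ?_
  rw [← pd_re (sm_diff (hfl i) x)]
  congr 1
  funext y
  rw [Complex.re_sum, Complex.ofReal_sum]
  refine Finset.sum_congr rfl fun j _ => ?_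
  rw [pd_re (sm_diff hW y), Complex.re_ofReal_mul, Complex.ofReal_mul]

lemma dv_sub_const (s : MF n) (W : V n → ℂ) (c0 : ℂ) (x : V n) :
    dv s (fun y => W y - c0) x = dv s W x := by
  unfold dv
  refine Finset.sum_congr rfl fun i _ => ?_
  congr 1
  funext y
  refine Finset.sum_congr rfl fun j _ => ?_
  unfold pd
  rw [fderiv_sub_const]

/-- The constant off `Ω`, with a bound. -/
lemma exists_const (a1 : RowA1) (a3 : RowA3) (Ω : Set (V n))
    (hreg : interior (closure Ω) = Ω) (hcore : Ω ⊆ core n) {s : MF n} (hs : SmM s)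
    (hs1 : ∀ x ∉ Ω, s x = 1) (hstar : Star Ω s) {a : Fin n} {c : Ix n → ℂ}
    {y : Ix n → Fin n → ℂ} (T : Tor s a c y) :
    ∃ c0 : ℂ, ‖c0‖ ≤ nm 0 c ∧ ∀ x ∈ cube n, x ∉ Ω → Es 0 c x = c0 := by
  have hcf : ∀ i k, cf 0 (Fl s a c i) k = y k i := fun i k =>
    cf_of_rep (fun x hx => Fl_off (hs1 x fun h => hx (hcore h)) a c i) (T.ry i)
      (fun x hx => T.rep x hx i) k
  have hort : ∀ U : V n → ℂ, ContDiff ℝ ∞ U → (∀ x ∈ Ω, dv (fun _ => 1) U x = 0) →
      ∫ x in Ω, ∑ j, Fl s a c j x * pd j U x = 0 := by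
    intro U hU hUh
    have h := hstar U (Wf a c) hU (Wf_smooth a1 a T.rc) hUh fun x hx =>
      dv_Wf a1 T (core_sub_cube n (hcore hx))
    rw [← h]
    unfold bl
    congr 1
    funext x
    refine Finset.sum_congr rfl fun i _ => ?_
    unfold Fl
    rw [Finset.sum_mul]
    refine Finset.sum_congr rfl fun j _ => ?_
    rw [pd_Wf a1 a T.rc]
    change ent s i j x * _ * _ = ent s i j x * _ * _
    ring
  have hck : ∀ k, ((∑ j, (k j : ℂ) ^ 2) * (2 * Real.pi)) * c k =
      Complex.I * ∑ j, (k j : ℂ) * cf 0 (Fl s a c j) k := by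
    intro k
    simp_rw [hcf]
    rw [← T.eq k]
    ring
  obtain ⟨c0, h0⟩ := const_off a1 a3 Ω hreg hcore (Fl s a c) (Fl_smooth a1 hs a T.rc)
    (fun i x hx => Fl_off (hs1 x hx) a c i) hort c T.rc hck
  by_cases hne : ∃ x ∈ cube n, x ∉ Ω
  · obtain ⟨x, hx, hxΩ⟩ := hne
    refine ⟨c0, ?_, h0⟩
    rw [← h0 x hx hxΩ]
    exact G.norm_Es_le T.rc 0 x
  · refine ⟨0, ?_, fun x hx hxΩ => (hne ⟨x, hx, hxΩ⟩).elim⟩
    rw [norm_zero]
    exact G.nm_nonneg 0 c

/-- **GAUGE, second half.** -/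
theorem gaugeB (a1 : RowA1) (a3 : RowA3) (n M : ℕ) : ∃ C' : ℝ, 0 < C' ∧ ∀ (Ω : Set (V n)),
    interior (closure Ω) = Ω → Ω ⊆ core n → ∀ s : MF n, SmM s →
    (∀ x ∉ Ω, s x = 1) → Star Ω s → ∀ (c : Fin n → Ix n → ℂ) (y : Fin n → Ix n → Fin n → ℂ),
    (∀ a, Tor s a (c a) (y a)) → ∀ d : ℝ, 0 ≤ d → (∀ a, nm (M + 1) (c a) ≤ d) →
    ∃ w : V n → V n, ContDiff ℝ ∞ w ∧ (∀ x ∉ Ω, w x = 0) ∧ Cl (M + 1) (C' * d) w ∧
      ∀ a x, dv s (fun y => ((y a + w y a : ℝ) : ℂ)) x = 0 := by
  refine ⟨2 * (2 * Real.pi) ^ (M + 1), by positivity, ?_⟩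
  intro Ω hreg hcore s hs hs1 hstar c y hT d hd hcd
  choose c0 hc0 hc1 using fun a => exists_const a1 a3 Ω hreg hcore hs hs1 hstar (hT a)
  have hcl : IsClosed (core n) := (compact_core n).isClosed
  -- the components
  let u : Fin n → V n → ℝ := fun a x => (Es 0 (c a) x - c0 a).re
  classical
  let w : V n → V n := fun x a => if x ∈ cube n then u a x else 0
  have hu : ∀ a, ContDiff ℝ ∞ (u a) := fun a =>
    Complex.reCLM.contDiff.comp ((G.smooth_Es a1 (hT a).rc).sub contDiff_const)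
  have hoff : ∀ x ∉ Ω, ∀ a, w x a = 0 := by
    intro x hx a
    change (if x ∈ cube n then u a x else 0) = 0
    split_ifs with h
    · change (Es 0 (c a) x - c0 a).re = 0
      rw [hc1 a x h hx, sub_self, Complex.zero_re]
    · rfl
  have hin : ∀ a, ∀ x ∈ cube n, (fun z => w z a) =ᶠ[𝓝 x] u a := by
    intro a x hx
    filter_upwards [(isOpen_cube n).mem_nhds hx] with z hz
    exact if_pos hz
  have hout : ∀ a, ∀ x ∉ core n, (fun z => w z a) =ᶠ[𝓝 x] fun _ => 0 := by
    intro a x hx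
    filter_upwards [hcl.isOpen_compl.mem_nhds hx] with z hz
    exact hoff z (fun h => hz (hcore h)) a
  have hcover : ∀ x : V n, x ∈ cube n ∨ x ∉ core n := fun x => by
    by_cases h : x ∈ core n
    · exact Or.inl (core_sub_cube n h)
    · exact Or.inr h
  have hwa : ∀ a, ContDiff ℝ ∞ (fun z => w z a) := fun a => by
    rw [contDiff_iff_contDiffAt]
    intro x
    rcases hcover x with h | h
    · exact (hu a).contDiffAt.congr_of_eventuallyEq (hin a x h)
    · exact contDiffAt_const.congr_of_eventuallyEq (hout a x h)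
  have hw : ContDiff ℝ ∞ w := contDiff_pi.2 hwa
  refine ⟨w, hw, fun x hx => funext fun a => hoff x hx a, ?_, ?_⟩
  · -- bounds
    intro l hl x
    have hpi : (1 : ℝ) ≤ 2 * Real.pi := by linarith [Real.pi_gt_three]
    have hBl : ∀ a, (2 * Real.pi) ^ l * nm l (c a) ≤ (2 * Real.pi) ^ (M + 1) * d := fun a =>
      mul_le_mul (pow_le_pow_right₀ hpi hl) ((G.nm_mono _ (hT a).rc hl).trans (hcd a))
        (G.nm_nonneg _ _) (by positivity)
    refine G.norm_iter_pi (by positivity) (hw.contDiffAt.of_le (by exact_mod_cast le_top))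
      fun a => ?_
    rcases hcover x with h | h
    · rw [((hin a x h).iteratedFDeriv ℝ l).eq_of_nhds]
      have h1 : ‖iteratedFDeriv ℝ l (u a) x‖ ≤
          ‖iteratedFDeriv ℝ l (fun z => Es 0 (c a) z - c0 a) x‖ := by
        have h2 := Complex.reCLM.norm_iteratedFDeriv_comp_left (n := l) (N := ∞)
          (f := fun z => Es 0 (c a) z - c0 a) (x := x)
          (((G.smooth_Es a1 (hT a).rc).sub contDiff_const).contDiffAt) (by exact_mod_cast le_top)
        refine h2.trans ?_
        refine mul_le_of_le_one_left (norm_nonneg _) ?_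
        exact Complex.reCLM_norm.le
      refine h1.trans ?_
      rcases Nat.eq_zero_or_pos l with h3 | h3
      · subst h3
        rw [norm_iteratedFDeriv_zero]
        have h4 := G.norm_Es_le (hT a).rc 0 x
        have h5 := hc0 a
        have h6 := hBl a
        rw [pow_zero, one_mul] at h6
        calc ‖Es 0 (c a) x - c0 a‖ ≤ ‖Es 0 (c a) x‖ + ‖c0 a‖ := norm_sub_le _ _
          _ ≤ 2 * ((2 * Real.pi) ^ (M + 1) * d) := by linarith
          _ = _ := by ring
      · obtain ⟨l', rfl⟩ := Nat.exists_eq_succ_of_ne_zero h3.ne'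
        have h4 : iteratedFDeriv ℝ (l' + 1) (fun z => Es 0 (c a) z - c0 a) x =
            iteratedFDeriv ℝ (l' + 1) (Es 0 (c a)) x := by
          rw [iteratedFDeriv_succ_eq_comp_right, iteratedFDeriv_succ_eq_comp_right]
          simp only [Function.comp_apply]
          congr 2
          funext z
          rw [fderiv_sub_const]
        rw [Nat.succ_eq_add_one, h4]
        refine (G.norm_iter_Es a1 (l' + 1) (hT a).rc x).trans ((hBl a).trans ?_)
        have : 0 ≤ (2 * Real.pi) ^ (M + 1) * d := by positivity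
        nlinarith
    · rw [((hout a x h).iteratedFDeriv ℝ l).eq_of_nhds]
      have : iteratedFDeriv ℝ l (fun _ : V n => (0 : ℝ)) x = 0 := by
        rw [iteratedFDeriv_fun_zero]
        rfl
      rw [this, norm_zero]
      positivity
  · -- the equation
    intro a x
    rcases hcover x with h | h
    · have h1 : (fun z => ((z a + w z a : ℝ) : ℂ)) =ᶠ[𝓝 x] fun z =>
          (((Wf a (c a) z - c0 a).re : ℝ) : ℂ) := by
        filter_upwards [hin a x h] with z hz
        rw [hz]
        change ((z a + (Es 0 (c a) z - c0 a).re : ℝ) : ℂ) =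
          (((((z a : ℝ) : ℂ) + Es 0 (c a) z - c0 a).re : ℝ) : ℂ)
        simp only [Complex.sub_re, Complex.add_re, Complex.ofReal_re]
        push_cast
        ring
      rw [dv_congr s h1, dv_re hs ((Wf_smooth a1 a (hT a).rc).sub contDiff_const),
        dv_sub_const, dv_Wf a1 (hT a) h, Complex.zero_re, Complex.ofReal_zero]
    · have h1 : (fun z => ((z a + w z a : ℝ) : ℂ)) =ᶠ[𝓝 x] fun z => ((z a : ℝ) : ℂ) := by
        filter_upwards [hout a x h] with z hz
        rw [hz, add_zero]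
      rw [dv_congr s h1]
      unfold dv
      refine Finset.sum_eq_zero fun i _ => ?_
      have h2 : (fun z => ∑ j, (s z i j : ℂ) * pd j (fun y : V n => ((y a : ℝ) : ℂ)) z) =ᶠ[𝓝 x]
          fun _ => ∑ j, (((1 : Matrix (Fin n) (Fin n) ℝ) i j : ℝ) : ℂ) *
            (if j = a then 1 else 0) := by
        filter_upwards [hcl.isOpen_compl.mem_nhds h] with z hz
        rw [hs1 z fun h => hz (hcore h)]
        exact Finset.sum_congr rfl fun j _ => by rw [pd_lin]
      rw [pd_congr h2]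
      unfold pd
      simp

end Vale.Agent.P088.LR.H27
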