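import Vale.Agent.P088.H27.Qp
import Vale.Agent.P088.H599.J.Defs

/-!
# P088, stage J, row U_G2: coefficient arrays and their norms
-/

open MeasureTheory Set Filter
open scoped ContDiff Matrix Topology ComplexConjugate

noncomputable section

namespace Vale.Agent.P088.LR.H27

open Vale.Agent.P088.LR

variable {n N : ℕ}

lemma nm_add_le {c d : Ix n → ℂ} (hc : RD c) (hd : RD d) (m : ℕ) :
    nm m (fun k => c k + d k) ≤ nm m c + nm m d := by
  unfold nm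
  rw [← (hc m).tsum_add (hd m)]
  refine (rd_add hc hd m).tsum_le_tsum (fun k => ?_) ((hc m).add (hd m))
  rw [← mul_add]
  exact mul_le_mul_of_nonneg_left (norm_add_le _ _) (pow_nonneg (G.wt_nonneg k) m)

lemma nm_sum_le {ι : Type*} (s : Finset ι) {c : ι → Ix n → ℂ} (h : ∀ i, RD (c i)) (m : ℕ) :
    nm m (fun k => ∑ i ∈ s, c i k) ≤ ∑ i ∈ s, nm m (c i) := by
  classical
  induction s using Finset.induction_on with
  | empty => simp [nm]
  | insert i s hi ih =>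
    simp only [Finset.sum_insert hi]
    exact (nm_add_le (h i) (G.rdSum s h) m).trans (add_le_add (le_refl _) ih)

lemma nm_neg (c : Ix n → ℂ) (m : ℕ) : nm m (fun k => -c k) = nm m c := by
  simp [nm]

lemma nm_smul (a : ℂ) (c : Ix n → ℂ) (m : ℕ) : nm m (fun k => a * c k) = ‖a‖ * nm m c := by
  unfold nm
  rw [← tsum_mul_left]
  refine tsum_congr fun k => ?_
  rw [norm_mul]
  ring

lemma rd_zero : RD (n := n) (fun _ => 0) := fun m => by simp

lemma nm_zero (m : ℕ) : nm (n := n) m (fun _ => 0) = 0 := by simp [nm]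

lemma rd_ite (P : Prop) [Decidable P] {c : Ix n → ℂ} (hc : RD c) :
    RD (fun k => if P then c k else 0) := by
  split_ifs
  · exact hc
  · exact rd_zero

lemma nm_ite_le (P : Prop) [Decidable P] {c : Ix n → ℂ} (m : ℕ) :
    nm m (fun k => if P then c k else 0) ≤ nm m c := by
  split_ifs
  · exact le_refl _
  · rw [nm_zero]
    exact G.nm_nonneg m c

lemma Es_ite (P : Prop) [Decidable P] (θ : V n) (c : Ix n → ℂ) (x : V n) :
    Es θ (fun k => if P then c k else 0) x = if P then Es θ c x else 0 := by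
  split_ifs
  · rfl
  · simp [Es]

/-- Coefficients of `s_ij f`. -/
def sA (h : Fin n → Fin n → Ix n → ℂ) (i j : Fin n) (c : Ix n → ℂ) (k : Ix n) : ℂ :=
  (if i = j then c k else 0) + cv (h i j) c k

/-- Coefficients of `B_i = ∑_j s_ij A_j`. -/
def bA (h : Fin n → Fin n → Ix n → ℂ) (c : Fin n → Fin N → Fin N → Ix n → ℂ) (i : Fin n)
    (α β : Fin N) (k : Ix n) : ℂ := ∑ j, sA h i j (c j α β) k

/-- Coefficients of `B'_j = ∑_i s_ij A_i`. -/
def bA' (h : Fin n → Fin n → Ix n → ℂ) (c : Fin n → Fin N → Fin N → Ix n → ℂ) (j : Fin n)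
    (α β : Fin N) (k : Ix n) : ℂ := ∑ i, sA h i j (c i α β) k

/-- Coefficients of `Q = ∑_i A_i B_i`. -/
def qA (h : Fin n → Fin n → Ix n → ℂ) (c : Fin n → Fin N → Fin N → Ix n → ℂ)
    (α β : Fin N) (k : Ix n) : ℂ := ∑ i, ∑ γ, cv (c i α γ) (bA h c i γ β) k

section arr

variable {h : Fin n → Fin n → Ix n → ℂ} {c : Fin n → Fin N → Fin N → Ix n → ℂ}

lemma rd_sA (a2 : RowA2) (hh : ∀ i j, RD (h i j)) {e : Ix n → ℂ} (he : RD e) (i j : Fin n) :
    RD (sA h i j e) :=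
  rd_add (rd_ite (i = j) he) (a2 (0 : V n) 0 _ _ (hh i j) he).1

lemma nm_sA_le (a2 : RowA2) (hh : ∀ i j, RD (h i j)) {e : Ix n → ℂ} (he : RD e) {M : ℕ} {δ : ℝ}
    (hδ : δ ≤ 1) (hM : ∀ i j, nm M (h i j) ≤ δ) (i j : Fin n) :
    nm M (sA h i j e) ≤ 2 * nm M e := by
  refine (nm_add_le (rd_ite (i = j) he) (a2 (0 : V n) 0 _ _ (hh i j) he).1 M).trans ?_
  have h1 := nm_ite_le (i = j) (c := e) M
  have h2 := (a2 (0 : V n) 0 _ _ (hh i j) he).2.2.2 M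
  have h3 := G.nm_nonneg M e
  have h4 : nm M (h i j) * nm M e ≤ 1 * nm M e :=
    mul_le_mul_of_nonneg_right ((hM i j).trans hδ) h3
  linarith

lemma rd_bA (a2 : RowA2) (hh : ∀ i j, RD (h i j)) (hc : ∀ i α β, RD (c i α β)) (i : Fin n)
    (α β : Fin N) : RD (bA h c i α β) := G.rdSum _ fun j => rd_sA a2 hh (hc j α β) i j

lemma rd_bA' (a2 : RowA2) (hh : ∀ i j, RD (h i j)) (hc : ∀ i α β, RD (c i α β)) (j : Fin n)
    (α β : Fin N) : RD (bA' h c j α β) := G.rdSum _ fun i => rd_sA a2 hh (hc i α β) i j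

lemma rd_qA (a2 : RowA2) (hh : ∀ i j, RD (h i j)) (hc : ∀ i α β, RD (c i α β))
    (α β : Fin N) : RD (qA h c α β) :=
  G.rdSum _ fun i => G.rdSum _ fun γ => (a2 (0 : V n) 0 _ _ (hc i α γ) (rd_bA a2 hh hc i γ β)).1

lemma nm_bA_le (a2 : RowA2) (hh : ∀ i j, RD (h i j)) (hc : ∀ i α β, RD (c i α β)) {M : ℕ}
    {δ : ℝ} (hδ : δ ≤ 1) (hM : ∀ i j, nm M (h i j) ≤ δ) (hcM : ∀ i α β, nm M (c i α β) ≤ δ)
    (i : Fin n) (α β : Fin N) : nm M (bA h c i α β) ≤ 2 * n * δ := by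
  refine (nm_sum_le _ (fun j => rd_sA a2 hh (hc j α β) i j) M).trans ?_
  calc ∑ j, nm M (sA h i j (c j α β)) ≤ ∑ _j : Fin n, 2 * δ := Finset.sum_le_sum fun j _ =>
        (nm_sA_le a2 hh (hc j α β) hδ hM i j).trans (by linarith [hcM j α β])
    _ = 2 * n * δ := by simp; ring

lemma nm_bA'_le (a2 : RowA2) (hh : ∀ i j, RD (h i j)) (hc : ∀ i α β, RD (c i α β)) {M : ℕ}
    {δ : ℝ} (hδ : δ ≤ 1) (hM : ∀ i j, nm M (h i j) ≤ δ) (hcM : ∀ i α β, nm M (c i α β) ≤ δ)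
    (j : Fin n) (α β : Fin N) : nm M (bA' h c j α β) ≤ 2 * n * δ := by
  refine (nm_sum_le _ (fun i => rd_sA a2 hh (hc i α β) i j) M).trans ?_
  calc ∑ i, nm M (sA h i j (c i α β)) ≤ ∑ _i : Fin n, 2 * δ := Finset.sum_le_sum fun i _ =>
        (nm_sA_le a2 hh (hc i α β) hδ hM i j).trans (by linarith [hcM i α β])
    _ = 2 * n * δ := by simp; ring

lemma nm_qA_le (a2 : RowA2) (hh : ∀ i j, RD (h i j)) (hc : ∀ i α β, RD (c i α β)) {M : ℕ}
    {δ : ℝ} (hδ : δ ≤ 1) (hM : ∀ i j, nm M (h i j) ≤ δ)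
    (hcM : ∀ i α β, nm M (c i α β) ≤ δ) (α β : Fin N) :
    nm M (qA h c α β) ≤ n * (N * (2 * n * δ)) := by
  have hr : ∀ i γ, RD (cv (c i α γ) (bA h c i γ β)) := fun i γ =>
    (a2 (0 : V n) 0 _ _ (hc i α γ) (rd_bA a2 hh hc i γ β)).1
  refine (nm_sum_le _ (fun i => G.rdSum _ fun γ => hr i γ) M).trans ?_
  have h1 : ∀ i γ, nm M (cv (c i α γ) (bA h c i γ β)) ≤ 2 * n * δ := by
    intro i γ
    refine ((a2 (0 : V n) 0 _ _ (hc i α γ) (rd_bA a2 hh hc i γ β)).2.2.2 M).trans ?_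
    have h2 := nm_bA_le a2 hh hc hδ hM hcM i γ β
    have h3 := G.nm_nonneg M (bA h c i γ β)
    have h4 := (hcM i α γ).trans hδ
    have h5 := G.nm_nonneg M (c i α γ)
    nlinarith
  calc ∑ i, nm M (fun k => ∑ γ, cv (c i α γ) (bA h c i γ β) k) ≤
      ∑ _i : Fin n, N * (2 * n * δ) := Finset.sum_le_sum fun i _ => by
        refine (nm_sum_le _ (hr i) M).trans ?_
        calc ∑ γ, nm M (cv (c i α γ) (bA h c i γ β)) ≤ ∑ _γ : Fin N, 2 * n * δ :=
              Finset.sum_le_sum fun γ _ => h1 i γ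
          _ = N * (2 * n * δ) := by simp
    _ = n * (N * (2 * n * δ)) := by simp

end arr

/-! ## The operator -/

open U

/-- `B_i = ∑_j s_ij A_j`. -/
def Bm (s : MF n) (A : Cn n N) (i : Fin n) (x : V n) : Matrix (Fin N) (Fin N) ℂ :=
  ∑ j, (s x i j : ℂ) • A j x

/-- `B'_j = ∑_i s_ij A_i`. -/
def Bm' (s : MF n) (A : Cn n N) (j : Fin n) (x : V n) : Matrix (Fin N) (Fin N) ℂ :=
  ∑ i, (s x i j : ℂ) • A i x

/-- `Q = ∑_i A_i B_i`. -/
def Qm (s : MF n) (A : Cn n N) (x : V n) : Matrix (Fin N) (Fin N) ℂ := ∑ i, A i x * Bm s A i x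

lemma Bm_apply (s : MF n) (A : Cn n N) (i : Fin n) (x : V n) (a b : Fin N) :
    Bm s A i x a b = ∑ j, (s x i j : ℂ) * A j x a b := by
  unfold Bm
  rw [Matrix.sum_apply]
  rfl

lemma Bm'_apply (s : MF n) (A : Cn n N) (j : Fin n) (x : V n) (a b : Fin N) :
    Bm' s A j x a b = ∑ i, (s x i j : ℂ) * A i x a b := by
  unfold Bm'
  rw [Matrix.sum_apply]
  rfl

lemma Qm_apply (s : MF n) (A : Cn n N) (x : V n) (a b : Fin N) :
    Qm s A x a b = ∑ i, ∑ c, A i x a c * Bm s A i x c b := by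
  unfold Qm
  rw [Matrix.sum_apply]
  rfl

/-- Representation on the cube. -/
lemma rep_sA (a2 : RowA2) {s : MF n} {h : Fin n → Fin n → Ix n → ℂ} (hh : ∀ i j, RD (h i j))
    (rs : ∀ i j, ∀ x ∈ cube n, ent s i j x = Es 0 (h i j) x) {f : V n → ℂ} {e : Ix n → ℂ}
    (he : RD e) (rf : ∀ x ∈ cube n, f x = Es 0 e x) (i j : Fin n) (x : V n) (hx : x ∈ cube n) :
    (s x i j : ℂ) * f x = Es 0 (sA h i j e) x := by
  unfold sA
  rw [G.Es_add (rd_ite (i = j) he) (a2 (0 : V n) 0 _ _ (hh i j) he).1, Es_ite,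
    ← EsS_mul a2 0 (hh i j) he, ← rs i j x hx, ← rf x hx]
  unfold ent
  by_cases hij : i = j
  · subst hij
    rw [if_pos rfl, Matrix.one_apply_eq]
    push_cast
    ring
  · rw [if_neg hij, Matrix.one_apply_ne hij, sub_zero, zero_add]

lemma rep_bA (a2 : RowA2) {s : MF n} {A : Cn n N} {h : Fin n → Fin n → Ix n → ℂ}
    {c : Fin n → Fin N → Fin N → Ix n → ℂ} (hh : ∀ i j, RD (h i j)) (hc : ∀ i α β, RD (c i α β))
    (rs : ∀ i j, ∀ x ∈ cube n, ent s i j x = Es 0 (h i j) x)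
    (rc : ∀ i α β, ∀ x ∈ cube n, A i x α β = Es 0 (c i α β) x) (i : Fin n) (α β : Fin N)
    (x : V n) (hx : x ∈ cube n) : Bm s A i x α β = Es 0 (bA h c i α β) x := by
  rw [Bm_apply]
  unfold bA
  rw [G.Es_sum _ fun j => rd_sA a2 hh (hc j α β) i j]
  exact Finset.sum_congr rfl fun j _ => rep_sA a2 hh rs (hc j α β) (rc j α β) i j x hx

lemma rep_bA' (a2 : RowA2) {s : MF n} {A : Cn n N} {h : Fin n → Fin n → Ix n → ℂ}
    {c : Fin n → Fin N → Fin N → Ix n → ℂ} (hh : ∀ i j, RD (h i j)) (hc : ∀ i α β, RD (c i α β))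
    (rs : ∀ i j, ∀ x ∈ cube n, ent s i j x = Es 0 (h i j) x)
    (rc : ∀ i α β, ∀ x ∈ cube n, A i x α β = Es 0 (c i α β) x) (j : Fin n) (α β : Fin N)
    (x : V n) (hx : x ∈ cube n) : Bm' s A j x α β = Es 0 (bA' h c j α β) x := by
  rw [Bm'_apply]
  unfold bA'
  rw [G.Es_sum _ fun i => rd_sA a2 hh (hc i α β) i j]
  exact Finset.sum_congr rfl fun i _ => rep_sA a2 hh rs (hc i α β) (rc i α β) i j x hx

lemma rep_qA (a2 : RowA2) {s : MF n} {A : Cn n N} {h : Fin n → Fin n → Ix n → ℂ}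
    {c : Fin n → Fin N → Fin N → Ix n → ℂ} (hh : ∀ i j, RD (h i j)) (hc : ∀ i α β, RD (c i α β))
    (rs : ∀ i j, ∀ x ∈ cube n, ent s i j x = Es 0 (h i j) x)
    (rc : ∀ i α β, ∀ x ∈ cube n, A i x α β = Es 0 (c i α β) x) (α β : Fin N)
    (x : V n) (hx : x ∈ cube n) : Qm s A x α β = Es 0 (qA h c α β) x := by
  rw [Qm_apply]
  unfold qA
  have hr : ∀ i γ, RD (cv (c i α γ) (bA h c i γ β)) := fun i γ =>
    (a2 (0 : V n) 0 _ _ (hc i α γ) (rd_bA a2 hh hc i γ β)).1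
  rw [G.Es_sum _ fun i => G.rdSum _ fun γ => hr i γ]
  refine Finset.sum_congr rfl fun i _ => ?_
  rw [G.Es_sum _ (hr i)]
  refine Finset.sum_congr rfl fun γ _ => ?_
  rw [← EsS_mul a2 0 (hc i α γ) (rd_bA a2 hh hc i γ β), ← rc i α γ x hx,
    ← rep_bA a2 hh hc rs rc i γ β x hx]

end Vale.Agent.P088.LR.H27
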