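import Vale.Agent.P088.H27.JGreen

/-!
# P088, stage J, row U_G2: both solutions agree off `Ω`
-/

open MeasureTheory Set Filter
open scoped ContDiff Matrix Topology ComplexConjugate

noncomputable section

namespace Vale.Agent.P088.LR.H27

open Vale.Agent.P088.LR U

variable {n N : ℕ}

/-- A smooth function supported in the core is quasi-periodic with any shift. -/
lemma qp_core (a3 : RowA3) {θ : V n} (hθ : Sh θ) {f : V n → ℂ} (hf : ContDiff ℝ ∞ f)
    (h0 : ∀ x ∉ core n, f x = 0) : Qp θ f := by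
  have hsup : tsupport f ⊆ core n := by
    refine closure_minimal (fun x hx => ?_) (compact_core n).isClosed
    by_contra hx'
    exact hx (h0 x hx')
  have h4 := rep_cube a3 hf (hsup.trans (core_sub_cube n)) hθ
  exact ⟨_, h4.1, h4.2⟩

lemma pr_core (a3 : RowA3) {f : V n → ℂ} (hf : ContDiff ℝ ∞ f)
    (h0 : ∀ x ∉ core n, f x = 0) : Pr f := ⟨_, (rep_core a3 hf h0).1, (rep_core a3 hf h0).2⟩

/-- The flux of `P e_b + w`. -/
lemma qp_flux (a1 : RowA1) (a2 : RowA2) (a3 : RowA3) {θ : V n} (hθ : Sh θ) {s : MF n}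
    (hs : SmM s) (hs1 : ∀ x ∉ core n, s x = 1) {A : Cn n N}
    (hA : ∀ i α β, ContDiff ℝ ∞ fun x => A i x α β) (hA0 : ∀ i, ∀ x ∉ core n, A i x = 0)
    {P : V n → ℂ} (hP : ContDiff ℝ ∞ P) {d : Fin n → ℂ} (hd : ∀ j x, pd j P x = d j)
    (b : Fin N) {w : Fin N → Ix n → ℂ} (hw : ∀ α, RD (w α)) (i : Fin n) (α : Fin N) :
    Qp θ (fun x => flS s A (fun β y => (if β = b then P y else 0) + Es θ (w β) y) i α x -
      (if α = b then d i else 0)) := by
  have hBs : ∀ β, ContDiff ℝ ∞ fun x => Bm s A i x α β := fun β => by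
    have : (fun x => Bm s A i x α β) = fun x => ∑ j, (s x i j : ℂ) * A j x α β := by
      funext x
      exact Bm_apply s A i x α β
    rw [this]
    exact ContDiff.sum fun j _ => (Complex.ofRealCLM.contDiff.comp (hs i j)).mul (hA j α β)
  have hB0 : ∀ β, ∀ x ∉ core n, Bm s A i x α β = 0 := fun β x hx => by
    rw [Bm_apply]
    exact Finset.sum_eq_zero fun j _ => by rw [hA0 j x hx]; simp
  have hp : ∀ β, ContDiff ℝ ∞ (fun y => if β = b then P y else 0) := fun β => by
    split_ifs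
    · exact hP
    · exact contDiff_const
  have q1 : ∀ j, Qp θ (fun x => ent s i j x * (if α = b then d j else 0)) := fun j =>
    qp_core a3 hθ ((G.smooth_ent hs i j).mul contDiff_const) fun x hx => by
      rw [ent_off (hs1 x hx), zero_mul]
  have q2 : ∀ j, Qp θ (fun x => (s x i j : ℂ) * pd j (Es θ (w α)) x) := fun j =>
    Qp.pmul a2 (Pr.mat a3 hs hs1 i j) ((Qp.es θ (hw α)).pd a1 hθ j)
  have q3 : ∀ β, Qp θ (fun x => Bm s A i x α β * (if β = b then P x else 0)) := fun β =>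
    qp_core a3 hθ ((hBs β).mul (hp β)) fun x hx => by rw [hB0 β x hx, zero_mul]
  have q4 : ∀ β, Qp θ (fun x => Bm s A i x α β * Es θ (w β) x) := fun β =>
    Qp.pmul a2 (pr_core a3 (hBs β) (hB0 β)) (Qp.es θ (hw β))
  refine ((((Qp.sum Finset.univ q1).add (Qp.sum Finset.univ q2)).add
    (Qp.sum Finset.univ q3)).add (Qp.sum Finset.univ q4)).congr fun x _ => ?_
  rw [flS_eq]
  have e1 : ∀ j, pd j (fun y => (if α = b then P y else 0) + Es θ (w α) y) x =
      (if α = b then d j else 0) + pd j (Es θ (w α)) x := by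
    intro j
    rw [pd_add (sm_diff (hp α) x) (sm_diff (smooth_EsS a1 θ (hw α)) x)]
    congr 1
    split_ifs
    · exact hd j x
    · exact pd_const j 0 x
  simp only [e1, mul_add, Finset.sum_add_distrib]
  have e2 : ∑ j, (s x i j : ℂ) * (if α = b then d j else 0) =
      (if α = b then d i else 0) + ∑ j, ent s i j x * (if α = b then d j else 0) := by
    have e6 : (if α = b then d i else 0) = ∑ j, (((1 : Matrix (Fin n) (Fin n) ℝ) i j : ℝ) : ℂ) *
        (if α = b then d j else 0) := by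
      rw [Finset.sum_eq_single i]
      · simp
      · intro j _ hj
        simp [hj.symm]
      · intro h
        exact absurd (Finset.mem_univ i) h
    rw [e6, ← Finset.sum_add_distrib]
    refine Finset.sum_congr rfl fun j _ => ?_
    unfold ent
    push_cast
    ring
  rw [e2]
  ring

/-- The flux of a quasi-periodic function. -/
lemma qp_flux0 (a1 : RowA1) (a2 : RowA2) (a3 : RowA3) {θ : V n} (hθ : Sh θ) {s : MF n}
    (hs : SmM s) (hs1 : ∀ x ∉ core n, s x = 1) {A : Cn n N}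
    (hA : ∀ i α β, ContDiff ℝ ∞ fun x => A i x α β) (hA0 : ∀ i, ∀ x ∉ core n, A i x = 0)
    {w : Fin N → Ix n → ℂ} (hw : ∀ α, RD (w α)) (i : Fin n) (α : Fin N) :
    Qp θ (flS s A (fun β => Es θ (w β)) i α) := by
  have h := qp_flux a1 a2 a3 hθ hs hs1 hA hA0 (P := fun _ => 0) (d := fun _ => 0) contDiff_const
    (fun j x => pd_const j 0 x) α hw i α
  refine h.congr fun x _ => ?_
  have e : (fun (β : Fin N) (y : V n) => (if β = α then (0 : ℂ) else 0) + Es θ (w β) y) =
      fun β => Es θ (w β) := by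
    funext β y
    rw [ite_self, zero_add]
  rw [e, ite_self, sub_zero]

/-- A continuous function orthogonal to all test functions off `Ω` vanishes off `Ω`. -/
theorem zero_of_test (Ω : Set (V n)) (hreg : interior (closure Ω) = Ω)
    {f : V n → ℂ} (hf : Continuous f)
    (ht : ∀ g : V n → ℝ, ContDiff ℝ ∞ g → HasCompactSupport g →
      tsupport g ⊆ cube n ∩ (closure Ω)ᶜ → ∫ x, g x • f x = 0) :
    ∀ x ∈ cube n, x ∉ Ω → f x = 0 := by
  set O : Set (V n) := cube n ∩ (closure Ω)ᶜ with hO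
  have hOo : IsOpen O := (isOpen_cube n).inter isClosed_closure.isOpen_compl
  have hae : ∀ᵐ x ∂(volume : Measure (V n)), x ∈ O → f x = 0 :=
    hOo.ae_eq_zero_of_integral_contDiff_smul_eq_zero
      (hf.locallyIntegrable.locallyIntegrableOn O) ht
  have hz : ∀ x ∈ O, f x = 0 := by
    have hopen : IsOpen (O ∩ {x | f x ≠ 0}) :=
      hOo.inter (isOpen_ne_fun hf continuous_const)
    have hnull : volume (O ∩ {x | f x ≠ 0}) = 0 := by
      refine measure_mono_null ?_ hae
      intro x hx hx'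
      exact hx.2 (hx' hx.1)
    have hem := hopen.eq_empty_of_measure_zero hnull
    intro x hx
    by_contra h
    have : x ∈ O ∩ {x | f x ≠ 0} := ⟨hx, h⟩
    rw [hem] at this
    exact this
  intro x hx hxΩ
  have hx' : x ∈ closure O := by
    have h1 : x ∈ closure (closure Ω)ᶜ := by
      rw [closure_compl, hreg]
      exact hxΩ
    rw [hO, Set.inter_comm]
    rw [mem_closure_iff] at h1 ⊢
    intro o ho hxo
    obtain ⟨y, hy1, hy2⟩ := h1 (o ∩ cube n) (ho.inter (isOpen_cube n)) ⟨hxo, hx⟩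
    exact ⟨y, hy1.1, hy2, hy1.2⟩
  have hcl : IsClosed {x | f x = 0} := isClosed_eq hf continuous_const
  exact hcl.closure_subset_iff.2 (fun y hy => hz y hy) hx'

lemma cd_eq {A : Cn n N} {u : V n → Fin N → ℂ} (hu : ContDiff ℝ ∞ u) (i : Fin n) (x : V n)
    (α : Fin N) : cd A i u x α = dS A i (fun β y => u y β) α x := by
  unfold cd dS
  rw [Pi.add_apply]
  congr 1
  unfold pd
  have h : HasFDerivAt (fun y => u y α)
      ((ContinuousLinearMap.proj (R := ℝ) (φ := fun _ : Fin N => ℂ) α).comp (fderiv ℝ u x)) x :=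
    (ContinuousLinearMap.proj (R := ℝ) (φ := fun _ : Fin N => ℂ) α).hasFDerivAt.comp x
      ((hu.differentiable (by simp)) x).hasFDerivAt
  rw [h.fderiv]
  rfl

lemma lav_eq {s : MF n} (hs : SmM s) {A : Cn n N} (hA : ∀ i α β, ContDiff ℝ ∞ fun x => A i x α β)
    {u : V n → Fin N → ℂ} (hu : ContDiff ℝ ∞ u) (x : V n) (α : Fin N) :
    lav s A u x α = opA s A (fun β y => u y β) α x := by
  have hub : ∀ β, ContDiff ℝ ∞ (fun y => u y β) := fun β => contDiff_pi.1 hu β
  have hfl : ∀ i y β, (∑ j, (s y i j : ℂ) • cd A j u y) β =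
      flS s A (fun β y => u y β) i β y := by
    intro i y β
    unfold flS
    rw [Finset.sum_apply]
    exact Finset.sum_congr rfl fun j _ => by
      rw [Pi.smul_apply, smul_eq_mul, cd_eq hu]
  have hsm : ∀ i, ContDiff ℝ ∞ (fun y => ∑ j, (s y i j : ℂ) • cd A j u y) := by
    intro i
    refine contDiff_pi.2 fun β => ?_
    simp only [hfl]
    exact flS_smooth hs hA hub i β
  unfold lav opA
  rw [Finset.sum_apply]
  refine Finset.sum_congr rfl fun i _ => ?_
  rw [cd_eq (hsm i)]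
  unfold dS
  simp only [hfl]

lemma ea_eq {s : MF n} (hsym : ∀ x, (s x).IsSymm) {A : Cn n N} {u v : V n → Fin N → ℂ}
    (hu : ContDiff ℝ ∞ u) (hv : ContDiff ℝ ∞ v) (Ω : Set (V n)) :
    ea Ω s A u v = ∫ x in Ω, eI s A (fun β y => u y β) (fun β y => v y β) x := by
  unfold ea
  congr 1
  funext x
  unfold eI flS
  rw [Finset.sum_comm]
  refine Finset.sum_congr rfl fun j _ => ?_
  simp only [dotProduct, Pi.star_apply, Finset.mul_sum, Finset.sum_mul]
  rw [Finset.sum_comm]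
  refine Finset.sum_congr rfl fun α _ => Finset.sum_congr rfl fun i _ => ?_
  rw [cd_eq hu, cd_eq hv]
  have : s x j i = s x i j := (hsym x).apply i j
  rw [this]
  change (s x i j : ℂ) * (dS A i (fun β y => u y β) α x *
    starRingEnd ℂ (dS A j (fun β y => v y β) α x)) = _
  ring

/-- **Both solutions agree off `Ω`.** -/
theorem dual (a1 : RowA1) (a2 : RowA2) (a3 : RowA3) {θ : V n} (hθ : Sh θ) {Ω : Set (V n)}
    (hreg : interior (closure Ω) = Ω) (hcore : Ω ⊆ core n) {s₁ s₂ : MF n}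
    (hs₁ : SmM s₁) (hs₂ : SmM s₂) (hsym₁ : ∀ x, (s₁ x).IsSymm) (hsym₂ : ∀ x, (s₂ x).IsSymm)
    (hs₁1 : ∀ x ∉ core n, s₁ x = 1) (h12 : ∀ x ∉ Ω, s₂ x = s₁ x) {A₁ A₂ : Cn n N}
    (hA₁ : SmU A₁) (hA₂ : SmU A₂) (hA₁0 : ∀ i, ∀ x ∉ core n, A₁ i x = 0)
    (hA12 : ∀ i, ∀ x ∉ Ω, A₂ i x = A₁ i x) (hO : OrU Ω s₁ A₁ s₂ A₂)
    {P : V n → ℂ} (hP : ContDiff ℝ ∞ P) {d : Fin n → ℂ} (hd : ∀ j x, pd j P x = d j)
    (b : Fin N) {w₁ w₂ : Fin N → Ix n → ℂ} (hw₁ : ∀ α, RD (w₁ α)) (hw₂ : ∀ α, RD (w₂ α))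
    (e₁ : ∀ α, ∀ x ∈ cube n,
      opA s₁ A₁ (fun β y => (if β = b then P y else 0) + Es θ (w₁ β) y) α x = 0)
    (e₂ : ∀ α, ∀ x ∈ cube n,
      opA s₂ A₂ (fun β y => (if β = b then P y else 0) + Es θ (w₂ β) y) α x = 0)
    (hsol : ∀ ψ : Fin N → V n → ℂ, (∀ α, ContDiff ℝ ∞ (ψ α)) → (∀ α, tsupport (ψ α) ⊆ cube n) →
      ∃ v : Fin N → Ix n → ℂ, (∀ α, RD (v α)) ∧
        ∀ α, ∀ x ∈ cube n, opA s₂ A₂ (fun β => Es θ (v β)) α x = ψ α x) (γ : Fin N) :
    ∀ x ∈ cube n, x ∉ Ω → Es θ (w₂ γ) x = Es θ (w₁ γ) x := by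
  classical
  have hcc := core_sub_cube n
  have hs₂1 : ∀ x ∉ core n, s₂ x = 1 := fun x hx => by
    rw [h12 x fun h => hx (hcore h), hs₁1 x hx]
  have hA₂0 : ∀ i, ∀ x ∉ core n, A₂ i x = 0 := fun i x hx => by
    rw [hA12 i x fun h => hx (hcore h), hA₁0 i x hx]
  set D : V n → ℂ := fun x => Es θ (w₂ γ) x - Es θ (w₁ γ) x with hD
  have hDc : Continuous D := ((smooth_EsS a1 θ (hw₂ γ)).sub (smooth_EsS a1 θ (hw₁ γ))).continuous
  suffices h : ∀ x ∈ cube n, x ∉ Ω → D x = 0 by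
    intro x hx hx'
    exact sub_eq_zero.1 (h x hx hx')
  refine zero_of_test Ω hreg hDc ?_
  intro g hg hgc hgs
  -- the adjoint solution
  obtain ⟨v, hv, hve⟩ := hsol (fun α x => if α = γ then ((g x : ℝ) : ℂ) else 0)
    (fun α => by
      split_ifs
      · exact Complex.ofRealCLM.contDiff.comp hg
      · exact contDiff_const)
    (fun α => by
      split_ifs
      · refine (closure_mono ?_).trans (hgs.trans inter_subset_left)
        intro x hx
        simp only [Function.mem_support, ne_eq, Complex.ofReal_eq_zero] at hx ⊢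
        exact hx
      · simp)
  have hgΩ : ∀ x ∈ Ω, g x = 0 := fun x hx => by
    by_contra h
    have h1 : x ∈ tsupport g := subset_closure h
    exact (hgs h1).2 (subset_closure hx)
  set u₁ : Fin N → V n → ℂ := fun β y => (if β = b then P y else 0) + Es θ (w₁ β) y with hu₁
  set u₂ : Fin N → V n → ℂ := fun β y => (if β = b then P y else 0) + Es θ (w₂ β) y with hu₂
  set vv : Fin N → V n → ℂ := fun β => Es θ (v β) with hvv
  have hp : ∀ β, ContDiff ℝ ∞ (fun y => if β = b then P y else 0) := fun β => by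
    split_ifs
    · exact hP
    · exact contDiff_const
  have su₁ : ∀ β, ContDiff ℝ ∞ (u₁ β) := fun β => (hp β).add (smooth_EsS a1 θ (hw₁ β))
  have su₂ : ∀ β, ContDiff ℝ ∞ (u₂ β) := fun β => (hp β).add (smooth_EsS a1 θ (hw₂ β))
  have sv : ∀ β, ContDiff ℝ ∞ (vv β) := fun β => smooth_EsS a1 θ (hv β)
  have qv : ∀ β, Qp θ (vv β) := fun β => Qp.es θ (hv β)
  -- the left Green formulas
  have g1 := green_left a1 a2 hθ hs₁ hA₁ su₁ sv qv (fun i α => if α = b then d i else 0)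
    fun i α => qp_flux a1 a2 a3 hθ hs₁ hs₁1 hA₁.1 hA₁0 hP hd b hw₁ i α
  have g2 := green_left a1 a2 hθ hs₂ hA₂ su₂ sv qv (fun i α => if α = b then d i else 0)
    fun i α => qp_flux a1 a2 a3 hθ hs₂ hs₂1 hA₂.1 hA₂0 hP hd b hw₂ i α
  have z1 : ∫ x in cube n, ∑ α, opA s₁ A₁ u₁ α x * starRingEnd ℂ (vv α x) = 0 := by
    rw [setIntegral_congr_fun (isOpen_cube n).measurableSet (g := fun _ => (0 : ℂ))]
    · simp
    · intro x hx
      exact Finset.sum_eq_zero fun α _ => by rw [e₁ α x hx, zero_mul]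
  have z2 : ∫ x in cube n, ∑ α, opA s₂ A₂ u₂ α x * starRingEnd ℂ (vv α x) = 0 := by
    rw [setIntegral_congr_fun (isOpen_cube n).measurableSet (g := fun _ => (0 : ℂ))]
    · simp
    · intro x hx
      exact Finset.sum_eq_zero fun α _ => by rw [e₂ α x hx, zero_mul]
  rw [z1, sub_zero] at g1
  rw [z2, sub_zero] at g2
  -- exchange of the tensors
  have hx1 : ∫ x in cube n, eI s₁ A₁ u₁ vv x = ∫ x in cube n, eI s₂ A₂ u₁ vv x := by
    set uf : V n → Fin N → ℂ := fun y β => u₁ β y with huf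
    set vf : V n → Fin N → ℂ := fun y β => vv β y with hvf
    have suf : ContDiff ℝ ∞ uf := contDiff_pi.2 fun β => su₁ β
    have svf : ContDiff ℝ ∞ vf := contDiff_pi.2 fun β => sv β
    have h1 := hO uf vf suf svf
      (fun x hx => funext fun α => by
        rw [lav_eq hs₁ hA₁.1 suf]
        exact e₁ α x (hcc (hcore hx)))
      (fun x hx => funext fun α => by
        rw [lav_eq hs₂ hA₂.1 svf]
        change opA s₂ A₂ vv α x = 0
        rw [hve α x (hcc (hcore hx)), hgΩ x hx, Complex.ofReal_zero, ite_self])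
    rw [ea_eq hsym₁ suf svf, ea_eq hsym₂ suf svf] at h1
    change ∫ x in Ω, eI s₁ A₁ u₁ vv x = ∫ x in Ω, eI s₂ A₂ u₁ vv x at h1
    have hoff : ∀ x ∉ Ω, eI s₁ A₁ u₁ vv x = eI s₂ A₂ u₁ vv x := by
      intro x hx
      unfold eI flS dS
      simp only [h12 x hx, hA12 _ x hx]
    have i1 : IntegrableOn (eI s₁ A₁ u₁ vv) (cube n) :=
      int_cont (eI_smooth hs₁ hA₁.1 su₁ sv).continuous
    have i2 : IntegrableOn (eI s₂ A₂ u₁ vv) (cube n) :=
      int_cont (eI_smooth hs₂ hA₂.1 su₁ sv).continuous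
    rw [← sub_eq_zero, ← integral_sub i1 i2]
    have h2 : ∫ x in cube n, (eI s₁ A₁ u₁ vv x - eI s₂ A₂ u₁ vv x) =
        ∫ x in Ω, (eI s₁ A₁ u₁ vv x - eI s₂ A₂ u₁ vv x) := by
      rw [setIntegral_eq_integral_of_forall_compl_eq_zero (fun x hx => by
          rw [hoff x fun h => hx (hcc (hcore h)), sub_self]),
        setIntegral_eq_integral_of_forall_compl_eq_zero (fun x hx => by
          rw [hoff x hx, sub_self])]
    rw [h2, integral_sub (i1.mono_set (hcore.trans hcc)) (i2.mono_set (hcore.trans hcc)), h1,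
      sub_self]
  -- the difference
  set dd : Fin N → V n → ℂ := fun β y => Es θ (w₂ β) y - Es θ (w₁ β) y with hdd
  have sdd : ∀ β, ContDiff ℝ ∞ (dd β) := fun β =>
    (smooth_EsS a1 θ (hw₂ β)).sub (smooth_EsS a1 θ (hw₁ β))
  have qdd : ∀ β, Qp θ (dd β) := fun β => (Qp.es θ (hw₂ β)).sub (Qp.es θ (hw₁ β))
  have hlin : ∀ x, eI s₂ A₂ dd vv x = eI s₂ A₂ u₂ vv x - eI s₂ A₂ u₁ vv x := by
    intro x
    have hdS : ∀ i α, dS A₂ i dd α x = dS A₂ i u₂ α x - dS A₂ i u₁ α x := by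
      intro i α
      have h1 : dd α = fun y => u₂ α y - u₁ α y := by
        funext y
        rw [hdd, hu₁, hu₂]
        ring
      have h2 : pd i (dd α) x = pd i (u₂ α) x - pd i (u₁ α) x := by
        rw [h1]
        unfold pd
        rw [fderiv_fun_sub (sm_diff (su₂ α) x) (sm_diff (su₁ α) x)]
        rfl
      unfold dS
      rw [h2]
      have h3 : ∀ β, A₂ i x α β * dd β x = A₂ i x α β * u₂ β x - A₂ i x α β * u₁ β x := by
        intro β
        rw [hdd, hu₁, hu₂]
        ring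
      rw [Finset.sum_congr rfl fun β _ => h3 β, Finset.sum_sub_distrib]
      ring
    unfold eI flS
    simp only [hdS, mul_sub, sub_mul, Finset.sum_sub_distrib]
  have g3 := green_right a1 a2 hθ hs₂ hsym₂ hA₂ sdd sv qdd
    fun i α => qp_flux0 a1 a2 a3 hθ hs₂ hs₂1 hA₂.1 hA₂0 hv i α
  have h0 : ∫ x in cube n, eI s₂ A₂ dd vv x = 0 := by
    simp_rw [hlin]
    have i1 : IntegrableOn (eI s₂ A₂ u₂ vv) (cube n) :=
      int_cont (eI_smooth hs₂ hA₂.1 su₂ sv).continuous
    have i2 : IntegrableOn (eI s₂ A₂ u₁ vv) (cube n) :=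
      int_cont (eI_smooth hs₂ hA₂.1 su₁ sv).continuous
    rw [integral_sub i1 i2, ← hx1, g1, g2, sub_self]
  rw [h0] at g3
  have h4 : ∫ x in cube n, ∑ α, starRingEnd ℂ (opA s₂ A₂ vv α x) * dd α x =
      ∫ x in cube n, g x • D x := by
    refine setIntegral_congr_fun (isOpen_cube n).measurableSet fun x hx => ?_
    have h5 : ∀ α, starRingEnd ℂ (opA s₂ A₂ vv α x) * dd α x =
        if α = γ then g x • D x else 0 := by
      intro α
      rw [hve α x hx]
      split_ifs with h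
      · subst h
        rw [Complex.conj_ofReal]
        rfl
      · rw [map_zero, zero_mul]
    simp only [h5]
    rw [Finset.sum_ite_eq' Finset.univ γ, if_pos (Finset.mem_univ _)]
  rw [h4] at g3
  have h6 : ∫ x, g x • D x = ∫ x in cube n, g x • D x := by
    symm
    refine setIntegral_eq_integral_of_forall_compl_eq_zero fun x hx => ?_
    have : g x = 0 := by
      by_contra h
      exact hx ((hgs (subset_closure h)).1)
    rw [this, zero_smul]
  rw [h6]
  exact neg_eq_zero.1 g3.symm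

end Vale.Agent.P088.LR.H27
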