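import Vale.Agent.P088.H27.JEV
import Vale.Agent.P088.H27.GV
import Vale.Agent.P088.H198.SdX
import Vale.Agent.P088.H924.P.Defs
import Vale.Agent.P088.H991.SDG

/-!
# P088: the joint theorems near every globally trivial connection, forms of the hand-in
-/

open MeasureTheory Set
open scoped ContDiff Matrix

noncomputable section

namespace Vale.Agent.P088.LR.K27

open Vale.Agent.P088.LR B CF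

variable {n N : ℕ}

/-- Equal data on the patch `∂Ω ∩ G`, the pairs agree near the rest of the boundary: equal data on
the whole boundary. -/
def RowSDU : Prop := ∀ {n N : ℕ} (ρ : V n → ℝ), SDom ρ → ∀ g₁ g₂ : MF n, ∀ A₁ A₂ : Cn n N,
  SmM g₁ → SmM g₂ → (∀ x, (g₁ x).PosDef) → (∀ x, (g₂ x).PosDef) → SmU A₁ → SmU A₂ →
  ∀ G : Set (V n), IsOpen G → P.Acc ρ G g₁ A₁ g₂ A₂ → P.SDG G (Om ρ) g₁ A₁ g₂ A₂ →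
  SDU (Om ρ) g₁ A₁ g₂ A₂

/-- The conclusion: metric and connection. -/
theorem conf_of {ρ c : V n → ℝ} {g : MF n} {A₁ A₂ : Cn n N}
    (h : ∃ (Φ Ψ : V n → V n) (U : U.MC n N), ContDiff ℝ ∞ Φ ∧ ContDiff ℝ ∞ Ψ ∧
    (∀ x, Ψ (Φ x) = x) ∧ (∀ y, Φ (Ψ y) = y) ∧ (∀ x, ρ x = 0 → Φ x = x) ∧
    (∀ x, 0 < ρ (Φ x) ↔ 0 < ρ x) ∧ (∀ x, 0 < (Jm Φ x).det) ∧
    (∀ x, 0 ≤ ρ x → g x = c (Φ x) • ((Jm Φ x)ᵀ * Jm Φ x)) ∧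
      Gau (Om ρ) U (H158.pbF Φ A₁) A₂) :
    ∃ Φ Ψ U, ConfOn ρ c g Φ Ψ ∧ Gau (Om ρ) U (H158.pbF Φ A₁) A₂ := by
  obtain ⟨Φ, Ψ, U, h3, h4, h5, h6, h7, h8, h9, h10, h11⟩ := h
  exact ⟨Φ, Ψ, U, ⟨h3, h4, h5, h6, h7, h8, h9, h10⟩, h11⟩

theorem posDef_sc {c : V n → ℝ} (hc0 : ∀ x, 0 < c x) (x : V n) :
    (sc c x : Matrix (Fin n) (Fin n) ℝ).PosDef := Matrix.PosDef.one.smul (hc0 x)

theorem smM_sc {c : V n → ℝ} (hc : ContDiff ℝ ∞ c) : SmM (sc c : MF n) := fun _ _ =>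
  hc.mul contDiff_const

/-- Theorem JB near `(e, A₀)`, data on a patch. -/
theorem joint_patch (hJ : K.FinJ) (hS : RowSDU) (n N : ℕ) (hn : 3 ≤ n) (hN : 1 ≤ N)
    (ρ : V n → ℝ) (hρ : SDom ρ) (A₀ : Cn n N) (hA₀ : SmU A₀) (hT : ∃ W, Gau₀ (Om ρ) W 0 A₀) :
    ∃ (k : ℕ) (ε : ℝ), 0 < ε ∧ ∀ (c : V n → ℝ) (g : MF n), ContDiff ℝ ∞ c →
    (∀ x, 0 < c x) → SmM g → (∀ x, (g x).PosDef) → Cl k ε (fun x => c x - 1) →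
    (∀ i j, Cl k ε (fun x => g x i j - dl i j)) → ∀ A₁ A₂ : Cn n N, SmU A₁ → SmU A₂ →
    (∀ i a b, Cl k ε fun x => A₁ i x a b - A₀ i x a b) →
    (∀ i a b, Cl k ε fun x => A₂ i x a b - A₀ i x a b) →
    ∀ G : Set (V n), IsOpen G → P.Acc ρ G (sc c) A₁ g A₂ → P.SDG G (Om ρ) (sc c) A₁ g A₂ →
    ∃ Φ Ψ U, ConfOn ρ c g Φ Ψ ∧ Gau (Om ρ) U (H158.pbF Φ A₁) A₂ := by
  obtain ⟨k, ε, hε, h⟩ := finJV hJ n N hn hN ρ hρ A₀ hA₀ hT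
  refine ⟨k, ε, hε, fun c g hc hc0 hg hp hcc hcl A₁ A₂ hA₁ hA₂ h1 h2 G hG ha hD => ?_⟩
  exact conf_of (h c g hc hc0 hg hp hcc hcl A₁ A₂ hA₁ hA₂ h1 h2
    (hS ρ hρ _ _ _ _ (smM_sc hc) hg (posDef_sc hc0) hp hA₁ hA₂ G hG ha hD))

/-- Theorem G near `(e, A₀)`, data on a patch. -/
theorem joint_patchG (hJ : G.FinG) (hS : RowSDU) (n N : ℕ) (hn : 3 ≤ n) (hN : 1 ≤ N)
    (ρ : V n → ℝ) (hρ : SDom ρ) (A₀ : Cn n N) (hA₀ : SmU A₀) (hT : ∃ W, Gau₀ (Om ρ) W 0 A₀)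
    (B : ℕ → ℝ) :
    ∃ (k : ℕ) (ε : ℝ), 0 < ε ∧ ∀ (c : V n → ℝ) (g : MF n), ContDiff ℝ ∞ c →
    (∀ x, 0 < c x) → SmM g → (∀ x, (g x).PosDef) → Cl k ε (fun x => c x - 1) →
    (∀ i j, E.Cb k B (fun x => g x i j)) → (∀ x, (B 0)⁻¹ ≤ (g x).det) →
    (∀ i j x, |g x i j - sc (fun x => (g x).det ^ (1 / (n : ℝ))) x i j| ≤ ε) →
    ∀ A₁ A₂ : Cn n N, SmU A₁ → SmU A₂ →
    (∀ i a b, Cl k ε fun x => A₁ i x a b - A₀ i x a b) →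
    (∀ i a b, Cl k ε fun x => A₂ i x a b - A₀ i x a b) →
    ∀ G : Set (V n), IsOpen G → P.Acc ρ G (sc c) A₁ g A₂ → P.SDG G (Om ρ) (sc c) A₁ g A₂ →
    ∃ Φ Ψ U, ConfOn ρ c g Φ Ψ ∧ Gau (Om ρ) U (H158.pbF Φ A₁) A₂ := by
  obtain ⟨k, ε, hε, h⟩ := finGV hJ n N hn hN ρ hρ A₀ hA₀ hT B
  refine ⟨k, ε, hε, fun c g hc hc0 hg hp hcc hb hd hcf A₁ A₂ hA₁ hA₂ h1 h2 G hG ha hD => ?_⟩
  exact conf_of (h c g hc hc0 hg hp hcc hb hd hcf A₁ A₂ hA₁ hA₂ h1 h2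
    (hS ρ hρ _ _ _ _ (smM_sc hc) hg (posDef_sc hc0) hp hA₁ hA₂ G hG ha hD))

/-- Theorem JE near `(e, A₀)`, data on a patch. -/
theorem joint_patchJE (hJ : JE.FinJE) (hS : RowSDU) (n N : ℕ) (hn : 3 ≤ n) (hN : 1 ≤ N)
    (ρ : V n → ℝ) (hρ : SDom ρ) (A₀ : Cn n N) (hA₀ : SmU A₀) (hT : ∃ W, Gau₀ (Om ρ) W 0 A₀)
    (B : ℕ → ℝ) :
    ∃ (k : ℕ) (ε : ℝ), 0 < ε ∧ ∀ (c : V n → ℝ) (g : MF n), ContDiff ℝ ∞ c →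
    (∀ x, 0 < c x) → SmM g → (∀ x, (g x).PosDef) → Cl k ε (fun x => c x - 1) →
    (∀ i j, E.Cb k B (fun x => g x i j)) → (∀ x, (B 0)⁻¹ ≤ (g x).det) →
    (∀ i j x, |g x i j - sc (fun x => (g x).det ^ (1 / (n : ℝ))) x i j| ≤ ε) →
    ∀ A₁ A₂ : Cn n N, SmU A₁ → SmU A₂ →
    (∀ i a b, Cl k ε fun x => A₁ i x a b - A₀ i x a b) →
    (∀ i a b, ∀ l ≤ k, ∀ x, ‖iteratedFDeriv ℝ l (fun x => A₂ i x a b) x‖ ≤ B l) →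
    (∀ i x a b, ‖A₂ i x a b - A₀ i x a b‖ ≤ ε) →
    ∀ G : Set (V n), IsOpen G → P.Acc ρ G (sc c) A₁ g A₂ → P.SDG G (Om ρ) (sc c) A₁ g A₂ →
    ∃ Φ Ψ U, ConfOn ρ c g Φ Ψ ∧ Gau (Om ρ) U (H158.pbF Φ A₁) A₂ := by
  obtain ⟨k, ε, hε, h⟩ := finJEV hJ n N hn hN ρ hρ A₀ hA₀ hT B
  refine ⟨k, ε, hε, fun c g hc hc0 hg hp hcc hb hd hcf A₁ A₂ hA₁ hA₂ h1 h2 h3 G hG ha hD => ?_⟩
  exact conf_of (h c g hc hc0 hg hp hcc hb hd hcf A₁ A₂ hA₁ hA₂ h1 h2 h3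
    (hS ρ hρ _ _ _ _ (smM_sc hc) hg (posDef_sc hc0) hp hA₁ hA₂ G hG ha hD))

end Vale.Agent.P088.LR.K27
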