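import Vale.Agent.P088.H833.JE.Defs
import Vale.Agent.P088.H27.KV

/-!
# P088, theorem JE near every globally trivial connection
-/

open MeasureTheory Set Filter Topology
open scoped ContDiff Matrix

noncomputable section

namespace Vale.Agent.P088.LR.K27

open Vale.Agent.P088.LR Vale.Agent.P088.LR.B Vale.Agent.P088.LR.CF Vale.Agent.P088.LR.U
  Vale.Agent.P088.LR.H158 Vale.Agent.P088.LR.K

variable {n N : ℕ}

/-- cut-off of a matrix function, equal to it on a bounded set, all derivatives bounded -/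
theorem cutB {W : MC n N} (hW : SmC W) {Ω : Set (V n)} (hb : Bornology.IsBounded Ω) :
    ∃ P : MC n N, SmC P ∧ (∀ x ∈ Ω, P x = W x) ∧ (∀ Q : MC n N, SmC Q → ∀ k : ℕ,
      ∃ B : ℝ, 0 ≤ B ∧ ClC k B fun x => P x * Q x) := by
  obtain ⟨R, hR⟩ := hb.subset_closedBall (0 : V n)
  have hR0 : 0 < |R| + 1 := by positivity
  let χ : ContDiffBump (0 : V n) := ⟨|R| + 1, |R| + 2, hR0, by linarith⟩
  have sχ : ContDiff ℝ ∞ (fun x : V n => ((χ x : ℝ) : ℂ)) :=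
    Complex.ofRealCLM.contDiff.comp χ.contDiff
  have cχ : HasCompactSupport (fun x : V n => ((χ x : ℝ) : ℂ)) :=
    χ.hasCompactSupport.comp_left (g := fun r : ℝ => (r : ℂ)) Complex.ofReal_zero
  refine ⟨fun x => ((χ x : ℝ) : ℂ) • W x, fun a b => sχ.mul (hW a b), fun x hx => ?_,
    fun Q hQ k => ?_⟩
  · have h1 : χ x = 1 := by
      refine χ.one_of_mem_closedBall ?_
      have h2 := hR hx
      rw [Metric.mem_closedBall] at h2 ⊢
      exact h2.trans ((le_abs_self R).trans (by show |R| ≤ |R| + 1; linarith))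
    show ((χ x : ℝ) : ℂ) • W x = W x
    rw [h1]
    simp
  · have hs : ∀ a b, ContDiff ℝ ∞ fun x => ((χ x : ℝ) : ℂ) * (W x * Q x) a b := fun a b =>
      sχ.mul (SmC_mul hW hQ a b)
    have hex : ∀ a b, ∃ B : ℝ, 0 ≤ B ∧ Cl k B fun x => ((χ x : ℝ) : ℂ) * (W x * Q x) a b :=
      fun a b => exists_cl27 (hs a b) cχ.mul_right
    choose B hB0 hB using hex
    refine ⟨∑ a, ∑ b, B a b, Finset.sum_nonneg fun a _ => Finset.sum_nonneg fun b _ => hB0 a b,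
      fun a b => ?_⟩
    have e : (fun x => (((χ x : ℝ) : ℂ) • W x * Q x) a b) =
        fun x => ((χ x : ℝ) : ℂ) * (W x * Q x) a b := by
      funext x
      rw [Matrix.smul_mul]
      rfl
    rw [e]
    refine Cl_mono27 (hB a b) ?_
    calc B a b ≤ ∑ b, B a b :=
          Finset.single_le_sum (f := fun b => B a b) (fun b _ => hB0 a b) (Finset.mem_univ b)
      _ ≤ ∑ a, ∑ b, B a b :=
          Finset.single_le_sum (f := fun a => ∑ b, B a b)
            (fun a _ => Finset.sum_nonneg fun b _ => hB0 a b) (Finset.mem_univ a)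

/-- the twisted connections: small if near `A₀`, bounded if bounded -/
theorem twistB {ρ : V n → ℝ} (hρ : SDom ρ) {A₀ : Cn n N} (hA₀ : SmU A₀) {W : MC n N}
    (hW : Gau₀ (Om ρ) W 0 A₀) : ∃ T : Cn n N → Cn n N,
      (∀ A : Cn n N, SmU A → SmU (T A) ∧ Tw (Om ρ) W A₀ A (T A)) ∧
      (∀ k : ℕ, ∃ C : ℝ, 0 ≤ C ∧ ∀ A : Cn n N, SmU A → ∀ ε : ℝ,
        (∀ i, ClC k ε (fun x => A i x - A₀ i x)) → ∀ i, ClC k (C * ε) (T A i)) ∧
      ∀ k : ℕ, ∃ C D : ℝ, 0 ≤ C ∧ 0 ≤ D ∧ ∀ A : Cn n N, SmU A → ∀ b : ℝ,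
        (∀ i, ClC k b (A i)) → ∀ i, ClC k (C * b + D) (T A i) := by
  have hb : Bornology.IsBounded (Om ρ) :=
    hρ.bd.subset fun x (hx : 0 < ρ x) => (show 0 ≤ ρ x from hx.le)
  obtain ⟨P, sP, hPW, hPB⟩ := cutB hW.1 hb
  have s1 : SmC (fun _ : V n => (1 : Matrix (Fin N) (Fin N) ℂ)) := fun a b => contDiff_const
  have hP1 : ∀ k, ∃ B : ℝ, 0 ≤ B ∧ ClC k B P := fun k => by
    obtain ⟨B, h0, h⟩ := hPB _ s1 k
    exact ⟨B, h0, by simpa using h⟩
  refine ⟨fun A i x => P x * (A i x - A₀ i x) * (P x)ᴴ, fun A hA => ?_, fun k => ?_,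
    fun k => ?_⟩
  · have sD : ∀ i, SmC (fun x => A i x - A₀ i x) := fun i a b => (hA.1 i a b).sub (hA₀.1 i a b)
    refine ⟨⟨fun i => SmC_mul (SmC_mul sP (sD i)) (SmC_star sP), fun i x => ?_⟩,
      fun i x hx => ?_⟩
    · rw [Matrix.conjTranspose_mul, Matrix.conjTranspose_mul, Matrix.conjTranspose_conjTranspose,
        Matrix.conjTranspose_sub, hA.2 i x, hA₀.2 i x]
      noncomm_ring
    · show P x * (A i x - A₀ i x) * (P x)ᴴ = _
      rw [hPW x hx]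
  · obtain ⟨B, hB0, hB⟩ := hP1 k
    refine ⟨N * (2 ^ k * (N * (2 ^ k * B) * B)), by positivity, fun A hA ε hAc i a b => ?_⟩
    have sD : ∀ i, SmC (fun x => A i x - A₀ i x) := fun i a b => (hA.1 i a b).sub (hA₀.1 i a b)
    have h2 := H378.clC_mul (SmC_mul sP (sD i)) (SmC_star sP)
      (H378.clC_mul sP (sD i) hB (hAc i)) (H378.clC_star sP hB)
    refine Cl_mono27 (h2 a b) (le_of_eq ?_)
    ring
  · obtain ⟨B, hB0, hB⟩ := hP1 k
    have h3 : ∀ i, ∃ D : ℝ, 0 ≤ D ∧ ClC k D fun x => P x * (A₀ i x * (P x)ᴴ) := fun i =>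
      hPB _ (SmC_mul (hA₀.1 i) (SmC_star sP)) k
    choose D hD0 hD using h3
    refine ⟨N * (2 ^ k * (N * (2 ^ k * B) * B)), ∑ i, D i, by positivity,
      Finset.sum_nonneg fun i _ => hD0 i, fun A hA b hAb i a c => ?_⟩
    have h2 := H378.clC_mul (SmC_mul sP (hA.1 i)) (SmC_star sP)
      (H378.clC_mul sP (hA.1 i) hB (hAb i)) (H378.clC_star sP hB)
    have e : (fun x => (P x * (A i x - A₀ i x) * (P x)ᴴ) a c) = fun x =>
        (P x * A i x * (P x)ᴴ) a c - (P x * (A₀ i x * (P x)ᴴ)) a c := by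
      funext x
      rw [← Matrix.sub_apply, Matrix.mul_sub, Matrix.sub_mul, Matrix.mul_assoc (P x) (A₀ i x)]
    show Cl k _ (fun x => (P x * (A i x - A₀ i x) * (P x)ᴴ) a c)
    rw [e]
    intro l hl x
    have d1 : ContDiffAt ℝ l (fun x => (P x * A i x * (P x)ᴴ) a c) x :=
      ((SmC_mul (SmC_mul sP (hA.1 i)) (SmC_star sP) a c).of_le (by exact_mod_cast le_top)).contDiffAt
    have d2 : ContDiffAt ℝ l (fun x => (P x * (A₀ i x * (P x)ᴴ)) a c) x :=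
      ((SmC_mul sP (SmC_mul (hA₀.1 i) (SmC_star sP)) a c).of_le
        (by exact_mod_cast le_top)).contDiffAt
    have h4 := iteratedFDeriv_sub_apply d1 d2
    have h5 : iteratedFDeriv ℝ l (fun x => (P x * A i x * (P x)ᴴ) a c -
        (P x * (A₀ i x * (P x)ᴴ)) a c) x = iteratedFDeriv ℝ l (fun x =>
          (P x * A i x * (P x)ᴴ) a c) x - iteratedFDeriv ℝ l (fun x =>
          (P x * (A₀ i x * (P x)ᴴ)) a c) x := h4
    rw [h5]
    refine (norm_sub_le _ _).trans (add_le_add ?_ ?_)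
    · refine (h2 a c l hl x).trans (le_of_eq ?_)
      ring
    · exact (hD i a c l hl x).trans
        (Finset.single_le_sum (f := D) (fun i _ => hD0 i) (Finset.mem_univ i))

/-- **Theorem JE near every globally trivial connection `A₀`:** base `(c e, A₁)` near `(e, A₀)`
with `k` derivatives; second pair `(g, A₂)`: `k` derivatives bounded, `det g ≥ 1 / B 0`, `g` near
the conformal class and `A₂` near `A₀` without derivatives. -/
def FinJEV : Prop := ∀ n N : ℕ, 3 ≤ n → 1 ≤ N → ∀ ρ : V n → ℝ, SDom ρ → ∀ A₀ : Cn n N, SmU A₀ →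
  (∃ W, Gau₀ (Om ρ) W 0 A₀) → ∀ B : ℕ → ℝ,
  ∃ (k : ℕ) (ε : ℝ), 0 < ε ∧ ∀ (c : V n → ℝ) (g : MF n), ContDiff ℝ ∞ c → (∀ x, 0 < c x) →
  SmM g → (∀ x, (g x).PosDef) → Cl k ε (fun x => c x - 1) →
  (∀ i j, E.Cb k B (fun x => g x i j)) → (∀ x, (B 0)⁻¹ ≤ (g x).det) →
  (∀ i j x, |g x i j - sc (fun x => (g x).det ^ (1 / (n : ℝ))) x i j| ≤ ε) →
  ∀ A₁ A₂ : Cn n N, SmU A₁ → SmU A₂ → (∀ i, ClC k ε (fun x => A₁ i x - A₀ i x)) →
  (∀ i a b, ∀ l ≤ k, ∀ x, ‖iteratedFDeriv ℝ l (fun x => A₂ i x a b) x‖ ≤ B l) →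
  (∀ i x a b, ‖A₂ i x a b - A₀ i x a b‖ ≤ ε) → SDU (Om ρ) (sc c) A₁ g A₂ →
  ∃ (Φ Ψ : V n → V n) (U : MC n N), ContDiff ℝ ∞ Φ ∧ ContDiff ℝ ∞ Ψ ∧
    (∀ x, Ψ (Φ x) = x) ∧ (∀ y, Φ (Ψ y) = y) ∧ (∀ x, ρ x = 0 → Φ x = x) ∧
    (∀ x, 0 < ρ (Φ x) ↔ 0 < ρ x) ∧ (∀ x, 0 < (Jm Φ x).det) ∧
    (∀ x, 0 ≤ ρ x → g x = c (Φ x) • ((Jm Φ x)ᵀ * Jm Φ x)) ∧ Gau (Om ρ) U (pbF Φ A₁) A₂

/-- **Theorem JE near every globally trivial connection.** -/
theorem finJEV (h : JE.FinJE) : FinJEV := by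
  intro n N hn hN ρ hρ A₀ hA₀ hex B
  obtain ⟨W, hW⟩ := hex
  have hO : IsOpen (Om ρ) := isOpen_lt continuous_const hρ.sm.continuous
  have hfr : ∀ x ∈ frontier (Om ρ), ρ x = 0 := fun x hx =>
    (show (0 : ℝ) = ρ x from
      frontier_lt_subset_eq (continuous_const (y := (0 : ℝ))) hρ.sm.continuous hx).symm
  obtain ⟨T, hT, hTC, hTD⟩ := twistB hρ hA₀ hW
  choose C hC0 hC using hTC
  choose D E hD0 hE0 hD using hTD
  set S : ℕ → ℝ := fun l => ∑ j ∈ Finset.range (l + 1), |B j| with hS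
  have hS0 : ∀ l, 0 ≤ S l := fun l => Finset.sum_nonneg fun _ _ => abs_nonneg _
  set B' : ℕ → ℝ := fun l => |B l| + (D l * S l + E l) with hB'
  have hBB : ∀ l, B l ≤ B' l := fun l => by
    have h1 : 0 ≤ D l * S l := mul_nonneg (hD0 l) (hS0 l)
    have h2 := hE0 l
    have h3 := le_abs_self (B l)
    show B l ≤ |B l| + (D l * S l + E l)
    linarith
  obtain ⟨k, ε, hε, h1⟩ := h n N hn hN ρ hρ B'
  have hck : 0 < C k + 1 := by have := hC0 k; linarith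
  have hc0 : 0 < C 0 + 1 := by have := hC0 0; linarith
  have hpos : 0 < min ε (min (ε / (C k + 1)) (ε / (C 0 + 1))) :=
    lt_min hε (lt_min (div_pos hε hck) (div_pos hε hc0))
  refine ⟨k, min ε (min (ε / (C k + 1)) (ε / (C 0 + 1))), hpos, ?_⟩
  set ε' : ℝ := min ε (min (ε / (C k + 1)) (ε / (C 0 + 1))) with hε'
  have hle : ε' ≤ ε := min_le_left _ _
  have hmul : ∀ c : ℝ, 0 ≤ c → ε' ≤ ε / (c + 1) → c * ε' ≤ ε := by
    intro c hc h2
    have hc1 : 0 < c + 1 := by linarith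
    calc c * ε' ≤ (c + 1) * ε' := by nlinarith
      _ ≤ (c + 1) * (ε / (c + 1)) := by gcongr
      _ = ε := by field_simp
  have hCk : C k * ε' ≤ ε := hmul _ (hC0 k) ((min_le_right _ _).trans (min_le_left _ _))
  have hC00 : C 0 * ε' ≤ ε := hmul _ (hC0 0) ((min_le_right _ _).trans (min_le_right _ _))
  intro c g hc hcp hg hp hcc hgb hgd hgc A₁ A₂ hA₁ hA₂ hA₁c hA₂b hA₂c hDD
  obtain ⟨s1, t1⟩ := hT A₁ hA₁
  obtain ⟨s2, t2⟩ := hT A₂ hA₂
  have hBpos : 0 < B 0 := by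
    have i0 : Fin n := ⟨0, by omega⟩
    have h2 := hgb i0 i0 0 (Nat.zero_le _) 0
    rw [norm_iteratedFDeriv_zero] at h2
    have h3 : 0 < g 0 i0 i0 := (hp 0).diag_pos
    have h4 := le_abs_self (g 0 i0 i0)
    rw [← Real.norm_eq_abs] at h4
    linarith
  have bc : JE.Bc k ε c (T A₁) := ⟨hc, hcp, Cl_mono27 hcc hle, s1,
    fun i a b => Cl_mono27 (hC k A₁ hA₁ ε' hA₁c i a b) hCk⟩
  have sc' : JE.Sc k B' ε g (T A₂) := by
    refine ⟨hg, hp, fun i j l hl x => (hgb i j l hl x).trans (hBB l), fun x => ?_,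
      fun i j x => (hgc i j x).trans hle, s2, fun i a b l hl x => ?_, fun i x a b => ?_⟩
    · exact (inv_anti₀ hBpos (hBB 0)).trans (hgd x)
    · have h2 : ∀ i, ClC l (S l) (A₂ i) := fun i a b j hj x =>
        (hA₂b i a b j (hj.trans hl) x).trans ((le_abs_self _).trans
          (Finset.single_le_sum (f := fun j => |B j|) (fun _ _ => abs_nonneg _)
            (Finset.mem_range.2 (by omega))))
      have h3 := hD l A₂ hA₂ (S l) h2 i a b l le_rfl x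
      have h4 := abs_nonneg (B l)
      refine h3.trans ?_
      show D l * S l + E l ≤ |B l| + (D l * S l + E l)
      linarith
    · have h2 : ∀ i, ClC 0 ε' (fun x => A₂ i x - A₀ i x) := fun i a b j hj x => by
        obtain rfl : j = 0 := by omega
        rw [norm_iteratedFDeriv_zero]
        exact hA₂c i x a b
      have h3 := hC 0 A₂ hA₂ ε' h2 i a b 0 le_rfl x
      rw [norm_iteratedFDeriv_zero] at h3
      exact h3.trans hC00
  obtain ⟨Φ, Ψ, U, p1, p2, p3, p4, p5, p6, p7, p8, p9⟩ := h1 c (T A₁) g (T A₂) bc sc'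
    (SDU_tw hO hW t1 t2 hDD)
  obtain ⟨U', hU'⟩ := Gau_tw hO hW t1 t2 p1 (fun x hx => (p6 x).2 hx)
    (fun x hx => p5 x (hfr x hx)) p9
  exact ⟨Φ, Ψ, U', p1, p2, p3, p4, p5, p6, p7, p8, hU'⟩

end Vale.Agent.P088.LR.K27
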