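import Vale.Agent.P088.H27.JArr

/-!
# P088, stage J, row U_G2: existence of the harmonic frame and coordinates
-/

open MeasureTheory Set Filter
open scoped ContDiff Matrix Topology ComplexConjugate

noncomputable section

namespace Vale.Agent.P088.LR.H27

open Vale.Agent.P088.LR U

variable {n N : ℕ}

/-- `D_i u`, component `α`. -/
def dS (A : Cn n N) (i : Fin n) (u : Fin N → V n → ℂ) (α : Fin N) (x : V n) : ℂ :=
  pd i (u α) x + ∑ β, A i x α β * u β x

/-- The flux. -/
def flS (s : MF n) (A : Cn n N) (u : Fin N → V n → ℂ) (i : Fin n) (α : Fin N) (x : V n) : ℂ :=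
  ∑ j, (s x i j : ℂ) * dS A j u α x

/-- `L u`, component `α`. -/
def opA (s : MF n) (A : Cn n N) (u : Fin N → V n → ℂ) (α : Fin N) (x : V n) : ℂ :=
  ∑ i, (pd i (flS s A u i α) x + ∑ β, A i x α β * flS s A u i β x)

lemma flS_eq (s : MF n) (A : Cn n N) (u : Fin N → V n → ℂ) (i : Fin n) (α : Fin N) (x : V n) :
    flS s A u i α x = ∑ j, (s x i j : ℂ) * pd j (u α) x + ∑ β, Bm s A i x α β * u β x := by
  unfold flS dS
  simp only [mul_add, Finset.sum_add_distrib]
  congr 1
  simp only [Bm_apply, Finset.mul_sum, Finset.sum_mul]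
  rw [Finset.sum_comm]
  exact Finset.sum_congr rfl fun β _ => Finset.sum_congr rfl fun j _ => by ring

lemma opA_eq (s : MF n) (A : Cn n N) (u : Fin N → V n → ℂ) (α : Fin N) (x : V n) :
    opA s A u α x = opS s (Bm s A) (Bm' s A) (Qm s A) u α x := by
  unfold opA opS
  rw [Finset.sum_add_distrib, add_assoc]
  congr 1
  · refine Finset.sum_congr rfl fun i _ => ?_
    congr 1
    funext z
    exact flS_eq s A u i α z
  · have e1 : ∀ i, ∑ β, A i x α β * flS s A u i β x =
        ∑ β, A i x α β * ∑ j, (s x i j : ℂ) * pd j (u β) x +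
        ∑ γ, (∑ β, A i x α β * Bm s A i x β γ) * u γ x := by
      intro i
      simp only [flS_eq, mul_add, Finset.sum_add_distrib]
      congr 1
      simp only [Finset.mul_sum, Finset.sum_mul]
      rw [Finset.sum_comm]
      exact Finset.sum_congr rfl fun β _ => Finset.sum_congr rfl fun j _ => by ring
    rw [Finset.sum_congr rfl fun i _ => e1 i, Finset.sum_add_distrib]
    congr 1
    · have e2 : ∀ i, ∑ β, A i x α β * ∑ j, (s x i j : ℂ) * pd j (u β) x =
          ∑ j, ∑ β, (s x i j : ℂ) * A i x α β * pd j (u β) x := by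
        intro i
        simp only [Finset.mul_sum]
        rw [Finset.sum_comm]
        exact Finset.sum_congr rfl fun β _ => Finset.sum_congr rfl fun j _ => by ring
      rw [Finset.sum_congr rfl fun i _ => e2 i, Finset.sum_comm]
      refine Finset.sum_congr rfl fun j _ => ?_
      rw [Finset.sum_comm]
      refine Finset.sum_congr rfl fun β _ => ?_
      rw [Bm'_apply, Finset.sum_mul]
    · rw [Finset.sum_comm]
      refine Finset.sum_congr rfl fun γ _ => ?_
      rw [← Finset.sum_mul, Qm_apply]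

lemma LaC_eq (s : MF n) (A : Cn n N) (U : MC n N) (x : V n) (α b : Fin N) :
    LaC s A U x α b = opA s A (fun β y => U y β b) α x := by
  have hf : ∀ i y α, flC s A U i y α b = flS s A (fun β y => U y β b) i α y := by
    intro i y α
    unfold flC flS
    rw [Matrix.sum_apply]
    refine Finset.sum_congr rfl fun j _ => ?_
    rw [Matrix.smul_apply, smul_eq_mul]
    rfl
  unfold LaC opA
  rw [Matrix.sum_apply]
  refine Finset.sum_congr rfl fun i _ => ?_
  unfold cdC
  rw [Matrix.add_apply, Matrix.mul_apply]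
  congr 1
  · unfold pdm
    rw [Matrix.of_apply]
    congr 1
    funext y
    exact hf i y α
  · exact Finset.sum_congr rfl fun β _ => by rw [hf]

/-- A function supported in the core times a function represented on the core. -/
lemma mul_core (a2 : RowA2) {θ : V n} {F P : V n → ℂ} {c e : Ix n → ℂ} (hc : RD c) (he : RD e)
    (rF : ∀ x ∈ cube n, F x = Es 0 c x) (F0 : ∀ x ∉ core n, F x = 0)
    (rP : ∀ x ∈ core n, P x = Es θ e x) (x : V n) (hx : x ∈ cube n) :
    F x * P x = Es θ (cv c e) x := by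
  rw [← EsS_mul a2 θ hc he, ← rF x hx]
  by_cases h : x ∈ core n
  · rw [rP x h]
  · rw [F0 x h, zero_mul, zero_mul]

/-- The equation in terms of the perturbation. -/
lemma opS_add {s : MF n} (hs : SmM s) {B B' : Fin n → V n → Matrix (Fin N) (Fin N) ℂ}
    {Q : V n → Matrix (Fin N) (Fin N) ℂ} (hB : ∀ i α β, ContDiff ℝ ∞ fun x => B i x α β)
    {u v : Fin N → V n → ℂ} (hu : ∀ β, ContDiff ℝ ∞ (u β)) (hv : ∀ β, ContDiff ℝ ∞ (v β))
    (α : Fin N) (x : V n) :
    opS s B B' Q (fun β y => u β y + v β y) α x = opS s B B' Q u α x + opS s B B' Q v α x := by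
  have hadd : ∀ β j z, pd j (fun y => u β y + v β y) z = pd j (u β) z + pd j (v β) z :=
    fun β j z => pd_add (sm_diff (hu β) z) (sm_diff (hv β) z) j
  have hfs : ∀ (w : Fin N → V n → ℂ), (∀ β, ContDiff ℝ ∞ (w β)) → ∀ i, ContDiff ℝ ∞
      (fun z => ∑ j, (s z i j : ℂ) * pd j (w α) z + ∑ β, B i z α β * w β z) := fun w hw i =>
    (ContDiff.sum fun j _ => (Complex.ofRealCLM.contDiff.comp (hs i j)).mul
      (G.smooth_pd (hw α) j)).add (ContDiff.sum fun β _ => (hB i α β).mul (hw β))
  unfold opS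
  simp only [hadd]
  have e1 : ∀ i, pd i (fun z => ∑ j, (s z i j : ℂ) * (pd j (u α) z + pd j (v α) z) +
      ∑ β, B i z α β * (u β z + v β z)) x =
      pd i (fun z => ∑ j, (s z i j : ℂ) * pd j (u α) z + ∑ β, B i z α β * u β z) x +
      pd i (fun z => ∑ j, (s z i j : ℂ) * pd j (v α) z + ∑ β, B i z α β * v β z) x := by
    intro i
    rw [← pd_add (sm_diff (hfs u hu i) x) (sm_diff (hfs v hv i) x)]
    congr 1
    funext z
    simp only [mul_add, Finset.sum_add_distrib]
    ring
  rw [Finset.sum_congr rfl fun i _ => e1 i]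
  simp only [mul_add, Finset.sum_add_distrib]
  ring

/-- Norm of the right hand side. -/
lemma nm_rhs_le {θ : V n} (hθ : Sh θ) {g : Fin n → Ix n → ℂ} {f' : Ix n → ℂ}
    (hg : ∀ i, RD (g i)) (hf : RD f') (M : ℕ) :
    nm M (fun k => (m0 θ k : ℂ) * (∑ i, al θ i k * g i k + f' k)) ≤
      (n + 3) * (∑ i, nm M (g i) + nm M f') := by
  have hpt : ∀ k, ‖(m0 θ k : ℂ) * (∑ i, al θ i k * g i k + f' k)‖ ≤
      (n + 3) * (∑ i, ‖g i k‖ + ‖f' k‖) := by
    intro k
    rw [mul_add, Finset.mul_sum, mul_add, Finset.mul_sum]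
    refine (norm_add_le _ _).trans (add_le_add ((norm_sum_le _ _).trans
      (Finset.sum_le_sum fun i _ => ?_)) ?_)
    · rw [← mul_assoc, norm_mul, norm_mul, Complex.norm_real,
        Real.norm_of_nonneg (hθ.m0_nonneg k)]
      exact mul_le_mul_of_nonneg_right (hθ.m0_al_le k i) (norm_nonneg _)
    · rw [norm_mul, Complex.norm_real, Real.norm_of_nonneg (hθ.m0_nonneg k)]
      exact mul_le_mul_of_nonneg_right (hθ.m0_le k) (norm_nonneg _)
  have s1 : Summable fun k => ∑ i, wt k ^ M * ‖g i k‖ := summable_sum fun i _ => hg i M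
  have s2 : Summable fun k => (n + 3 : ℝ) * (∑ i, wt k ^ M * ‖g i k‖ + wt k ^ M * ‖f' k‖) :=
    (s1.add (hf M)).mul_left _
  have e : ∀ k, wt k ^ M * ‖(m0 θ k : ℂ) * (∑ i, al θ i k * g i k + f' k)‖ ≤
      (n + 3 : ℝ) * (∑ i, wt k ^ M * ‖g i k‖ + wt k ^ M * ‖f' k‖) := by
    intro k
    refine (mul_le_mul_of_nonneg_left (hpt k) (pow_nonneg (G.wt_nonneg k) M)).trans_eq ?_
    rw [← Finset.mul_sum]
    ring
  unfold nm
  refine (Summable.tsum_le_tsum e (Summable.of_nonneg_of_le (fun k => mul_nonneg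
    (pow_nonneg (G.wt_nonneg k) M) (norm_nonneg _)) e s2) s2).trans_eq ?_
  rw [tsum_mul_left, s1.tsum_add (hf M), Summable.tsum_finsetSum fun i _ => hg i M]

/-- **Solutions with prescribed leading part** `P e_b`. -/
theorem exists_sol (a1 : RowA1) (a2 : RowA2) (neu : RowNEU) (M : ℕ) {θ : V n} (hθ : Sh θ)
    {s : MF n} (hs : SmM s) (hs1 : ∀ x ∉ core n, s x = 1) {A : Cn n N}
    (hA : ∀ i α β, ContDiff ℝ ∞ fun x => A i x α β) (hA0 : ∀ i, ∀ x ∉ core n, A i x = 0)
    {h : Fin n → Fin n → Ix n → ℂ} {c : Fin n → Fin N → Fin N → Ix n → ℂ}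
    (hh : ∀ i j, RD (h i j)) (hc : ∀ i α β, RD (c i α β))
    (rs : ∀ i j, ∀ x ∈ cube n, ent s i j x = Es 0 (h i j) x)
    (rc : ∀ i α β, ∀ x ∈ cube n, A i x α β = Es 0 (c i α β) x) {δ K : ℝ} (hδ0 : 0 ≤ δ)
    (hδ1 : δ ≤ 1) (hδ : 7 * (n + 3) * (N ^ 2 * ((n + 1) ^ 2 * (2 * (n + 1) ^ 2 * (N + 1) * δ)))
      ≤ 1 / 2)
    (hM : ∀ i j, nm M (h i j) ≤ δ) (hcM : ∀ i α β, nm M (c i α β) ≤ δ)
    {P : V n → ℂ} (hP : ContDiff ℝ ∞ P) {d : Fin n → ℂ} (hd : ∀ j x, pd j P x = d j)
    (hd1 : ∀ j, ‖d j‖ ≤ 1) {e1 e : Ix n → ℂ} (he1 : RD e1) (he : RD e)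
    (r1 : ∀ x ∈ core n, (1 : ℂ) = Es θ e1 x) (r2 : ∀ x ∈ core n, P x = Es θ e x)
    (hK0 : 0 ≤ K) (hK1 : nm M e1 ≤ K) (hK2 : nm M e ≤ K) (b : Fin N) :
    ∃ w : Fin N → Ix n → ℂ, (∀ α, RD (w α)) ∧
      (∀ α, ∀ x ∈ cube n,
        opA s A (fun β y => (if β = b then P y else 0) + Es θ (w β) y) α x = 0) ∧
      ∀ α, nm (M + 1) (w α) ≤ 2 * (N * ((n + 3) * (n ^ 2 * (5 + 2 * N) * K))) * δ := by
  classical
  have hBs : ∀ i α β, ContDiff ℝ ∞ fun x => Bm s A i x α β := fun i α β => by
    have : (fun x => Bm s A i x α β) = fun x => ∑ j, (s x i j : ℂ) * A j x α β := by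
      funext x
      exact Bm_apply s A i x α β
    rw [this]
    exact ContDiff.sum fun j _ => (Complex.ofRealCLM.contDiff.comp (hs i j)).mul (hA j α β)
  have hB0 : ∀ i α β, ∀ x ∉ core n, Bm s A i x α β = 0 := fun i α β x hx => by
    rw [Bm_apply]
    exact Finset.sum_eq_zero fun j _ => by rw [hA0 j x hx]; simp
  have hB0' : ∀ i α β, ∀ x ∉ core n, Bm' s A i x α β = 0 := fun i α β x hx => by
    rw [Bm'_apply]
    exact Finset.sum_eq_zero fun j _ => by rw [hA0 j x hx]; simp
  have hQ0 : ∀ α β, ∀ x ∉ core n, Qm s A x α β = 0 := fun α β x hx => by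
    rw [Qm_apply]
    exact Finset.sum_eq_zero fun i _ => Finset.sum_eq_zero fun γ _ => by
      rw [hA0 i x hx]; simp
  have hbr := fun i α β => rd_bA a2 hh hc i α β
  have hbr' := fun i α β => rd_bA' a2 hh hc i α β
  have hqr := fun α β => rd_qA a2 hh hc α β
  have hrb := fun i α β => rep_bA a2 hh hc rs rc i α β
  have hrb' := fun i α β => rep_bA' a2 hh hc rs rc i α β
  have hrq := fun α β => rep_qA a2 hh hc rs rc α β
  -- the right hand side
  set g : Fin n → Fin N → Ix n → ℂ := fun i α k =>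
    -((if α = b then ∑ j, d j * cv (h i j) e1 k else 0) + cv (bA h c i α b) e k) with hg
  set f' : Fin N → Ix n → ℂ := fun α k =>
    -(∑ j, d j * cv (bA' h c j α b) e1 k + cv (qA h c α b) e k) with hf'
  have r3 : ∀ i j, RD (cv (h i j) e1) := fun i j => (a2 (0 : V n) 0 _ _ (hh i j) he1).1
  have r4 : ∀ i α, RD (cv (bA h c i α b) e) := fun i α => (a2 (0 : V n) 0 _ _ (hbr i α b) he).1
  have r5 : ∀ i α, RD (cv (bA' h c i α b) e1) := fun i α =>
    (a2 (0 : V n) 0 _ _ (hbr' i α b) he1).1
  have r6 : ∀ α, RD (cv (qA h c α b) e) := fun α => (a2 (0 : V n) 0 _ _ (hqr α b) he).1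
  have r7 : ∀ i, RD (fun k => ∑ j, d j * cv (h i j) e1 k) := fun i =>
    G.rdSum _ fun j => rd_half (r3 i j) (d j)
  have r8 : ∀ α, RD (fun k => ∑ j, d j * cv (bA' h c j α b) e1 k) := fun α =>
    G.rdSum _ fun j => rd_half (r5 j α) (d j)
  have hgr : ∀ i α, RD (g i α) := fun i α =>
    rd_neg (rd_add (rd_ite (α = b) (r7 i)) (r4 i α))
  have hfr : ∀ α, RD (f' α) := fun α => rd_neg (rd_add (r8 α) (r6 α))
  set f : Fin N → Ix n → ℂ := fun α k => ∑ i, al θ i k * g i α k + f' α k with hf
  have hfrd : ∀ α, RD (f α) := fun α =>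
    rd_add (G.rdSum _ fun i => hθ.rd_dcs (hgr i α) i) (hfr α)
  -- norms
  have hd2 : (2 * n * δ : ℝ) ≤ 2 * (n + 1) ^ 2 * (N + 1) * δ := by
    refine mul_le_mul_of_nonneg_right ?_ hδ0
    have h1 : (n : ℝ) ≤ (n + 1) ^ 2 := by
      have : (0 : ℝ) ≤ n := Nat.cast_nonneg n
      nlinarith
    have h2 : (1 : ℝ) ≤ N + 1 := by
      have : (0 : ℝ) ≤ N := Nat.cast_nonneg N
      linarith
    calc (2 * n : ℝ) ≤ 2 * (n + 1) ^ 2 := by linarith
      _ ≤ 2 * (n + 1) ^ 2 * (N + 1) := le_mul_of_one_le_right (by positivity) h2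
  have hd3 : δ ≤ 2 * (n + 1) ^ 2 * (N + 1) * δ := by
    refine le_mul_of_one_le_left hδ0 ?_
    have h1 : (1 : ℝ) ≤ (n + 1) ^ 2 := by
      have : (0 : ℝ) ≤ n := Nat.cast_nonneg n
      nlinarith
    have h2 : (1 : ℝ) ≤ N + 1 := by
      have : (0 : ℝ) ≤ N := Nat.cast_nonneg N
      linarith
    nlinarith
  have hd4 : (n * (N * (2 * n * δ)) : ℝ) ≤ 2 * (n + 1) ^ 2 * (N + 1) * δ := by
    have h0 : (0 : ℝ) ≤ n := Nat.cast_nonneg n
    have h0' : (0 : ℝ) ≤ N := Nat.cast_nonneg N
    have h1 : (n * (N * (2 * n)) : ℝ) ≤ 2 * (n + 1) ^ 2 * (N + 1) := by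
      have h2 : (n : ℝ) ^ 2 ≤ (n + 1) ^ 2 := by nlinarith
      calc (n * (N * (2 * n)) : ℝ) = 2 * n ^ 2 * N := by ring
        _ ≤ 2 * (n + 1) ^ 2 * (N + 1) := by gcongr <;> linarith
    calc (n * (N * (2 * n * δ)) : ℝ) = n * (N * (2 * n)) * δ := by ring
      _ ≤ _ := mul_le_mul_of_nonneg_right h1 hδ0
  obtain ⟨w, hw, heq, hbd⟩ := solveS (ψ := fun α => Es θ (f α)) a1 a2 neu M hθ hh hbr hbr' hqr
    hfrd rs hrb hrb' hrq (fun α x _ => rfl) hδ (fun i j => (hM i j).trans hd3)
    (fun i α β => (nm_bA_le a2 hh hc hδ1 hM hcM i α β).trans hd2)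
    (fun i α β => (nm_bA'_le a2 hh hc hδ1 hM hcM i α β).trans hd2)
    (fun α β => (nm_qA_le a2 hh hc hδ1 hM hcM α β).trans hd4)
  refine ⟨w, hw, fun α x hx => ?_, fun α => ?_⟩
  · rw [opA_eq]
    have hp : ∀ β, ContDiff ℝ ∞ (fun y => if β = b then P y else 0) := fun β => by
      split_ifs
      · exact hP
      · exact contDiff_const
    rw [opS_add hs hBs (u := fun β y => if β = b then P y else 0)
      (v := fun β y => Es θ (w β) y) hp fun β => smooth_EsS a1 θ (hw β)]
    have h2 := heq α x hx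
    change _ + opS s (Bm s A) (Bm' s A) (Qm s A) (fun β => Es θ (w β)) α x = 0
    rw [h2]
    -- the leading part
    have hpd : ∀ β j z, pd j (fun y => if β = b then P y else 0) z = if β = b then d j else 0 := by
      intro β j z
      split_ifs
      · exact hd j z
      · exact pd_const j 0 z
    have hfl : ∀ i, ∀ z ∈ cube n, ∑ j, (s z i j : ℂ) * pd j (fun y => if α = b then P y else 0) z +
        ∑ β, Bm s A i z α β * (if β = b then P z else 0) =
        (if α = b then d i else 0) + Es θ (fun k => -g i α k) z := by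
      intro i z hz
      have e2 : Es θ (fun k => -g i α k) z =
          (if α = b then ∑ j, d j * ent s i j z else 0) + Bm s A i z α b * P z := by
        have e3 : (fun k => -g i α k) = fun k =>
            (if α = b then ∑ j, d j * cv (h i j) e1 k else 0) + cv (bA h c i α b) e k := by
          funext k
          rw [hg]
          ring
        rw [e3, G.Es_add (rd_ite (α = b) (r7 i)) (r4 i α), Es_ite,
          ← mul_core a2 (hbr i α b) he (hrb i α b) (hB0 i α b) r2 z hz]
        congr 1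
        split_ifs
        · rw [G.Es_sum _ fun j => rd_half (r3 i j) (d j)]
          refine Finset.sum_congr rfl fun j _ => ?_
          have e4 : Es θ (fun k => d j * cv (h i j) e1 k) z = d j * Es θ (cv (h i j) e1) z := by
            unfold Es
            rw [← tsum_mul_left]
            exact tsum_congr fun k => by ring
          rw [e4, ← mul_core a2 (hh i j) he1 (rs i j)
            (fun x hx => ent_off (hs1 x hx) i j) r1 z hz, mul_one]
        · rfl
      rw [e2]
      have e5 : ∑ β, Bm s A i z α β * (if β = b then P z else 0) = Bm s A i z α b * P z := by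
        rw [Finset.sum_eq_single b]
        · rw [if_pos rfl]
        · intro β _ hβ
          rw [if_neg hβ, mul_zero]
        · intro h
          exact absurd (Finset.mem_univ b) h
      rw [e5, ← add_assoc]
      congr 1
      simp only [hpd]
      split_ifs
      · have e6 : d i = ∑ j, (((1 : Matrix (Fin n) (Fin n) ℝ) i j : ℝ) : ℂ) * d j := by
          rw [Finset.sum_eq_single i]
          · simp
          · intro j _ hj
            simp [hj.symm]
          · intro h
            exact absurd (Finset.mem_univ i) h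
        rw [e6, ← Finset.sum_add_distrib]
        refine Finset.sum_congr rfl fun j _ => ?_
        unfold ent
        push_cast
        ring
      · simp
    have key : ∀ i, pd i (fun z => ∑ j, (s z i j : ℂ) * pd j (fun y => if α = b then P y else 0) z
        + ∑ β, Bm s A i z α β * (if β = b then P z else 0)) x =
        Es θ (dcs θ i (fun k => -g i α k)) x := by
      intro i
      have h3 : (fun z => ∑ j, (s z i j : ℂ) * pd j (fun y => if α = b then P y else 0) z
          + ∑ β, Bm s A i z α β * (if β = b then P z else 0)) =ᶠ[𝓝 x] fun z =>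
          (if α = b then d i else 0) + Es θ (fun k => -g i α k) z := by
        filter_upwards [(isOpen_cube n).mem_nhds hx] with z hz
        exact hfl i z hz
      rw [pd_congr h3, pd_add_const, pd_EsS a1 (rd_neg (hgr i α))]
    have k1 : ∑ j, ∑ β, Bm' s A j x α β * pd j (fun y => if β = b then P y else 0) x =
        Es θ (fun k => ∑ j, d j * cv (bA' h c j α b) e1 k) x := by
      rw [G.Es_sum _ fun j => rd_half (r5 j α) (d j)]
      refine Finset.sum_congr rfl fun j _ => ?_
      have e4 : Es θ (fun k => d j * cv (bA' h c j α b) e1 k) x =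
          d j * Es θ (cv (bA' h c j α b) e1) x := by
        unfold Es
        rw [← tsum_mul_left]
        exact tsum_congr fun k => by ring
      rw [e4, ← mul_core a2 (hbr' j α b) he1 (hrb' j α b) (hB0' j α b) r1 x hx, mul_one,
        Finset.sum_eq_single b]
      · rw [hpd, if_pos rfl, mul_comm]
      · intro β _ hβ
        rw [hpd, if_neg hβ, mul_zero]
      · intro h
        exact absurd (Finset.mem_univ b) h
    have k2 : ∑ β, Qm s A x α β * (if β = b then P x else 0) =
        Es θ (cv (qA h c α b) e) x := by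
      rw [← mul_core a2 (hqr α b) he (hrq α b) (hQ0 α b) r2 x hx, Finset.sum_eq_single b]
      · rw [if_pos rfl]
      · intro β _ hβ
        rw [if_neg hβ, mul_zero]
      · intro h
        exact absurd (Finset.mem_univ b) h
    unfold opS
    rw [Finset.sum_congr rfl fun i _ => key i, k1, k2,
      ← G.Es_sum _ (fun i => hθ.rd_dcs (rd_neg (hgr i α)) i),
      ← G.Es_add (G.rdSum _ fun i => hθ.rd_dcs (rd_neg (hgr i α)) i) (r8 α),
      ← G.Es_add (rd_add (G.rdSum _ fun i => hθ.rd_dcs (rd_neg (hgr i α)) i) (r8 α)) (r6 α),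
      ← G.Es_add (rd_add (rd_add (G.rdSum _ fun i => hθ.rd_dcs (rd_neg (hgr i α)) i) (r8 α))
        (r6 α)) (hfrd α)]
    have e0 : (fun k => ∑ i, dcs θ i (fun k => -g i α k) k +
        ∑ j, d j * cv (bA' h c j α b) e1 k + cv (qA h c α b) e k + f α k) = fun _ => 0 := by
      funext k
      have e7 : ∑ i, dcs θ i (fun k => -g i α k) k = -∑ i, al θ i k * g i α k := by
        rw [← Finset.sum_neg_distrib]
        refine Finset.sum_congr rfl fun i _ => ?_
        unfold dcs
        ring
      rw [e7, hf, hf']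
      ring
    rw [e0]
    simp [Es]
  · have h0 : (0 : ℝ) ≤ n := Nat.cast_nonneg n
    have h0' : (0 : ℝ) ≤ N := Nat.cast_nonneg N
    have h1 : nm (M + 1) (w α) ≤ ∑ α, nm (M + 1) (w α) :=
      Finset.single_le_sum (f := fun α => nm (M + 1) (w α)) (fun _ _ => G.nm_nonneg _ _)
        (Finset.mem_univ α)
    refine (h1.trans (hbd M le_rfl)).trans ?_
    have hgn : ∀ i α, nm M (g i α) ≤ 3 * n * K * δ := by
      intro i α
      rw [hg]
      refine (nm_neg _ M).le.trans ((nm_add_le (rd_ite (α = b) (r7 i)) (r4 i α) M).trans ?_)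
      have t1 : nm M (fun k => if α = b then ∑ j, d j * cv (h i j) e1 k else 0) ≤
          n * K * δ := by
        refine (nm_ite_le (α = b) M).trans ((nm_sum_le _ (fun j => rd_half (r3 i j) (d j))
          M).trans ?_)
        calc ∑ j, nm M (fun k => d j * cv (h i j) e1 k) ≤ ∑ _j : Fin n, K * δ := by
              refine Finset.sum_le_sum fun j _ => ?_
              rw [nm_smul]
              have t2 := (a2 (0 : V n) 0 _ _ (hh i j) he1).2.2.2 M
              have t3 : nm M (h i j) * nm M e1 ≤ δ * K :=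
                mul_le_mul (hM i j) hK1 (G.nm_nonneg _ _) hδ0
              have t4 := G.nm_nonneg M (cv (h i j) e1)
              have t5 := hd1 j
              nlinarith [norm_nonneg (d j)]
          _ = n * K * δ := by simp; ring
      have t6 : nm M (cv (bA h c i α b) e) ≤ 2 * n * δ * K :=
        ((a2 (0 : V n) 0 _ _ (hbr i α b) he).2.2.2 M).trans
          (mul_le_mul (nm_bA_le a2 hh hc hδ1 hM hcM i α b) hK2 (G.nm_nonneg _ _)
            (by positivity))
      linarith
    have hfn : ∀ α, nm M (f' α) ≤ 2 * n ^ 2 * (1 + N) * K * δ := by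
      intro α
      rw [hf']
      refine (nm_neg _ M).le.trans ((nm_add_le (r8 α) (r6 α) M).trans ?_)
      have t1 : nm M (fun k => ∑ j, d j * cv (bA' h c j α b) e1 k) ≤ n * (2 * n * δ * K) := by
        refine (nm_sum_le _ (fun j => rd_half (r5 j α) (d j)) M).trans ?_
        calc ∑ j, nm M (fun k => d j * cv (bA' h c j α b) e1 k) ≤
            ∑ _j : Fin n, 2 * n * δ * K := by
              refine Finset.sum_le_sum fun j _ => ?_
              rw [nm_smul]
              have t2 := (a2 (0 : V n) 0 _ _ (hbr' j α b) he1).2.2.2 M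
              have t3 : nm M (bA' h c j α b) * nm M e1 ≤ 2 * n * δ * K :=
                mul_le_mul (nm_bA'_le a2 hh hc hδ1 hM hcM j α b) hK1 (G.nm_nonneg _ _)
                  (by positivity)
              have t4 := G.nm_nonneg M (cv (bA' h c j α b) e1)
              have t5 := hd1 j
              nlinarith [norm_nonneg (d j)]
          _ = n * (2 * n * δ * K) := by simp
      have t6 : nm M (cv (qA h c α b) e) ≤ n * (N * (2 * n * δ)) * K :=
        ((a2 (0 : V n) 0 _ _ (hqr α b) he).2.2.2 M).trans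
          (mul_le_mul (nm_qA_le a2 hh hc hδ1 hM hcM α b) hK2 (G.nm_nonneg _ _)
            (by positivity))
      calc _ ≤ n * (2 * n * δ * K) + n * (N * (2 * n * δ)) * K := add_le_add t1 t6
        _ = _ := by ring
    have hα : ∀ α, nm M (fun k => (m0 θ k : ℂ) * f α k) ≤
        (n + 3) * (n ^ 2 * (5 + 2 * N) * K) * δ := by
      intro α
      refine (nm_rhs_le hθ (fun i => hgr i α) (hfr α) M).trans ?_
      rw [mul_assoc]
      refine mul_le_mul_of_nonneg_left ?_ (by positivity)
      have t1 : ∑ i, nm M (g i α) ≤ n * (3 * n * K * δ) := by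
        calc ∑ i, nm M (g i α) ≤ ∑ _i : Fin n, 3 * n * K * δ :=
              Finset.sum_le_sum fun i _ => hgn i α
          _ = n * (3 * n * K * δ) := by simp
      calc _ ≤ n * (3 * n * K * δ) + 2 * n ^ 2 * (1 + N) * K * δ := add_le_add t1 (hfn α)
        _ = _ := by ring
    calc 2 * ∑ α, nm M (fun k => (m0 θ k : ℂ) * f α k) ≤
        2 * ∑ _α : Fin N, (n + 3) * (n ^ 2 * (5 + 2 * N) * K) * δ :=
          mul_le_mul_of_nonneg_left (Finset.sum_le_sum fun α _ => hα α) (by norm_num)
      _ = _ := by simp; ring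

end Vale.Agent.P088.LR.H27
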