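import Vale.Agent.P088.H27.JFr

/-!
# P088, stage J, row U_G2: Green's formula on the cube
-/

open MeasureTheory Set Filter
open scoped ContDiff Matrix Topology ComplexConjugate

noncomputable section

namespace Vale.Agent.P088.LR.H27

open Vale.Agent.P088.LR U

variable {n N : ℕ}

/-! ## Norms of quasi-periodic series -/

lemma sum_nm_dcs_le {θ : V n} (hθ : Sh θ) {c : Ix n → ℂ} (hc : RD c) (l : ℕ) :
    ∑ i, nm l (dcs θ i c) ≤ 2 * Real.pi * nm (l + 1) c := by
  unfold nm
  rw [← Summable.tsum_finsetSum fun i _ => hθ.rd_dcs hc i l, ← tsum_mul_left]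
  refine (summable_sum fun i _ => hθ.rd_dcs hc i l).tsum_le_tsum (fun k => ?_)
    ((hc (l + 1)).mul_left _)
  have e : ∀ i, wt k ^ l * ‖dcs θ i c k‖ = |fr θ k i| * (wt k ^ l * (2 * Real.pi) * ‖c k‖) := by
    intro i
    unfold dcs
    rw [norm_mul, norm_al]
    ring
  rw [Finset.sum_congr rfl fun i _ => e i, ← Finset.sum_mul]
  have h1 : ∑ i, |fr θ k i| ≤ wt k := by
    have h5 : ∑ j, |θ j| ≤ 1 / 2 := by
      obtain ⟨i₀, h⟩ := hθ
      have h6 : ∀ j, |θ j| = if j = i₀ then 1 / 2 else 0 := by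
        intro j
        have h7 : |θ j| = |CF.th0 i₀ j| := by
          rcases h with rfl | rfl
          · rfl
          · rw [Pi.neg_apply, abs_neg]
        rw [h7]
        unfold CF.th0
        by_cases hj : j = i₀
        · subst hj
          rw [Pi.single_eq_same, if_pos rfl]
          norm_num
        · rw [Pi.single_eq_of_ne hj, abs_zero, if_neg hj]
      rw [Finset.sum_congr rfl fun j _ => h6 j, Finset.sum_ite_eq' Finset.univ i₀,
        if_pos (Finset.mem_univ _)]
    unfold wt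
    calc ∑ i, |fr θ k i| ≤ ∑ i, (|(k i : ℝ)| + |θ i|) :=
          Finset.sum_le_sum fun i _ => abs_add_le _ _
      _ = ∑ i, |(k i : ℝ)| + ∑ i, |θ i| := Finset.sum_add_distrib
      _ ≤ _ := by linarith
  have h2 := G.wt_nonneg k
  calc (∑ i, |fr θ k i|) * (wt k ^ l * (2 * Real.pi) * ‖c k‖)
      ≤ wt k * (wt k ^ l * (2 * Real.pi) * ‖c k‖) :=
        mul_le_mul_of_nonneg_right h1 (by positivity)
    _ = 2 * Real.pi * (wt k ^ (l + 1) * ‖c k‖) := by rw [pow_succ]; ring

lemma norm_iter_EsS (a1 : RowA1) {θ : V n} (hθ : Sh θ) (l : ℕ) : ∀ {c : Ix n → ℂ}, RD c → ∀ x,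
    ‖iteratedFDeriv ℝ l (Es θ c) x‖ ≤ (2 * Real.pi) ^ l * nm l c := by
  induction l with
  | zero =>
    intro c hc x
    rw [norm_iteratedFDeriv_zero, pow_zero, one_mul]
    exact G.norm_Es_le hc θ x
  | succ l ih =>
    intro c hc x
    refine (G.norm_iter_succ_le (smooth_EsS a1 θ hc) l x).trans ?_
    calc ∑ i, ‖iteratedFDeriv ℝ l (pd i (Es θ c)) x‖
        ≤ ∑ i, (2 * Real.pi) ^ l * nm l (dcs θ i c) := Finset.sum_le_sum fun i _ => by
          rw [pd_EsS a1 hc]; exact ih (hθ.rd_dcs hc i) x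
      _ = (2 * Real.pi) ^ l * ∑ i, nm l (dcs θ i c) := by rw [Finset.mul_sum]
      _ ≤ (2 * Real.pi) ^ l * (2 * Real.pi * nm (l + 1) c) :=
          mul_le_mul_of_nonneg_left (sum_nm_dcs_le hθ hc l) (by positivity)
      _ = _ := by rw [pow_succ]; ring

/-! ## The energy integrand -/

/-- `s(Du, Dv)`. -/
def eI (s : MF n) (A : Cn n N) (u v : Fin N → V n → ℂ) (x : V n) : ℂ :=
  ∑ i, ∑ α, flS s A u i α x * starRingEnd ℂ (dS A i v α x)

lemma dS_smooth {A : Cn n N} (hA : ∀ i α β, ContDiff ℝ ∞ fun x => A i x α β)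
    {u : Fin N → V n → ℂ} (hu : ∀ β, ContDiff ℝ ∞ (u β)) (i : Fin n) (α : Fin N) :
    ContDiff ℝ ∞ (dS A i u α) := by
  unfold dS
  exact (G.smooth_pd (hu α) i).add (ContDiff.sum fun β _ => (hA i α β).mul (hu β))

lemma flS_smooth {s : MF n} (hs : SmM s) {A : Cn n N}
    (hA : ∀ i α β, ContDiff ℝ ∞ fun x => A i x α β)
    {u : Fin N → V n → ℂ} (hu : ∀ β, ContDiff ℝ ∞ (u β)) (i : Fin n) (α : Fin N) :
    ContDiff ℝ ∞ (flS s A u i α) := by
  unfold flS
  exact ContDiff.sum fun j _ => (Complex.ofRealCLM.contDiff.comp (hs i j)).mul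
    (dS_smooth hA hu j α)

lemma conj_smooth {f : V n → ℂ} (hf : ContDiff ℝ ∞ f) :
    ContDiff ℝ ∞ (fun x => starRingEnd ℂ (f x)) :=
  (Complex.conjCLE : ℂ →L[ℝ] ℂ).contDiff.comp hf

lemma eI_smooth {s : MF n} (hs : SmM s) {A : Cn n N}
    (hA : ∀ i α β, ContDiff ℝ ∞ fun x => A i x α β)
    {u v : Fin N → V n → ℂ} (hu : ∀ β, ContDiff ℝ ∞ (u β)) (hv : ∀ β, ContDiff ℝ ∞ (v β)) :
    ContDiff ℝ ∞ (eI s A u v) := by
  unfold eI
  exact ContDiff.sum fun i _ => ContDiff.sum fun α _ =>
    (flS_smooth hs hA hu i α).mul (conj_smooth (dS_smooth hA hv i α))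

lemma int_cont {f : V n → ℂ} (hf : Continuous f) : IntegrableOn f (cube n) := by
  have h1 : cube n ⊆ Set.pi univ fun _ => Icc (0 : ℝ) 1 := by
    intro x hx j _
    exact ⟨(hx j).1.le, (hx j).2.le⟩
  have h2 : IsCompact (Set.pi univ fun _ : Fin n => Icc (0 : ℝ) 1) :=
    isCompact_univ_pi fun _ => isCompact_Icc
  exact (hf.continuousOn.integrableOn_compact h2).mono_set h1

/-- The symmetry of the energy. -/
lemma eI_symm {s : MF n} (hsym : ∀ x, (s x).IsSymm) (A : Cn n N) (u v : Fin N → V n → ℂ)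
    (x : V n) : eI s A u v x = starRingEnd ℂ (eI s A v u x) := by
  have e : ∀ u v : Fin N → V n → ℂ, eI s A u v x =
      ∑ i, ∑ j, ∑ α, (s x i j : ℂ) * (dS A j u α x * starRingEnd ℂ (dS A i v α x)) := by
    intro u v
    unfold eI flS
    refine Finset.sum_congr rfl fun i _ => ?_
    rw [Finset.sum_comm]
    refine Finset.sum_congr rfl fun α _ => ?_
    rw [Finset.sum_mul]
    exact Finset.sum_congr rfl fun j _ => by ring
  rw [e u v, e v u]
  simp only [map_sum, map_mul, Complex.conj_ofReal, Complex.conj_conj]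
  rw [Finset.sum_comm]
  refine Finset.sum_congr rfl fun i _ => Finset.sum_congr rfl fun j _ =>
    Finset.sum_congr rfl fun α _ => ?_
  have : s x j i = s x i j := (hsym x).apply i j
  rw [this]
  ring

/-- **Left Green formula.** The flux of `u` is a constant plus a quasi-periodic function. -/
lemma green_left (a1 : RowA1) (a2 : RowA2) {θ : V n} (hθ : Sh θ) {s : MF n} (hs : SmM s)
    {A : Cn n N} (hA : SmU A) {u v : Fin N → V n → ℂ} (hu : ∀ β, ContDiff ℝ ∞ (u β))
    (hv : ∀ β, ContDiff ℝ ∞ (v β)) (qv : ∀ β, Qp θ (v β)) (c : Fin n → Fin N → ℂ)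
    (qu : ∀ i α, Qp θ (fun x => flS s A u i α x - c i α)) :
    ∫ x in cube n, eI s A u v x = (∫ x in cube n, ∑ i, ∑ α, c i α * starRingEnd ℂ (pd i (v α) x)) -
      ∫ x in cube n, ∑ α, opA s A u α x * starRingEnd ℂ (v α x) := by
  have hAs := hA.1
  have hfs := fun i α => flS_smooth hs hAs hu i α
  have hRs : ∀ i α, ContDiff ℝ ∞ (fun x => flS s A u i α x - c i α) := fun i α =>
    (hfs i α).sub contDiff_const
  have hpR : ∀ i α x, pd i (fun x => flS s A u i α x - c i α) x = pd i (flS s A u i α) x := by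
    intro i α x
    unfold pd
    rw [fderiv_sub_const]
  -- integration by parts
  have h1 : ∀ i α, ∫ x in cube n, (flS s A u i α x - c i α) * starRingEnd ℂ (pd i (v α) x) =
      -∫ x in cube n, pd i (flS s A u i α) x * starRingEnd ℂ (v α x) := by
    intro i α
    rw [ibpQ a1 a2 hθ (qu i α) (qv α) (hRs i α) (hv α) i]
    congr 1
    congr 1
    funext x
    rw [hpR]
  have hpc : ∀ i α, Continuous fun x => starRingEnd ℂ (pd i (v α) x) := fun i α =>
    (conj_smooth (G.smooth_pd (hv α) i)).continuous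
  have hvc : ∀ α, Continuous fun x => starRingEnd ℂ (v α x) := fun α =>
    (conj_smooth (hv α)).continuous
  have hpf : ∀ i α, Continuous fun x => pd i (flS s A u i α) x := fun i α =>
    (G.smooth_pd (hfs i α) i).continuous
  -- the pointwise identity
  have h2 : ∀ x, eI s A u v x = (∑ i, ∑ α, c i α * starRingEnd ℂ (pd i (v α) x)) +
      (∑ i, ∑ α, (flS s A u i α x - c i α) * starRingEnd ℂ (pd i (v α) x)) -
      ∑ i, ∑ α, (∑ β, A i x α β * flS s A u i β x) * starRingEnd ℂ (v α x) := by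
    intro x
    have h3 : ∀ i, ∑ α, flS s A u i α x * starRingEnd ℂ (∑ β, A i x α β * v β x) =
        -∑ α, (∑ β, A i x α β * flS s A u i β x) * starRingEnd ℂ (v α x) := by
      intro i
      simp only [map_sum, map_mul, Finset.mul_sum, Finset.sum_mul]
      rw [Finset.sum_comm, ← Finset.sum_neg_distrib]
      refine Finset.sum_congr rfl fun β _ => ?_
      rw [← Finset.sum_neg_distrib]
      refine Finset.sum_congr rfl fun α _ => ?_
      have h4 : starRingEnd ℂ (A i x α β) = -A i x β α := by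
        have h5 := congrFun (congrFun (hA.2 i x) β) α
        rw [Matrix.conjTranspose_apply] at h5
        exact h5
      rw [h4]
      ring
    unfold eI dS
    simp only [map_add, mul_add, Finset.sum_add_distrib]
    rw [Finset.sum_congr rfl fun i _ => h3 i, Finset.sum_neg_distrib]
    simp only [sub_mul, Finset.sum_sub_distrib]
    ring
  have i1 : IntegrableOn (fun x => ∑ i, ∑ α, c i α * starRingEnd ℂ (pd i (v α) x)) (cube n) :=
    int_cont (continuous_finsetSum _ fun i _ => continuous_finsetSum _ fun α _ =>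
      continuous_const.mul (hpc i α))
  have i2 : ∀ i α, IntegrableOn (fun x => (flS s A u i α x - c i α) *
      starRingEnd ℂ (pd i (v α) x)) (cube n) := fun i α =>
    int_cont ((hRs i α).continuous.mul (hpc i α))
  have i3 : IntegrableOn (fun x => ∑ i, ∑ α, (flS s A u i α x - c i α) *
      starRingEnd ℂ (pd i (v α) x)) (cube n) :=
    int_cont (continuous_finsetSum _ fun i _ => continuous_finsetSum _ fun α _ =>
      (hRs i α).continuous.mul (hpc i α))
  have i4 : IntegrableOn (fun x => ∑ i, ∑ α, (∑ β, A i x α β * flS s A u i β x) *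
      starRingEnd ℂ (v α x)) (cube n) :=
    int_cont (continuous_finsetSum _ fun i _ => continuous_finsetSum _ fun α _ =>
      (continuous_finsetSum _ fun β _ => (hAs i α β).continuous.mul
        (hfs i β).continuous).mul (hvc α))
  have i5 : ∀ i α, IntegrableOn (fun x => pd i (flS s A u i α) x *
      starRingEnd ℂ (v α x)) (cube n) := fun i α => int_cont ((hpf i α).mul (hvc α))
  have i6 : IntegrableOn (fun x => ∑ i, ∑ α, pd i (flS s A u i α) x *
      starRingEnd ℂ (v α x)) (cube n) :=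
    int_cont (continuous_finsetSum _ fun i _ => continuous_finsetSum _ fun α _ =>
      (hpf i α).mul (hvc α))
  have i13 : IntegrableOn (fun x => (∑ i, ∑ α, c i α * starRingEnd ℂ (pd i (v α) x)) +
      ∑ i, ∑ α, (flS s A u i α x - c i α) * starRingEnd ℂ (pd i (v α) x)) (cube n) := i1.add i3
  simp_rw [h2]
  rw [integral_sub i13 i4, integral_add i1 i3]
  have h6 : ∫ x in cube n, ∑ i, ∑ α, (flS s A u i α x - c i α) *
      starRingEnd ℂ (pd i (v α) x) = -∫ x in cube n, ∑ i, ∑ α, pd i (flS s A u i α) x *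
      starRingEnd ℂ (v α x) := by
    rw [integral_finsetSum _ fun i _ => integrable_finsetSum _ fun α _ => i2 i α,
      integral_finsetSum _ fun i _ => integrable_finsetSum _ fun α _ => i5 i α,
      ← Finset.sum_neg_distrib]
    refine Finset.sum_congr rfl fun i _ => ?_
    rw [integral_finsetSum _ fun α _ => i2 i α, integral_finsetSum _ fun α _ => i5 i α,
      ← Finset.sum_neg_distrib]
    exact Finset.sum_congr rfl fun α _ => h1 i α
  have h7 : ∫ x in cube n, ∑ α, opA s A u α x * starRingEnd ℂ (v α x) =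
      (∫ x in cube n, ∑ i, ∑ α, pd i (flS s A u i α) x * starRingEnd ℂ (v α x)) +
      ∫ x in cube n, ∑ i, ∑ α, (∑ β, A i x α β * flS s A u i β x) *
        starRingEnd ℂ (v α x) := by
    rw [← integral_add i6 i4]
    congr 1
    funext x
    unfold opA
    simp only [Finset.sum_mul, add_mul, Finset.sum_add_distrib]
    congr 1
    · rw [Finset.sum_comm]
    · rw [Finset.sum_comm]
  rw [h6, h7]
  ring

/-- **Right Green formula.** -/
lemma green_right (a1 : RowA1) (a2 : RowA2) {θ : V n} (hθ : Sh θ) {s : MF n} (hs : SmM s)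
    (hsym : ∀ x, (s x).IsSymm) {A : Cn n N} (hA : SmU A) {u v : Fin N → V n → ℂ}
    (hu : ∀ β, ContDiff ℝ ∞ (u β)) (hv : ∀ β, ContDiff ℝ ∞ (v β)) (qu : ∀ β, Qp θ (u β))
    (qv : ∀ i α, Qp θ (flS s A v i α)) :
    ∫ x in cube n, eI s A u v x =
      -∫ x in cube n, ∑ α, starRingEnd ℂ (opA s A v α x) * u α x := by
  have h1 := green_left a1 a2 hθ hs hA hv hu qu (fun _ _ => 0) (fun i α =>
    (qv i α).congr fun x _ => (sub_zero _).symm)
  simp only [zero_mul, Finset.sum_const_zero, integral_zero, zero_sub] at h1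
  have h2 : ∫ x in cube n, eI s A u v x = starRingEnd ℂ (∫ x in cube n, eI s A v u x) := by
    rw [← integral_conj]
    congr 1
    funext x
    exact eI_symm hsym A u v x
  rw [h2, h1, map_neg, ← integral_conj]
  congr 1
  congr 1
  funext x
  simp only [map_sum, map_mul, Complex.conj_conj]

end Vale.Agent.P088.LR.H27
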