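import Vale.Agent.P088.H27.GQA

/-!
# P088, stage J: the matrix valued torus solver with a half-integer shift
-/

open MeasureTheory Set Filter
open scoped ContDiff Matrix Topology ComplexConjugate

noncomputable section

namespace Vale.Agent.P088.LR.H27

open Vale.Agent.P088.LR

variable {n N : ℕ}

/-- Half-integer shift in one coordinate. -/
def Sh (θ : V n) : Prop := ∃ i₀, θ = CF.th0 i₀ ∨ θ = -CF.th0 i₀

/-- `2πi (k + θ)_i`. -/
def al (θ : V n) (i : Fin n) (k : Ix n) : ℂ := 2 * Real.pi * Complex.I * ((fr θ k i : ℝ) : ℂ)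

/-- Coefficients of the derivative. -/
def dcs (θ : V n) (i : Fin n) (c : Ix n → ℂ) (k : Ix n) : ℂ := al θ i k * c k

/-- `|k + θ|²`. -/
def qt (θ : V n) (k : Ix n) : ℝ := ∑ j, fr θ k j ^ 2

lemma Sh.neg {θ : V n} (h : Sh θ) : Sh (-θ) := by
  obtain ⟨i₀, rfl | rfl⟩ := h
  · exact ⟨i₀, Or.inr rfl⟩
  · exact ⟨i₀, Or.inl (neg_neg _)⟩

lemma Sh.abs_le {θ : V n} (h : Sh θ) (j : Fin n) : |θ j| ≤ 1 / 2 := by
  obtain ⟨i₀, rfl | rfl⟩ := h
  · unfold CF.th0
    by_cases hj : j = i₀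
    · subst hj
      rw [Pi.single_eq_same]
      norm_num
    · rw [Pi.single_eq_of_ne hj, abs_zero]
      norm_num
  · rw [Pi.neg_apply, abs_neg]
    unfold CF.th0
    by_cases hj : j = i₀
    · subst hj
      rw [Pi.single_eq_same]
      norm_num
    · rw [Pi.single_eq_of_ne hj, abs_zero]
      norm_num

lemma qt_nonneg (θ : V n) (k : Ix n) : 0 ≤ qt θ k := Finset.sum_nonneg fun _ _ => sq_nonneg _

lemma Sh.qt_ge {θ : V n} (h : Sh θ) (k : Ix n) : 1 / 4 ≤ qt θ k := by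
  obtain ⟨i₀, h⟩ := h
  have h1 : fr θ k i₀ ^ 2 ≤ qt θ k :=
    Finset.single_le_sum (f := fun j => fr θ k j ^ 2) (fun _ _ => sq_nonneg _)
      (Finset.mem_univ i₀)
  refine le_trans ?_ h1
  have h2 : ∀ m : ℤ, (1 / 4 : ℝ) ≤ ((m : ℝ) + 1 / 2) ^ 2 := by
    intro m
    rcases le_or_gt 0 m with hm | hm
    · have : (0 : ℝ) ≤ m := by exact_mod_cast hm
      nlinarith
    · have : (m : ℝ) ≤ -1 := by exact_mod_cast (by omega : m ≤ -1)
      nlinarith
  have h3 : CF.th0 i₀ i₀ = 1 / 2 := by unfold CF.th0; rw [Pi.single_eq_same]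
  rcases h with rfl | rfl
  · unfold fr
    rw [h3]
    exact h2 _
  · unfold fr
    rw [Pi.neg_apply, h3]
    have := h2 (-(k i₀))
    push_cast at this
    nlinarith

lemma Sh.abs_fr_le {θ : V n} (h : Sh θ) (k : Ix n) (j : Fin n) : |fr θ k j| ≤ wt k := by
  unfold fr wt
  have h1 := Finset.single_le_sum (f := fun j => |(k j : ℝ)|) (fun _ _ => abs_nonneg _)
    (Finset.mem_univ j)
  have h2 := abs_add_le (k j : ℝ) (θ j)
  have h3 := h.abs_le j
  linarith

lemma abs_fr_le_sqrt (θ : V n) (k : Ix n) (j : Fin n) : |fr θ k j| ≤ √(qt θ k) := by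
  refine Real.abs_le_sqrt ?_
  exact Finset.single_le_sum (f := fun j => fr θ k j ^ 2) (fun _ _ => sq_nonneg _)
      (Finset.mem_univ j)

lemma Sh.wt_le {θ : V n} (h : Sh θ) (k : Ix n) : wt k ≤ (n + 3) * √(qt θ k) := by
  have h1 : 1 / 2 ≤ √(qt θ k) := by
    refine Real.le_sqrt_of_sq_le ?_
    have := h.qt_ge k
    norm_num
    linarith
  have h2 : ∀ j, |(k j : ℝ)| ≤ √(qt θ k) + |θ j| := by
    intro j
    have h3 := abs_fr_le_sqrt θ k j
    have h4 : (k j : ℝ) = fr θ k j - θ j := by unfold fr; ring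
    rw [h4]
    refine (abs_sub _ _).trans ?_
    linarith
  have h5 : ∑ j, |θ j| ≤ 1 / 2 := by
    obtain ⟨i₀, h⟩ := h
    have h6 : ∀ j, |θ j| = if j = i₀ then 1 / 2 else 0 := by
      intro j
      have h7 : |θ j| = |CF.th0 i₀ j| := by
        rcases h with rfl | rfl
        · rfl
        · rw [Pi.neg_apply, abs_neg]
      rw [h7]
      unfold CF.th0
      by_cases hj : j = i₀
      · subst hj
        rw [Pi.single_eq_same, if_pos rfl]
        norm_num
      · rw [Pi.single_eq_of_ne hj, abs_zero, if_neg hj]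
    rw [Finset.sum_congr rfl fun j _ => h6 j, Finset.sum_ite_eq' Finset.univ i₀,
      if_pos (Finset.mem_univ _)]
  unfold wt
  have h8 : ∑ j, |(k j : ℝ)| ≤ n * √(qt θ k) + 1 / 2 := by
    calc ∑ j, |(k j : ℝ)| ≤ ∑ j, (√(qt θ k) + |θ j|) := Finset.sum_le_sum fun j _ => h2 j
      _ = n * √(qt θ k) + ∑ j, |θ j| := by
          rw [Finset.sum_add_distrib]
          simp
      _ ≤ _ := by linarith
  nlinarith

lemma Sh.wt_fr_le {θ : V n} (h : Sh θ) (k : Ix n) (j : Fin n) :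
    wt k * |fr θ k j| ≤ (n + 3) * qt θ k := by
  have h1 := h.wt_le k
  have h2 := abs_fr_le_sqrt θ k j
  have h3 := Real.mul_self_sqrt (qt_nonneg θ k)
  calc wt k * |fr θ k j| ≤ ((n + 3) * √(qt θ k)) * √(qt θ k) :=
        mul_le_mul h1 h2 (abs_nonneg _) (by positivity)
    _ = (n + 3) * qt θ k := by rw [mul_assoc, h3]

lemma Sh.wt_le' {θ : V n} (h : Sh θ) (k : Ix n) : wt k ≤ 2 * ((n + 3) * qt θ k) := by
  have h1 := h.wt_le k
  have h2 : 1 / 2 ≤ √(qt θ k) := by
    refine Real.le_sqrt_of_sq_le ?_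
    have := h.qt_ge k
    norm_num
    linarith
  have h3 := Real.mul_self_sqrt (qt_nonneg θ k)
  have h4 : (0 : ℝ) ≤ n + 3 := by positivity
  nlinarith [mul_nonneg h4 (Real.sqrt_nonneg (qt θ k))]

/-- `wt k / (4π² |k + θ|²)`. -/
def m0 (θ : V n) (k : Ix n) : ℝ := wt k / (4 * Real.pi ^ 2 * qt θ k)

lemma Sh.qt_pos {θ : V n} (h : Sh θ) (k : Ix n) : 0 < qt θ k := by
  have := h.qt_ge k
  linarith

lemma Sh.m0_nonneg {θ : V n} (h : Sh θ) (k : Ix n) : 0 ≤ m0 θ k :=
  div_nonneg (G.wt_nonneg k) (by have := h.qt_pos k; positivity)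

lemma Sh.m0_le {θ : V n} (h : Sh θ) (k : Ix n) : m0 θ k ≤ n + 3 := by
  have h1 := h.qt_pos k
  unfold m0
  rw [div_le_iff₀ (by positivity)]
  have h2 := h.wt_le' k
  have h3 := Real.pi_gt_three
  have h4 : (0 : ℝ) ≤ (n + 3) * qt θ k := by positivity
  nlinarith [mul_le_mul_of_nonneg_left (by nlinarith : (1 : ℝ) ≤ Real.pi ^ 2) h4]

lemma norm_al (θ : V n) (i : Fin n) (k : Ix n) : ‖al θ i k‖ = 2 * Real.pi * |fr θ k i| := by
  unfold al
  rw [norm_mul, norm_mul, norm_mul, Complex.norm_I, Complex.norm_real, Complex.norm_real,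
    Real.norm_of_nonneg Real.pi_pos.le, Complex.norm_ofNat, Real.norm_eq_abs]
  ring

lemma Sh.m0_al_le {θ : V n} (h : Sh θ) (k : Ix n) (i : Fin n) : m0 θ k * ‖al θ i k‖ ≤ n + 3 := by
  have h1 := h.qt_pos k
  rw [norm_al]
  unfold m0
  rw [div_mul_eq_mul_div, div_le_iff₀ (by positivity)]
  have h2 := h.wt_fr_le k i
  have h3 := Real.pi_gt_three
  have h4 : (0 : ℝ) ≤ (n + 3) * qt θ k := by positivity
  calc wt k * (2 * Real.pi * |fr θ k i|) = 2 * Real.pi * (wt k * |fr θ k i|) := by ring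
    _ ≤ 2 * Real.pi * ((n + 3) * qt θ k) := mul_le_mul_of_nonneg_left h2 (by positivity)
    _ ≤ (n + 3) * (4 * Real.pi ^ 2 * qt θ k) := by
        nlinarith [mul_le_mul_of_nonneg_left (by nlinarith : 2 * Real.pi ≤ 4 * Real.pi ^ 2) h4]

lemma Sh.al_le {θ : V n} (h : Sh θ) (k : Ix n) (i : Fin n) : ‖al θ i k‖ ≤ 7 * wt k := by
  rw [norm_al]
  have h1 := h.abs_fr_le k i
  have h2 := Real.pi_lt_d2
  have h3 := G.wt_nonneg k
  have h4 := Real.pi_pos
  calc 2 * Real.pi * |fr θ k i| ≤ 2 * Real.pi * wt k :=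
        mul_le_mul_of_nonneg_left h1 (by positivity)
    _ ≤ 7 * wt k := mul_le_mul_of_nonneg_right (by linarith) h3

lemma Sh.rd_dcs {θ : V n} (h : Sh θ) {c : Ix n → ℂ} (hc : RD c) (i : Fin n) :
    RD (dcs θ i c) := by
  refine G.rdMono hc (C := 7) (e := 1) fun k => ?_
  unfold dcs
  rw [norm_mul, pow_one]
  exact mul_le_mul_of_nonneg_right (h.al_le k i) (norm_nonneg _)

lemma pd_EsS (a1 : RowA1) {θ : V n} {c : Ix n → ℂ} (hc : RD c) (i : Fin n) :
    pd i (Es θ c) = Es θ (dcs θ i c) := by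
  funext x
  rw [(a1 θ c hc).2 i x]
  rfl

/-- The weighted convolution kernel estimate. -/
def ker (θ : V n) (h : Fin n → Fin n → Ix n → ℂ) (b b' : Fin n → Fin N → Fin N → Ix n → ℂ)
    (q : Fin N → Fin N → Ix n → ℂ) (k l : Ix n) (α β : Fin N) : ℂ :=
  (m0 θ k : ℂ) * (∑ i, al θ i k * (∑ j, h i j (k - l) * (al θ j l * ((wt l)⁻¹ : ℝ)) *
      (if α = β then 1 else 0) + b i α β (k - l) * ((wt l)⁻¹ : ℝ)) +
    ∑ j, b' j α β (k - l) * (al θ j l * ((wt l)⁻¹ : ℝ)) + q α β (k - l) * ((wt l)⁻¹ : ℝ))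

/-- Its bound. -/
def kb (h : Fin n → Fin n → Ix n → ℂ) (b b' : Fin n → Fin N → Fin N → Ix n → ℂ)
    (q : Fin N → Fin N → Ix n → ℂ) (α β : Fin N) (k : Ix n) : ℝ :=
  (∑ i, ∑ j, ‖h i j k‖) + (∑ i, ‖b i α β k‖) + (∑ j, ‖b' j α β k‖) + ‖q α β k‖

lemma kb_nonneg (h : Fin n → Fin n → Ix n → ℂ) (b b' : Fin n → Fin N → Fin N → Ix n → ℂ)
    (q : Fin N → Fin N → Ix n → ℂ) (α β : Fin N) (k : Ix n) : 0 ≤ kb h b b' q α β k := by
  unfold kb; positivity

lemma norm_ker_le {θ : V n} (hθ : Sh θ) (h : Fin n → Fin n → Ix n → ℂ)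
    (b b' : Fin n → Fin N → Fin N → Ix n → ℂ) (q : Fin N → Fin N → Ix n → ℂ) (k l : Ix n)
    (α β : Fin N) : ‖ker θ h b b' q k l α β‖ ≤ 7 * (n + 3) * kb h b b' q α β (k - l) := by
  have hw := one_le_wt l
  have hi : ‖(((wt l)⁻¹ : ℝ) : ℂ)‖ ≤ 1 := by
    rw [Complex.norm_real, Real.norm_of_nonneg (by positivity)]
    exact inv_le_one_of_one_le₀ hw
  have haw : ∀ j, ‖al θ j l * (((wt l)⁻¹ : ℝ) : ℂ)‖ ≤ 7 := by
    intro j
    rw [norm_mul, Complex.norm_real, Real.norm_of_nonneg (by positivity)]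
    have h1 := hθ.al_le l j
    rw [← div_eq_mul_inv, div_le_iff₀ (by linarith)]
    exact h1
  have hm := hθ.m0_nonneg k
  have hm1 := hθ.m0_le k
  have e1 : ∀ i, ‖(m0 θ k : ℂ) * (al θ i k * (∑ j, h i j (k - l) *
      (al θ j l * ((wt l)⁻¹ : ℝ)) * (if α = β then 1 else 0) +
        b i α β (k - l) * ((wt l)⁻¹ : ℝ)))‖ ≤
      (n + 3) * (7 * ∑ j, ‖h i j (k - l)‖ + ‖b i α β (k - l)‖) := by
    intro i
    rw [← mul_assoc, norm_mul, norm_mul, Complex.norm_real, Real.norm_of_nonneg hm]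
    refine mul_le_mul (hθ.m0_al_le k i) ?_ (norm_nonneg _) (by positivity)
    refine (norm_add_le _ _).trans (add_le_add ?_ ?_)
    · rw [Finset.mul_sum]
      refine (norm_sum_le _ _).trans (Finset.sum_le_sum fun j _ => ?_)
      rw [norm_mul, norm_mul]
      have h2 : ‖(if α = β then (1 : ℂ) else 0)‖ ≤ 1 := by split_ifs <;> simp
      calc ‖h i j (k - l)‖ * ‖al θ j l * (((wt l)⁻¹ : ℝ) : ℂ)‖ *
          ‖(if α = β then (1 : ℂ) else 0)‖ ≤ ‖h i j (k - l)‖ * 7 * 1 :=
            mul_le_mul (mul_le_mul_of_nonneg_left (haw j) (norm_nonneg _)) h2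
              (norm_nonneg _) (by positivity)
        _ = 7 * ‖h i j (k - l)‖ := by ring
    · rw [norm_mul]
      exact mul_le_of_le_one_right (norm_nonneg _) hi
  have e2 : ∀ j, ‖(m0 θ k : ℂ) * (b' j α β (k - l) * (al θ j l * ((wt l)⁻¹ : ℝ)))‖ ≤
      (n + 3) * (7 * ‖b' j α β (k - l)‖) := by
    intro j
    rw [norm_mul, Complex.norm_real, Real.norm_of_nonneg hm]
    refine mul_le_mul hm1 ?_ (norm_nonneg _) (by positivity)
    rw [norm_mul, mul_comm]
    exact mul_le_mul_of_nonneg_right (haw j) (norm_nonneg _)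
  have e3 : ‖(m0 θ k : ℂ) * (q α β (k - l) * ((wt l)⁻¹ : ℝ))‖ ≤ (n + 3) * ‖q α β (k - l)‖ := by
    rw [norm_mul, Complex.norm_real, Real.norm_of_nonneg hm]
    refine mul_le_mul hm1 ?_ (norm_nonneg _) (by positivity)
    rw [norm_mul]
    exact mul_le_of_le_one_right (norm_nonneg _) hi
  unfold ker
  rw [mul_add, mul_add, Finset.mul_sum, Finset.mul_sum]
  refine (norm_add_le _ _).trans ((add_le_add ((norm_add_le _ _).trans (add_le_add
    ((norm_sum_le _ _).trans (Finset.sum_le_sum fun i _ => e1 i))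
    ((norm_sum_le _ _).trans (Finset.sum_le_sum fun j _ => e2 j)))) e3).trans ?_)
  rw [← Finset.mul_sum, ← Finset.mul_sum, Finset.sum_add_distrib, ← Finset.mul_sum,
    ← Finset.mul_sum]
  unfold kb
  have p1 : 0 ≤ ∑ i, ‖b i α β (k - l)‖ := by positivity
  have p2 : 0 ≤ ‖q α β (k - l)‖ := norm_nonneg _
  have p3 : (0 : ℝ) ≤ n + 3 := by positivity
  nlinarith [mul_nonneg p3 p1, mul_nonneg p3 p2]

/-- The right hand side of the coefficient equation. -/
def Gk (θ : V n) (h : Fin n → Fin n → Ix n → ℂ) (b b' : Fin n → Fin N → Fin N → Ix n → ℂ)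
    (q : Fin N → Fin N → Ix n → ℂ) (u : Fin N → Ix n → ℂ) (α : Fin N) (k : Ix n) : ℂ :=
  ∑ i, al θ i k * (∑ j, cv (h i j) (dcs θ j (u α)) k + ∑ β, cv (b i α β) (u β) k) +
    ∑ j, ∑ β, cv (b' j α β) (dcs θ j (u β)) k + ∑ β, cv (q α β) (u β) k

lemma sum_al_sq (θ : V n) (k : Ix n) :
    ∑ i, al θ i k ^ 2 = -((4 * Real.pi ^ 2 * qt θ k : ℝ) : ℂ) := by
  unfold al qt
  push_cast
  rw [Finset.mul_sum, ← Finset.sum_neg_distrib]
  refine Finset.sum_congr rfl fun i _ => ?_
  linear_combination (4 * (Real.pi : ℂ) ^ 2 * ((fr θ k i : ℝ) : ℂ) ^ 2) * Complex.I_sq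

/-- **The Neumann solution of the elliptic system.** -/
theorem neumannS (a2 : RowA2) (neu : RowNEU) (M : ℕ) {θ : V n} (hθ : Sh θ)
    (h : Fin n → Fin n → Ix n → ℂ) (hh : ∀ i j, RD (h i j))
    (b b' : Fin n → Fin N → Fin N → Ix n → ℂ) (hb : ∀ i α β, RD (b i α β))
    (hb' : ∀ i α β, RD (b' i α β)) (q : Fin N → Fin N → Ix n → ℂ) (hq : ∀ α β, RD (q α β))
    (f : Fin N → Ix n → ℂ) (hf : ∀ α, RD (f α)) (δ : ℝ)
    (hδ : 7 * (n + 3) * (N ^ 2 * ((n + 1) ^ 2 * δ)) ≤ 1 / 2)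
    (hM : ∀ i j, nm M (h i j) ≤ δ) (hbM : ∀ i α β, nm M (b i α β) ≤ δ)
    (hbM' : ∀ i α β, nm M (b' i α β) ≤ δ) (hqM : ∀ α β, nm M (q α β) ≤ δ) :
    ∃ u : Fin N → Ix n → ℂ, (∀ α, RD (u α)) ∧
      (∀ α k, ∑ i, al θ i k * (al θ i k * u α k) + Gk θ h b b' q u α k = f α k) ∧
      ∀ m ≤ M, ∑ α, nm (m + 1) (u α) ≤ 2 * ∑ α, nm m (fun k => (m0 θ k : ℂ) * f α k) := by
  have hkb : ∀ (m : ℕ) α β, Summable fun k => wt k ^ m * kb h b b' q α β k := by
    intro m α β
    have h1 : Summable fun k : Ix n => ∑ i, ∑ j, wt k ^ m * ‖h i j k‖ :=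
      summable_sum fun i _ => summable_sum fun j _ => hh i j m
    have h2 : Summable fun k : Ix n => ∑ i, wt k ^ m * ‖b i α β k‖ :=
      summable_sum fun i _ => hb i α β m
    have h3 : Summable fun k : Ix n => ∑ i, wt k ^ m * ‖b' i α β k‖ :=
      summable_sum fun i _ => hb' i α β m
    refine (((h1.add h2).add h3).add (hq α β m)).congr fun k => ?_
    unfold kb
    simp only [mul_add, Finset.mul_sum]
  have hkbM : ∀ α β, ∑' k, wt k ^ M * kb h b b' q α β k ≤ (n + 1) ^ 2 * δ := by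
    intro α β
    have s1 : Summable fun k : Ix n => ∑ i, ∑ j, wt k ^ M * ‖h i j k‖ :=
      summable_sum fun i _ => summable_sum fun j _ => hh i j M
    have s2 : Summable fun k : Ix n => ∑ i, wt k ^ M * ‖b i α β k‖ :=
      summable_sum fun i _ => hb i α β M
    have s3 : Summable fun k : Ix n => ∑ i, wt k ^ M * ‖b' i α β k‖ :=
      summable_sum fun i _ => hb' i α β M
    have e1 : (fun k => wt k ^ M * kb h b b' q α β k) = fun k =>
        ((∑ i, ∑ j, wt k ^ M * ‖h i j k‖) + (∑ i, wt k ^ M * ‖b i α β k‖) +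
          (∑ i, wt k ^ M * ‖b' i α β k‖)) + wt k ^ M * ‖q α β k‖ := by
      funext k
      unfold kb
      simp only [mul_add, Finset.mul_sum]
    rw [e1, ((s1.add s2).add s3).tsum_add (hq α β M), (s1.add s2).tsum_add s3, s1.tsum_add s2,
      Summable.tsum_finsetSum fun i _ => summable_sum fun j _ => hh i j M,
      Summable.tsum_finsetSum fun i _ => hb i α β M,
      Summable.tsum_finsetSum fun i _ => hb' i α β M]
    have t1 : ∀ i, ∑' k : Ix n, ∑ j, wt k ^ M * ‖h i j k‖ = ∑ j, nm M (h i j) := fun i => by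
      rw [Summable.tsum_finsetSum fun j _ => hh i j M]
      rfl
    simp_rw [t1]
    have t2 : ∑ i, ∑ j, nm M (h i j) ≤ n ^ 2 * δ := by
      calc ∑ i, ∑ m, nm M (h i m) ≤ ∑ _i : Fin n, ∑ _m : Fin n, δ :=
          Finset.sum_le_sum fun i _ => Finset.sum_le_sum fun m _ => hM i m
      _ = n ^ 2 * δ := by simp; ring
    have t3 : ∑ i, ∑' k, wt k ^ M * ‖b i α β k‖ ≤ n * δ := by
      calc ∑ i, ∑' k, wt k ^ M * ‖b i α β k‖ ≤ ∑ _i : Fin n, δ :=
            Finset.sum_le_sum fun i _ => hbM i α β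
      _ = n * δ := by simp
    have t4 : ∑ i, ∑' k, wt k ^ M * ‖b' i α β k‖ ≤ n * δ := by
      calc ∑ i, ∑' k, wt k ^ M * ‖b' i α β k‖ ≤ ∑ _i : Fin n, δ :=
            Finset.sum_le_sum fun i _ => hbM' i α β
      _ = n * δ := by simp
    have t5 : ∑' k, wt k ^ M * ‖q α β k‖ ≤ δ := hqM α β
    calc _ ≤ n ^ 2 * δ + n * δ + n * δ + δ := by
          refine add_le_add (add_le_add (add_le_add t2 t3) t4) t5
      _ = _ := by ring
  set γ : Ix n → ℝ := fun k => 7 * (n + 3) * ∑ α, ∑ β, kb h b b' q α β k with hγ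
  obtain ⟨v, hv, he, hbd⟩ := neu (n := n) (d := N) (ker θ h b b' q) γ
    (fun k α => -((m0 θ k : ℂ) * f α k))
    (fun m => by
      have h1 : Summable fun k : Ix n => ∑ α, ∑ β, wt k ^ m * kb h b b' q α β k :=
        summable_sum fun α _ => summable_sum fun β _ => hkb m α β
      refine (h1.mul_left (7 * (n + 3 : ℝ))).congr fun k => ?_
      rw [hγ]
      simp only [← Finset.mul_sum]
      ring)
    (fun k => by
      have h1 : 0 ≤ ∑ α, ∑ β, kb h b b' q α β k :=
        Finset.sum_nonneg fun α _ => Finset.sum_nonneg fun β _ => kb_nonneg h b b' q α β k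
      rw [hγ]
      positivity)
    (fun k l β => by
      refine (Finset.sum_le_sum fun α _ => norm_ker_le hθ h b b' q k l α β).trans ?_
      rw [← Finset.mul_sum, hγ]
      refine mul_le_mul_of_nonneg_left ?_ (by positivity)
      refine Finset.sum_le_sum fun α _ => ?_
      exact Finset.single_le_sum (f := fun β => kb h b b' q α β (k - l))
        (fun _ _ => kb_nonneg h b b' q α _ (k - l)) (Finset.mem_univ β))
    (fun α => by
      refine G.rdMono (hf α) (C := n + 3) (e := 0) fun k => ?_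
      rw [norm_neg, norm_mul, Complex.norm_real, Real.norm_of_nonneg (hθ.m0_nonneg k),
        pow_zero, mul_one]
      exact mul_le_mul_of_nonneg_right (hθ.m0_le k) (norm_nonneg _)) M
    (by
      have h1 : ∑' k : Ix n, wt k ^ M * γ k =
          7 * (n + 3) * ∑ α, ∑ β, ∑' k, wt k ^ M * kb h b b' q α β k := by
        have e1 : (fun k : Ix n => wt k ^ M * γ k) = fun k => (7 * (n + 3) : ℝ) *
            ∑ α, ∑ β, wt k ^ M * kb h b b' q α β k := by
          funext k
          rw [hγ]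
          simp only [← Finset.mul_sum]
          ring
        rw [e1, tsum_mul_left, Summable.tsum_finsetSum fun α _ =>
          summable_sum fun β _ => hkb M α β]
        congr 1
        exact Finset.sum_congr rfl fun α _ => Summable.tsum_finsetSum fun β _ => hkb M α β
      rw [h1]
      refine le_trans (mul_le_mul_of_nonneg_left ?_ (by positivity)) hδ
      calc ∑ α, ∑ β, ∑' k, wt k ^ M * kb h b b' q α β k ≤
          ∑ _α : Fin N, ∑ _β : Fin N, (n + 1) ^ 2 * δ :=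
            Finset.sum_le_sum fun α _ => Finset.sum_le_sum fun β _ => hkbM α β
        _ = N ^ 2 * ((n + 1) ^ 2 * δ) := by simp; ring)
  have hwp : ∀ k : Ix n, wt k ≠ 0 := fun k => by have := one_le_wt k; positivity
  let u : Fin N → Ix n → ℂ := fun α k => (((wt k)⁻¹ : ℝ) : ℂ) * v k α
  have hun : ∀ α k, ‖u α k‖ = (wt k)⁻¹ * ‖v k α‖ := fun α k => by
    change ‖(((wt k)⁻¹ : ℝ) : ℂ) * v k α‖ = _
    rw [norm_mul, Complex.norm_real, Real.norm_of_nonneg (by have := one_le_wt k; positivity)]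
  have hu : ∀ α, RD (u α) := fun α => rd_mono (hv α) fun k => by
    rw [hun]
    exact mul_le_of_le_one_left (norm_nonneg _) (inv_le_one_of_one_le₀ (one_le_wt k))
  refine ⟨u, hu, fun α k => ?_, fun m hm => ?_⟩
  · have hs : ∀ c d : Ix n → ℂ, RD c → RD d → HasSum (fun l => c (k - l) * d l) (cv c d k) :=
      fun c d hc hd => ((a2 (0 : V n) 0 c d hc hd).2.1 k).hasSum
    have hS : HasSum (fun l => ∑ β, ker θ h b b' q k l α β * v l β)
        ((m0 θ k : ℂ) * Gk θ h b b' q u α k) := by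
      have h1 := (((hasSum_sum fun (i : Fin n) (_ : i ∈ Finset.univ) =>
          ((hasSum_sum fun (j : Fin n) (_ : j ∈ Finset.univ) =>
            hs (h i j) (dcs θ j (u α)) (hh i j) (hθ.rd_dcs (hu α) j)).add
          (hasSum_sum fun (β : Fin N) (_ : β ∈ Finset.univ) =>
            hs (b i α β) (u β) (hb i α β) (hu β))).mul_left (al θ i k)).add
        (hasSum_sum fun (j : Fin n) (_ : j ∈ Finset.univ) =>
          hasSum_sum fun (β : Fin N) (_ : β ∈ Finset.univ) =>
            hs (b' j α β) (dcs θ j (u β)) (hb' j α β) (hθ.rd_dcs (hu β) j))).add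
        (hasSum_sum fun (β : Fin N) (_ : β ∈ Finset.univ) =>
            hs (q α β) (u β) (hq α β) (hu β))).mul_left (m0 θ k : ℂ)
      refine h1.congr_fun ?_ |> fun h => h
      intro l
      have e1 : ∀ β, ker θ h b b' q k l α β * v l β = (m0 θ k : ℂ) *
          (∑ i, al θ i k * (∑ j, (if α = β then h i j (k - l) * dcs θ j (u β) l else 0) +
            b i α β (k - l) * u β l) + ∑ j, b' j α β (k - l) * dcs θ j (u β) l +
            q α β (k - l) * u β l) := by
        intro β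
        unfold ker
        rw [mul_assoc, add_mul, add_mul, Finset.sum_mul, Finset.sum_mul]
        congr 1
        congr 1
        congr 1
        · refine Finset.sum_congr rfl fun i _ => ?_
          rw [mul_assoc, add_mul, Finset.sum_mul]
          congr 1
          congr 1
          · refine Finset.sum_congr rfl fun j _ => ?_
            unfold dcs
            change _ = (if α = β then h i j (k - l) * (al θ j l * ((((wt l)⁻¹ : ℝ) : ℂ) *
              v l β)) else 0)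
            split_ifs
            · ring
            · ring
          · change _ = b i α β (k - l) * ((((wt l)⁻¹ : ℝ) : ℂ) * v l β)
            ring
        · refine Finset.sum_congr rfl fun j _ => ?_
          unfold dcs
          change _ = b' j α β (k - l) * (al θ j l * ((((wt l)⁻¹ : ℝ) : ℂ) * v l β))
          ring
        · change _ = q α β (k - l) * ((((wt l)⁻¹ : ℝ) : ℂ) * v l β)
          ring
      rw [Finset.sum_congr rfl fun β _ => e1 β, ← Finset.mul_sum, Finset.sum_add_distrib,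
        Finset.sum_add_distrib]
      congr 1
      congr 1
      congr 1
      · rw [Finset.sum_comm]
        refine Finset.sum_congr rfl fun i _ => ?_
        rw [← Finset.mul_sum, Finset.sum_add_distrib]
        congr 1
        congr 1
        rw [Finset.sum_comm]
        refine Finset.sum_congr rfl fun j _ => ?_
        rw [Finset.sum_ite_eq Finset.univ α, if_pos (Finset.mem_univ _)]
      · rw [Finset.sum_comm]
    have e0 := he k α
    rw [hS.tsum_eq] at e0
    have e1 : v k α = ((wt k : ℝ) : ℂ) * u α k := by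
      change v k α = ((wt k : ℝ) : ℂ) * ((((wt k)⁻¹ : ℝ) : ℂ) * v k α)
      rw [← mul_assoc, ← Complex.ofReal_mul, mul_inv_cancel₀ (hwp k), Complex.ofReal_one,
        one_mul]
    have hqk : ((4 * Real.pi ^ 2 * qt θ k : ℝ) : ℂ) ≠ 0 := by
      have := hθ.qt_pos k
      exact_mod_cast (by positivity : (4 * Real.pi ^ 2 * qt θ k) ≠ 0)
    have hwk : ((wt k : ℝ) : ℂ) ≠ 0 := by exact_mod_cast hwp k
    have e2 : ((m0 θ k : ℝ) : ℂ) = ((wt k : ℝ) : ℂ) / ((4 * Real.pi ^ 2 * qt θ k : ℝ) : ℂ) := by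
      unfold m0
      rw [Complex.ofReal_div]
    rw [e1, e2] at e0
    have e3 : ((4 * Real.pi ^ 2 * qt θ k : ℝ) : ℂ) * u α k = Gk θ h b b' q u α k - f α k := by
      have e4 : ((wt k : ℝ) : ℂ) * (((4 * Real.pi ^ 2 * qt θ k : ℝ) : ℂ) * u α k) =
          ((wt k : ℝ) : ℂ) * (Gk θ h b b' q u α k - f α k) := by
        have e5 : ((wt k : ℝ) : ℂ) * (((4 * Real.pi ^ 2 * qt θ k : ℝ) : ℂ) * u α k) =
            ((4 * Real.pi ^ 2 * qt θ k : ℝ) : ℂ) * (((wt k : ℝ) : ℂ) * u α k) := by ring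
        rw [e5, e0]
        generalize ((4 * Real.pi ^ 2 * qt θ k : ℝ) : ℂ) = Z at hqk
        field_simp
        ring
      exact mul_left_cancel₀ hwk e4
    have e6 : ∑ i, al θ i k * (al θ i k * u α k) =
        -((4 * Real.pi ^ 2 * qt θ k : ℝ) : ℂ) * u α k := by
      rw [← sum_al_sq, Finset.sum_mul]
      exact Finset.sum_congr rfl fun i _ => by ring
    rw [e6]
    linear_combination (-1 : ℂ) * e3
  · have h1 : ∀ α, nm (m + 1) (u α) = nm m fun k => v k α := by
      intro α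
      unfold nm
      refine tsum_congr fun k => ?_
      rw [hun, pow_succ]
      have := hwp k
      field_simp
    rw [Finset.sum_congr rfl fun α _ => h1 α]
    refine (hbd m hm).trans (mul_le_mul_of_nonneg_left ?_ (by norm_num))
    refine Finset.sum_le_sum fun α _ => ?_
    unfold nm
    simp only [norm_neg]
    exact le_refl _

end Vale.Agent.P088.LR.H27
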