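import Vale.Agent.P088.H27.JTor

/-!
# P088, stage J: the elliptic system on the cube, solved by quasi-periodic series
-/

open MeasureTheory Set Filter
open scoped ContDiff Matrix Topology ComplexConjugate

noncomputable section

namespace Vale.Agent.P088.LR.H27

open Vale.Agent.P088.LR

variable {n N : ℕ}

/-- The operator `∂_i (s_ij ∂_j u + B_i u) + B'_j ∂_j u + Q u`, component `α`. -/
def opS (s : MF n) (B B' : Fin n → V n → Matrix (Fin N) (Fin N) ℂ)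
    (Q : V n → Matrix (Fin N) (Fin N) ℂ) (u : Fin N → V n → ℂ) (α : Fin N) (x : V n) : ℂ :=
  ∑ i, pd i (fun z => ∑ j, (s z i j : ℂ) * pd j (u α) z + ∑ β, B i z α β * u β z) x +
    ∑ j, ∑ β, B' j x α β * pd j (u β) x + ∑ β, Q x α β * u β x

lemma smooth_EsS (a1 : RowA1) (θ : V n) {c : Ix n → ℂ} (hc : RD c) : ContDiff ℝ ∞ (Es θ c) :=
  (a1 θ c hc).1

/-- Products of a periodic and a quasi-periodic series. -/
lemma EsS_mul (a2 : RowA2) (θ : V n) {c d : Ix n → ℂ} (hc : RD c) (hd : RD d) (x : V n) :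
    Es 0 c x * Es θ d x = Es θ (cv c d) x := by
  have h := (a2 (0 : V n) θ c d hc hd).2.2.1 x
  rwa [zero_add] at h

/-- **The elliptic system on the cube.** -/
theorem solveS (a1 : RowA1) (a2 : RowA2) (neu : RowNEU) (M : ℕ) {θ : V n} (hθ : Sh θ)
    {s : MF n} {B B' : Fin n → V n → Matrix (Fin N) (Fin N) ℂ}
    {Q : V n → Matrix (Fin N) (Fin N) ℂ} {ψ : Fin N → V n → ℂ}
    {h : Fin n → Fin n → Ix n → ℂ} (hh : ∀ i j, RD (h i j))
    {b b' : Fin n → Fin N → Fin N → Ix n → ℂ} (hb : ∀ i α β, RD (b i α β))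
    (hb' : ∀ i α β, RD (b' i α β)) {q : Fin N → Fin N → Ix n → ℂ} (hq : ∀ α β, RD (q α β))
    {f : Fin N → Ix n → ℂ} (hf : ∀ α, RD (f α))
    (rs : ∀ i j, ∀ x ∈ cube n, ent s i j x = Es 0 (h i j) x)
    (rb : ∀ i α β, ∀ x ∈ cube n, B i x α β = Es 0 (b i α β) x)
    (rb' : ∀ i α β, ∀ x ∈ cube n, B' i x α β = Es 0 (b' i α β) x)
    (rq : ∀ α β, ∀ x ∈ cube n, Q x α β = Es 0 (q α β) x)
    (rf : ∀ α, ∀ x ∈ cube n, ψ α x = Es θ (f α) x) {δ : ℝ}
    (hδ : 7 * (n + 3) * (N ^ 2 * ((n + 1) ^ 2 * δ)) ≤ 1 / 2)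
    (hM : ∀ i j, nm M (h i j) ≤ δ) (hbM : ∀ i α β, nm M (b i α β) ≤ δ)
    (hbM' : ∀ i α β, nm M (b' i α β) ≤ δ) (hqM : ∀ α β, nm M (q α β) ≤ δ) :
    ∃ u : Fin N → Ix n → ℂ, (∀ α, RD (u α)) ∧
      (∀ α, ∀ x ∈ cube n, opS s B B' Q (fun β => Es θ (u β)) α x = ψ α x) ∧
      ∀ m ≤ M, ∑ α, nm (m + 1) (u α) ≤ 2 * ∑ α, nm m (fun k => (m0 θ k : ℂ) * f α k) := by
  obtain ⟨u, hu, he, hbd⟩ := neumannS a2 neu M hθ h hh b b' hb hb' q hq f hf δ hδ hM hbM hbM' hqM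
  refine ⟨u, hu, ?_, hbd⟩
  intro α x hx
  have hd : ∀ j β, RD (dcs θ j (u β)) := fun j β => hθ.rd_dcs (hu β) j
  have hcv1 : ∀ i j, RD (cv (h i j) (dcs θ j (u α))) := fun i j =>
    (a2 (0 : V n) 0 _ _ (hh i j) (hd j α)).1
  have hcv2 : ∀ i β, RD (cv (b i α β) (u β)) := fun i β =>
    (a2 (0 : V n) 0 _ _ (hb i α β) (hu β)).1
  have hcv3 : ∀ j β, RD (cv (b' j α β) (dcs θ j (u β))) := fun j β =>
    (a2 (0 : V n) 0 _ _ (hb' j α β) (hd j β)).1
  have hcv4 : ∀ β, RD (cv (q α β) (u β)) := fun β => (a2 (0 : V n) 0 _ _ (hq α β) (hu β)).1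
  -- the flux
  set P : Fin n → Ix n → ℂ := fun i k => (∑ j, cv (h i j) (dcs θ j (u α)) k +
    ∑ β, cv (b i α β) (u β) k) + dcs θ i (u α) k with hP
  have hPr : ∀ i, RD (P i) := fun i =>
    rd_add (rd_add (G.rdSum _ (hcv1 i)) (G.rdSum _ (hcv2 i))) (hd i α)
  have hfl : ∀ i, ∀ z ∈ cube n, ∑ j, (s z i j : ℂ) * pd j (Es θ (u α)) z +
      ∑ β, B i z α β * Es θ (u β) z = Es θ (P i) z := by
    intro i z hz
    rw [hP, G.Es_add (rd_add (G.rdSum _ (hcv1 i)) (G.rdSum _ (hcv2 i))) (hd i α),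
      G.Es_add (G.rdSum _ (hcv1 i)) (G.rdSum _ (hcv2 i)), G.Es_sum _ (hcv1 i),
      G.Es_sum _ (hcv2 i)]
    have e1 : ∑ j, (s z i j : ℂ) * pd j (Es θ (u α)) z =
        ∑ j, Es θ (cv (h i j) (dcs θ j (u α))) z + Es θ (dcs θ i (u α)) z := by
      have e2 : Es θ (dcs θ i (u α)) z = ∑ j, (((1 : Matrix (Fin n) (Fin n) ℝ) i j : ℝ) : ℂ) *
          pd j (Es θ (u α)) z := by
        rw [Finset.sum_eq_single i]
        · rw [pd_EsS a1 (hu α)]
          simp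
        · intro j _ hj
          simp [hj.symm]
        · intro h
          exact absurd (Finset.mem_univ i) h
      rw [e2, ← Finset.sum_add_distrib]
      refine Finset.sum_congr rfl fun j _ => ?_
      rw [← EsS_mul a2 θ (hh i j) (hd j α), ← rs i j z hz, pd_EsS a1 (hu α)]
      unfold ent
      push_cast
      ring
    have e3 : ∑ β, B i z α β * Es θ (u β) z = ∑ β, Es θ (cv (b i α β) (u β)) z := by
      refine Finset.sum_congr rfl fun β _ => ?_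
      rw [← EsS_mul a2 θ (hb i α β) (hu β), ← rb i α β z hz]
    rw [e1, e3]
    ring
  have key : ∀ i, pd i (fun z => ∑ j, (s z i j : ℂ) * pd j (Es θ (u α)) z +
      ∑ β, B i z α β * Es θ (u β) z) x = Es θ (dcs θ i (P i)) x := by
    intro i
    have h2 : (fun z => ∑ j, (s z i j : ℂ) * pd j (Es θ (u α)) z +
        ∑ β, B i z α β * Es θ (u β) z) =ᶠ[𝓝 x] Es θ (P i) := by
      filter_upwards [(isOpen_cube n).mem_nhds hx] with z hz
      exact hfl i z hz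
    rw [pd_congr h2, pd_EsS a1 (hPr i)]
  have k3 : ∑ j, ∑ β, B' j x α β * pd j (Es θ (u β)) x =
      ∑ j, ∑ β, Es θ (cv (b' j α β) (dcs θ j (u β))) x := by
    refine Finset.sum_congr rfl fun j _ => Finset.sum_congr rfl fun β _ => ?_
    rw [← EsS_mul a2 θ (hb' j α β) (hd j β), ← rb' j α β x hx, pd_EsS a1 (hu β)]
  have k4 : ∑ β, Q x α β * Es θ (u β) x = ∑ β, Es θ (cv (q α β) (u β)) x := by
    refine Finset.sum_congr rfl fun β _ => ?_
    rw [← EsS_mul a2 θ (hq α β) (hu β), ← rq α β x hx]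
  unfold opS
  rw [Finset.sum_congr rfl fun i _ => key i, k3, k4]
  have r1 : RD fun k => ∑ i, dcs θ i (P i) k := G.rdSum _ fun i => hθ.rd_dcs (hPr i) i
  have r2 : RD fun k => ∑ j, ∑ β, cv (b' j α β) (dcs θ j (u β)) k :=
    G.rdSum _ fun j => G.rdSum _ fun β => hcv3 j β
  have r3 : RD fun k => ∑ β, cv (q α β) (u β) k := G.rdSum _ hcv4
  have e1 : ∑ i, Es θ (dcs θ i (P i)) x = Es θ (fun k => ∑ i, dcs θ i (P i) k) x :=
    (G.Es_sum _ (fun i => hθ.rd_dcs (hPr i) i) θ x).symm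
  have e2 : ∑ j, ∑ β, Es θ (cv (b' j α β) (dcs θ j (u β))) x =
      Es θ (fun k => ∑ j, ∑ β, cv (b' j α β) (dcs θ j (u β)) k) x := by
    rw [G.Es_sum _ (fun j => G.rdSum _ fun β => hcv3 j β)]
    exact Finset.sum_congr rfl fun j _ => (G.Es_sum _ (hcv3 j) θ x).symm
  have e3 : ∑ β, Es θ (cv (q α β) (u β)) x = Es θ (fun k => ∑ β, cv (q α β) (u β) k) x :=
    (G.Es_sum _ hcv4 θ x).symm
  rw [e1, e2, e3, ← G.Es_add r1 r2, ← G.Es_add (rd_add r1 r2) r3, rf α x hx]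
  congr 1
  funext k
  have e4 : ∑ i, dcs θ i (P i) k = ∑ i, al θ i k * (al θ i k * u α k) +
      ∑ i, al θ i k * (∑ j, cv (h i j) (dcs θ j (u α)) k + ∑ β, cv (b i α β) (u β) k) := by
    rw [← Finset.sum_add_distrib]
    refine Finset.sum_congr rfl fun i _ => ?_
    change al θ i k * ((∑ j, cv (h i j) (dcs θ j (u α)) k +
      ∑ β, cv (b i α β) (u β) k) + al θ i k * u α k) = _
    ring
  have e5 := he α k
  unfold Gk at e5
  linear_combination e4 + e5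

/-- Smooth functions supported in the core, expanded on the cube. -/
lemma rep_core (a3 : RowA3) {f : V n → ℂ} (hf : ContDiff ℝ ∞ f) (h0 : ∀ x ∉ core n, f x = 0) :
    RD (cf 0 f) ∧ ∀ x ∈ cube n, f x = Es 0 (cf 0 f) x := by
  obtain ⟨C, -, h⟩ := a3 n 0
  have hsup : tsupport f ⊆ core n := by
    refine closure_minimal (fun x hx => ?_) (compact_core n).isClosed
    by_contra hx'
    exact hx (h0 x hx')
  have h4 := h f hf (hsup.trans (core_sub_cube n)) 0 (fun j => by simp)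
  exact ⟨h4.1, h4.2.1⟩

lemma rep_cube (a3 : RowA3) {f : V n → ℂ} (hf : ContDiff ℝ ∞ f) (h0 : tsupport f ⊆ cube n)
    {θ : V n} (hθ : Sh θ) : RD (cf θ f) ∧ ∀ x ∈ cube n, f x = Es θ (cf θ f) x := by
  obtain ⟨C, -, h⟩ := a3 n 0
  have h4 := h f hf h0 θ (fun j => (hθ.abs_le j).trans (by norm_num))
  exact ⟨h4.1, h4.2.1⟩

end Vale.Agent.P088.LR.H27
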