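import Vale.Agent.P088.H393.CGM1
import Vale.Agent.P088.H833.CgoQ
import Vale.Agent.P088.H27.JArr

/-!
# P088, stage JB, row K_CG (1): complex exponential solutions of systems with small first order
terms, the torus solver
-/

open MeasureTheory Set Filter
open scoped ContDiff Matrix Topology ComplexConjugate

noncomputable section

namespace Vale.Agent.P088.LR.H27

open Vale.Agent.P088.LR Vale.Agent.P088.H833

variable {n N : ℕ}

lemma sh_th0 (i₀ : Fin n) : Sh (CF.th0 i₀ : V n) := ⟨i₀, Or.inl rfl⟩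

/-- The symbol dominates the first derivatives, uniformly in `M`. -/
theorem syq_ge (i₀ : Fin n) (τ : V n) (hτ : ∑ j, τ j ^ 2 ≤ 1) {M : ℝ} (hM : 1 ≤ M) (k : Ix n) :
    2 * Real.pi * √(qt (CF.th0 i₀) k) ≤ ‖syq i₀ τ M k‖ := by
  set K := √(qt (CF.th0 i₀) k) with hK
  have hK0 : 0 ≤ K := Real.sqrt_nonneg _
  have hKK : K * K = ∑ j, fr (CF.th0 i₀) k j ^ 2 := Real.mul_self_sqrt (qt_nonneg _ k)
  have hK2 : 1 / 2 ≤ K := by
    refine Real.le_sqrt_of_sq_le ?_
    have := (sh_th0 i₀).qt_ge k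
    norm_num
    linarith
  set c := ∑ j, fr (CF.th0 i₀) k j * τ j with hc
  have hcK : |c| ≤ K := by
    refine Real.abs_le_sqrt ?_
    have h1 := Finset.sum_mul_sq_le_sq_mul_sq Finset.univ (fun j => fr (CF.th0 i₀) k j) τ
    have h2 : 0 ≤ ∑ j, fr (CF.th0 i₀) k j ^ 2 := qt_nonneg _ k
    have h3 : qt (CF.th0 i₀) k = ∑ j, fr (CF.th0 i₀) k j ^ 2 := rfl
    rw [h3]
    refine h1.trans ?_
    nlinarith
  have h3 := Real.pi_gt_three
  have hb := syq_bound i₀ τ (by linarith : (0 : ℝ) < M) k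
  rcases le_or_gt (2 * M) (Real.pi * K) with h | h
  · have h1 := Complex.abs_re_le_norm (syq i₀ τ M k)
    rw [syq_eq] at h1 ⊢
    simp only [Complex.add_re, Complex.ofReal_re, Complex.mul_re, Complex.I_re, Complex.ofReal_im,
      Complex.I_im, mul_zero, zero_mul, sub_zero, add_zero] at h1
    refine le_trans ?_ h1
    rw [abs_neg]
    refine le_trans ?_ (le_abs_self _)
    rw [← hKK, ← hc]
    have h4 := (abs_le.1 hcK).1
    have h5 : 4 * Real.pi * M * c ≥ -(4 * Real.pi * M * K) := by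
      have : 0 ≤ 4 * Real.pi * M := by positivity
      nlinarith
    have h6 : Real.pi * K * (Real.pi * K - M) ≥ Real.pi * K * 1 := by
      refine mul_le_mul_of_nonneg_left ?_ (by positivity)
      linarith
    nlinarith
  · refine le_trans ?_ hb
    nlinarith

/-- The multipliers. -/
def wo (θ : V n) (M : ℝ) : Option (Fin n) → Ix n → ℂ
  | none, _ => (M : ℂ)
  | some j, k => al θ j k

lemma wo_le (i₀ : Fin n) (τ : V n) (hτ : ∑ j, τ j ^ 2 ≤ 1) {M : ℝ} (hM : 1 ≤ M)
    (o : Option (Fin n)) (k : Ix n) : ‖wo (CF.th0 i₀) M o k‖ ≤ ‖syq i₀ τ M k‖ := by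
  have h3 := Real.pi_gt_three
  cases o with
  | none =>
    have h1 := syq_bound i₀ τ (by linarith : (0 : ℝ) < M) k
    change ‖(M : ℂ)‖ ≤ _
    rw [Complex.norm_real, Real.norm_of_nonneg (by linarith)]
    nlinarith
  | some j =>
    change ‖al (CF.th0 i₀) j k‖ ≤ _
    rw [norm_al]
    refine le_trans ?_ (syq_ge i₀ τ hτ hM k)
    exact mul_le_mul_of_nonneg_left (abs_fr_le_sqrt _ k j) (by positivity)

lemma nm_le_mul {c d : Ix n → ℂ} {C : ℝ} (hc : RD c) (hd : RD d) (h : ∀ k, ‖d k‖ ≤ C * ‖c k‖)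
    (m : ℕ) : nm m d ≤ C * nm m c := by
  unfold nm
  rw [← tsum_mul_left]
  refine Summable.tsum_le_tsum (fun k => ?_) (hd m) ((hc m).mul_left _)
  calc wt k ^ m * ‖d k‖ ≤ wt k ^ m * (C * ‖c k‖) :=
        mul_le_mul_of_nonneg_left (h k) (pow_nonneg (G.wt_nonneg k) _)
    _ = C * (wt k ^ m * ‖c k‖) := by ring

/-- **The system on the torus** (one column). -/
theorem solveK (a2 : RowA2) (neu : RowNEU) (i₀ : Fin n) (τ : V n) (hτ : ∑ j, τ j ^ 2 ≤ 1)
    (m₀ : ℕ) {M : ℝ} (hM : 1 ≤ M) (arr : Option (Fin n) → Fin N → Fin N → Ix n → ℂ)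
    (harr : ∀ o α γ, RD (arr o α γ)) (g : Fin N → Ix n → ℂ) (hg : ∀ α, RD (g α))
    (hs : (N * (n + 1) : ℝ) * ∑ α, ∑ γ, ∑ o, nm m₀ (arr o α γ) ≤ 1 / 2) :
    ∃ c : Fin N → Ix n → ℂ, (∀ α, RD (c α)) ∧
      (∀ α k, syq i₀ τ M k * c α k + (M * g α k + ∑ γ, (cv (arr none α γ) (fun l => M * c γ l) k +
        ∑ j, cv (arr (some j) α γ) (dcs (CF.th0 i₀) j (c γ)) k)) = 0) ∧
      ∑ α, nm m₀ (c α) ≤ 2 * (n + 1) * ∑ α, nm m₀ (g α) := by
  classical
  set θ : V n := CF.th0 i₀ with hθ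
  have hM0 : 0 < M := by linarith
  have hMc : (M : ℂ) ≠ 0 := by exact_mod_cast hM0.ne'
  have hS : ∀ k, syq i₀ τ M k ≠ 0 := fun k h => by
    have := syq_bound i₀ τ hM0 k
    rw [h, norm_zero] at this
    have := Real.pi_pos
    nlinarith
  have hq : ∀ o k, ‖wo θ M o k / syq i₀ τ M k‖ ≤ 1 := fun o k => by
    rw [norm_div, div_le_one (norm_pos_iff.2 (hS k))]
    exact wo_le i₀ τ hτ hM o k
  have hsR : ∀ q : Fin N × Option (Fin n),
      RD fun k => -(wo θ M q.2 k / syq i₀ τ M k) * (M * g q.1 k) := fun q => by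
    refine G.rdMono (hg q.1) (C := M) (e := 0) fun k => ?_
    rw [norm_mul, norm_neg, norm_mul, Complex.norm_real, Real.norm_of_nonneg hM0.le, pow_zero,
      mul_one]
    exact mul_le_of_le_one_left (by positivity) (hq _ k)
  obtain ⟨r, hr, he, hb⟩ := CF.H393.neu_gen (n := n) a2 neu
    (ι := Fin N × Option (Fin n)) (τ := Fin N × Fin N × Option (Fin n))
    (fun q t k => if q.1 = t.1 then -(wo θ M q.2 k / syq i₀ τ M k) else 0)
    (fun t => arr t.2.2 t.1 t.2.1) (fun t => t.2) (fun _ => 1)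
    (fun q t k => by
      split_ifs
      · rw [norm_neg]
        exact hq _ k
      · rw [norm_zero]
        exact zero_le_one) (fun _ => zero_le_one) (fun t => harr _ _ _) m₀
    (by
      simp only [Fintype.card_prod, Fintype.card_fin, Fintype.card_option, one_mul,
        Fintype.sum_prod_type]
      push_cast
      exact hs)
    (fun q k => -(wo θ M q.2 k / syq i₀ τ M k) * (M * g q.1 k)) hsR
  set Br : Fin N → Ix n → ℂ := fun α k => M * g α k +
    ∑ γ, ∑ o, cv (arr o α γ) (r (γ, o)) k with hBr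
  have hrB : ∀ α o k, r (α, o) k = -(wo θ M o k / syq i₀ τ M k) * Br α k := by
    intro α o k
    rw [he (α, o) k, Fintype.sum_prod_type, Finset.sum_eq_single α]
    · rw [hBr]
      simp only [if_true, Fintype.sum_prod_type]
      rw [mul_add, Finset.mul_sum]
      congr 1
      refine Finset.sum_congr rfl fun γ _ => ?_
      rw [Finset.mul_sum]
    · intro b _ hb
      refine Finset.sum_eq_zero fun p _ => ?_
      rw [if_neg (Ne.symm hb), zero_mul]
    · intro h
      exact absurd (Finset.mem_univ α) h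
  refine ⟨fun α k => (M : ℂ)⁻¹ * r (α, none) k, fun α => ?_, ?_, ?_⟩
  · exact rd_half (hr (α, none)) _
  · have hc : ∀ α k, (M : ℂ)⁻¹ * r (α, none) k = -(1 / syq i₀ τ M k) * Br α k := by
      intro α k
      rw [hrB α none k]
      change (M : ℂ)⁻¹ * (-((M : ℂ) / syq i₀ τ M k) * Br α k) = _
      have := hS k
      field_simp
    have e1 : ∀ γ, (fun l => (M : ℂ) * ((M : ℂ)⁻¹ * r (γ, none) l)) = r (γ, none) := by
      intro γ
      funext l
      rw [← mul_assoc, mul_inv_cancel₀ hMc, one_mul]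
    have e2 : ∀ γ j, dcs θ j (fun l => (M : ℂ)⁻¹ * r (γ, none) l) = r (γ, some j) := by
      intro γ j
      funext l
      change al θ j l * ((M : ℂ)⁻¹ * r (γ, none) l) = _
      rw [hc, hrB γ (some j) l]
      change _ = -(al θ j l / syq i₀ τ M l) * Br γ l
      ring
    intro α k
    have e3 : ∀ γ, cv (arr none α γ) (fun l => (M : ℂ) * ((M : ℂ)⁻¹ * r (γ, none) l)) k +
        ∑ j, cv (arr (some j) α γ) (dcs θ j (fun l => (M : ℂ)⁻¹ * r (γ, none) l)) k =
        ∑ o, cv (arr o α γ) (r (γ, o)) k := by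
      intro γ
      rw [Fintype.sum_option, e1]
      congr 1
      exact Finset.sum_congr rfl fun j _ => by rw [e2]
    rw [Finset.sum_congr rfl fun γ _ => e3 γ]
    change syq i₀ τ M k * ((M : ℂ)⁻¹ * r (α, none) k) + _ = 0
    rw [hc α k]
    have e4 : (M : ℂ) * g α k + ∑ γ, ∑ o, cv (arr o α γ) (r (γ, o)) k = Br α k := rfl
    rw [e4]
    have := hS k
    field_simp
    ring
  · change ∑ α, nm m₀ (fun k => (M : ℂ)⁻¹ * r (α, none) k) ≤ _
    have b1 : ∀ α, nm m₀ (fun k => (M : ℂ)⁻¹ * r (α, none) k) = M⁻¹ * nm m₀ (r (α, none)) := by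
      intro α
      rw [nm_smul, norm_inv, Complex.norm_real, Real.norm_of_nonneg hM0.le]
    have b2 : ∑ α, nm m₀ (r (α, none)) ≤ ∑ q, nm m₀ (r q) := by
      rw [Fintype.sum_prod_type]
      refine Finset.sum_le_sum fun α _ => ?_
      exact Finset.single_le_sum (f := fun o => nm m₀ (r (α, o)))
        (fun o _ => nm_nonneg' m₀ _) (Finset.mem_univ none)
    have b3 : ∑ q : Fin N × Option (Fin n),
        nm m₀ (fun k => -(wo θ M q.2 k / syq i₀ τ M k) * (M * g q.1 k)) ≤
        (n + 1) * (M * ∑ α, nm m₀ (g α)) := by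
      rw [Fintype.sum_prod_type]
      calc ∑ α, ∑ o : Option (Fin n), nm m₀ (fun k => -(wo θ M o k / syq i₀ τ M k) *
            (M * g α k)) ≤ ∑ α, ∑ _o : Option (Fin n), M * nm m₀ (g α) := by
            refine Finset.sum_le_sum fun α _ => Finset.sum_le_sum fun o _ => ?_
            refine nm_le_mul (hg α) (hsR (α, o)) (fun k => ?_) m₀
            rw [norm_mul, norm_neg, norm_mul, Complex.norm_real, Real.norm_of_nonneg hM0.le]
            exact mul_le_of_le_one_left (by positivity) (hq _ k)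
        _ = (n + 1) * (M * ∑ α, nm m₀ (g α)) := by
            simp only [Finset.sum_const, Finset.card_univ, Fintype.card_option, Fintype.card_fin,
              nsmul_eq_mul]
            rw [← Finset.mul_sum, ← Finset.mul_sum]
            push_cast
            ring
    rw [Finset.sum_congr rfl fun α _ => b1 α, ← Finset.mul_sum]
    rw [inv_mul_le_iff₀ hM0]
    calc ∑ α, nm m₀ (r (α, none)) ≤ ∑ q, nm m₀ (r q) := b2
      _ ≤ 2 * ((n + 1) * (M * ∑ α, nm m₀ (g α))) := hb.trans (by linarith)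
      _ = _ := by ring

end Vale.Agent.P088.LR.H27
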