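import Vale.Agent.P088.H27.KCG1
import Vale.Agent.P088.H27.JTorS
import Vale.Agent.P088.H535.USmk

/-!
# P088, stage JB, row K_CG (2): the system on the cube, bounds
-/

open MeasureTheory Set Filter
open scoped ContDiff Matrix Topology ComplexConjugate

noncomputable section

namespace Vale.Agent.P088.LR.H27

open Vale.Agent.P088.LR Vale.Agent.P088.LR.U Vale.Agent.P088.LR.H158 Vale.Agent.P088.H833

variable {n N : ℕ}

/-- The zero order coefficient divided by `M`. -/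
def Gz (i₀ : Fin n) (τ : V n) (M : ℝ) (Λ : Fin n → MC n N) (Q : MC n N) (α γ : Fin N) (x : V n) : ℂ :=
  ∑ j, zq i₀ τ j * Λ j x α γ + ((M : ℂ))⁻¹ * Q x α γ

/-- The full operator on the coefficients. -/
lemma Es_syq (a1 : RowA1) (i₀ : Fin n) (τ : V n) (M : ℝ) {c : Ix n → ℂ} (hc : RD c) (x : V n) :
    RD (fun k => syq i₀ τ M k * c k) ∧
    (∑ i, pd i (pd i (Es (CF.th0 i₀) c)) x) + 2 * M * ∑ j, zq i₀ τ j * pd j (Es (CF.th0 i₀) c) x =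
      Es (CF.th0 i₀) (fun k => syq i₀ τ M k * c k) x := by
  set θ : V n := CF.th0 i₀ with hθ
  have hSh : Sh θ := sh_th0 i₀
  have rd1 : ∀ i, RD (dcs θ i c) := fun i => hSh.rd_dcs hc i
  have rd2 : ∀ i, RD (dcs θ i (dcs θ i c)) := fun i => hSh.rd_dcs (rd1 i) i
  have rd3 : ∀ i, RD (fun k => dcs θ i (dcs θ i c) k + (2 * M * zq i₀ τ i) * dcs θ i c k) :=
    fun i => rd_add' (rd2 i) (rd_smul' (rd1 i) _)
  have h2 : (fun k => ∑ i, (dcs θ i (dcs θ i c) k + (2 * M * zq i₀ τ i) * dcs θ i c k)) =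
      fun k => syq i₀ τ M k * c k := by
    funext k
    unfold syq dcs al
    rw [Finset.sum_mul]
    refine Finset.sum_congr rfl fun i _ => ?_
    ring
  refine ⟨h2 ▸ rd_sum' Finset.univ rd3, ?_⟩
  rw [← h2, Es_sum' Finset.univ θ rd3, Finset.mul_sum, ← Finset.sum_add_distrib]
  refine Finset.sum_congr rfl fun i _ => ?_
  rw [Es_add' θ (rd2 i) (rd_smul' (rd1 i) _), Es_smul', pd_EsS a1 hc i, pd_EsS a1 (rd1 i) i]
  ring

/-- **The system on the cube.** -/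
theorem cubeK (a1 : RowA1) (a2 : RowA2) (a3 : RowA3) (neu : RowNEU) (i₀ : Fin n) (τ : V n)
    (hτ : ∑ j, τ j ^ 2 ≤ 1) (m₀ : ℕ) {M : ℝ} (hM : 1 ≤ M) (Λ : Fin n → MC n N) (Q : MC n N)
    (hΛ : ∀ j, SmC (Λ j)) (hQ : SmC Q) (tG : ∀ α γ, tsupport (Gz i₀ τ M Λ Q α γ) ⊆ cube n)
    (tΛ : ∀ j α γ, tsupport (fun x => Λ j x α γ) ⊆ cube n)
    (hs : (N * (n + 1) : ℝ) * ∑ α, ∑ γ, (nm m₀ (cf 0 (Gz i₀ τ M Λ Q α γ)) +
      ∑ j, nm m₀ (cf 0 (fun x => Λ j x α γ))) ≤ 1 / 2) :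
    ∃ c : Fin N → Fin N → Ix n → ℂ, (∀ α β, RD (c α β)) ∧
      (∀ α β, ∀ x ∈ cube n, ((∑ i, pd i (pd i (Es (CF.th0 i₀) (c α β))) x) +
        2 * M * ∑ j, zq i₀ τ j * pd j (Es (CF.th0 i₀) (c α β)) x) + (M * Gz i₀ τ M Λ Q α β x +
        ∑ γ, (Gz i₀ τ M Λ Q α γ x * (M * Es (CF.th0 i₀) (c γ β) x) +
          ∑ j, Λ j x α γ * pd j (Es (CF.th0 i₀) (c γ β)) x)) = 0) ∧
      ∀ β, ∑ α, nm m₀ (c α β) ≤
        2 * (n + 1) * ∑ α, nm m₀ (cf (CF.th0 i₀) (Gz i₀ τ M Λ Q α β)) := by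
  set θ : V n := CF.th0 i₀ with hθ
  have hSh : Sh θ := sh_th0 i₀
  have sG : ∀ α γ, ContDiff ℝ ∞ (Gz i₀ τ M Λ Q α γ) := fun α γ =>
    (ContDiff.sum fun j _ => contDiff_const.mul (hΛ j α γ)).add (contDiff_const.mul (hQ α γ))
  have rG : ∀ α γ, RD (cf 0 (Gz i₀ τ M Λ Q α γ)) ∧
      ∀ x ∈ cube n, Gz i₀ τ M Λ Q α γ x = Es 0 (cf 0 (Gz i₀ τ M Λ Q α γ)) x := fun α γ => by
    obtain ⟨C, -, h⟩ := a3 n 0
    have h4 := h _ (sG α γ) (tG α γ) 0 (fun j => by simp)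
    exact ⟨h4.1, h4.2.1⟩
  have rL : ∀ j α γ, RD (cf 0 (fun x => Λ j x α γ)) ∧
      ∀ x ∈ cube n, Λ j x α γ = Es 0 (cf 0 (fun x => Λ j x α γ)) x := fun j α γ => by
    obtain ⟨C, -, h⟩ := a3 n 0
    have h4 := h _ (hΛ j α γ) (tΛ j α γ) 0 (fun j => by simp)
    exact ⟨h4.1, h4.2.1⟩
  have rθ : ∀ α γ, RD (cf θ (Gz i₀ τ M Λ Q α γ)) ∧
      ∀ x ∈ cube n, Gz i₀ τ M Λ Q α γ x = Es θ (cf θ (Gz i₀ τ M Λ Q α γ)) x := fun α γ =>
    rep_cube a3 (sG α γ) (tG α γ) hSh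
  set arr : Option (Fin n) → Fin N → Fin N → Ix n → ℂ := fun o α γ =>
    match o with
    | none => cf 0 (Gz i₀ τ M Λ Q α γ)
    | some j => cf 0 (fun x => Λ j x α γ) with harr
  have hsol : ∀ β : Fin N, ∃ c : Fin N → Ix n → ℂ, (∀ α, RD (c α)) ∧
      (∀ α k, syq i₀ τ M k * c α k + (M * cf θ (Gz i₀ τ M Λ Q α β) k +
        ∑ γ, (cv (arr none α γ) (fun l => M * c γ l) k +
        ∑ j, cv (arr (some j) α γ) (dcs θ j (c γ)) k)) = 0) ∧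
      ∑ α, nm m₀ (c α) ≤ 2 * (n + 1) * ∑ α, nm m₀ (cf θ (Gz i₀ τ M Λ Q α β)) := fun β =>
    solveK a2 neu i₀ τ hτ m₀ hM arr
      (fun o α γ => by cases o with | none => exact (rG α γ).1 | some j => exact (rL j α γ).1)
      (fun α => cf θ (Gz i₀ τ M Λ Q α β)) (fun α => (rθ α β).1) (by
        simp only [Fintype.sum_option]
        exact hs)
  choose c hc he hb using hsol
  refine ⟨fun α β => c β α, fun α β => hc β α, fun α β x hx => ?_, fun β => hb β⟩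
  obtain ⟨rS, eS⟩ := Es_syq a1 i₀ τ M (hc β α) x
  have hd : ∀ γ j, RD (dcs θ j (c β γ)) := fun γ j => hSh.rd_dcs (hc β γ) j
  have hMc : ∀ γ, RD (fun l => (M : ℂ) * c β γ l) := fun γ => rd_smul' (hc β γ) _
  have r1 : ∀ γ, RD (cv (arr none α γ) (fun l => M * c β γ l)) := fun γ =>
    (a2 (0 : V n) 0 _ _ (rG α γ).1 (hMc γ)).1
  have r2 : ∀ γ j, RD (cv (arr (some j) α γ) (dcs θ j (c β γ))) := fun γ j =>
    (a2 (0 : V n) 0 _ _ (rL j α γ).1 (hd γ j)).1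
  have r3 : ∀ γ, RD (fun k => ∑ j, cv (arr (some j) α γ) (dcs θ j (c β γ)) k) := fun γ =>
    rd_sum' Finset.univ (r2 γ)
  have r4 : ∀ γ, RD (fun k => cv (arr none α γ) (fun l => M * c β γ l) k +
      ∑ j, cv (arr (some j) α γ) (dcs θ j (c β γ)) k) := fun γ => rd_add' (r1 γ) (r3 γ)
  have r5 : RD (fun k => ∑ γ, (cv (arr none α γ) (fun l => M * c β γ l) k +
      ∑ j, cv (arr (some j) α γ) (dcs θ j (c β γ)) k)) := rd_sum' Finset.univ r4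
  have r6 : RD (fun k => (M : ℂ) * cf θ (Gz i₀ τ M Λ Q α β) k) := rd_smul' (rθ α β).1 _
  have h0 : Es θ (fun k => syq i₀ τ M k * c β α k + (M * cf θ (Gz i₀ τ M Λ Q α β) k +
      ∑ γ, (cv (arr none α γ) (fun l => M * c β γ l) k +
        ∑ j, cv (arr (some j) α γ) (dcs θ j (c β γ)) k))) x = 0 := by
    have e0 : (fun k => syq i₀ τ M k * c β α k + (M * cf θ (Gz i₀ τ M Λ Q α β) k +
      ∑ γ, (cv (arr none α γ) (fun l => M * c β γ l) k +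
        ∑ j, cv (arr (some j) α γ) (dcs θ j (c β γ)) k))) = fun _ => 0 := funext (he β α)
    rw [e0]
    unfold Es
    simp
  rw [Es_add' θ rS (rd_add' r6 r5), Es_add' θ r6 r5, Es_smul', Es_sum' Finset.univ θ r4] at h0
  change ((∑ i, pd i (pd i (Es θ (c β α))) x) +
        2 * M * ∑ j, zq i₀ τ j * pd j (Es θ (c β α)) x) + (M * Gz i₀ τ M Λ Q α β x +
        ∑ γ, (Gz i₀ τ M Λ Q α γ x * (M * Es θ (c β γ) x) +
          ∑ j, Λ j x α γ * pd j (Es θ (c β γ)) x)) = 0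
  rw [eS, (rθ α β).2 x hx]
  have e7 : ∀ γ, Gz i₀ τ M Λ Q α γ x * (M * Es θ (c β γ) x) +
      ∑ j, Λ j x α γ * pd j (Es θ (c β γ)) x = Es θ (fun k =>
      cv (arr none α γ) (fun l => M * c β γ l) k +
        ∑ j, cv (arr (some j) α γ) (dcs θ j (c β γ)) k) x := by
    intro γ
    rw [Es_add' θ (r1 γ) (r3 γ), Es_sum' Finset.univ θ (r2 γ)]
    congr 1
    · rw [← EsS_mul a2 θ (rG α γ).1 (hMc γ), ← (rG α γ).2 x hx, Es_smul']
    · refine Finset.sum_congr rfl fun j _ => ?_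
      rw [← EsS_mul a2 θ (rL j α γ).1 (hd γ j), ← (rL j α γ).2 x hx, pd_EsS a1 (hc β γ)]
  rw [Finset.sum_congr rfl fun γ _ => e7 γ]
  exact h0

/-! ### bounds -/

lemma norm_EsS_le {θ : V n} {c : Ix n → ℂ} (hc : RD c) (x : V n) : ‖Es θ c x‖ ≤ nm 0 c := by
  unfold Es nm
  refine (norm_tsum_le_tsum_norm (H501.rd_summable_norm_term hc θ x)).trans ?_
  refine Summable.tsum_le_tsum (fun k => ?_) (H501.rd_summable_norm_term hc θ x) (hc 0)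
  rw [norm_mul, H501.norm_ex, mul_one, pow_zero, one_mul]

lemma nm_dcs_le {θ : V n} (hθ : Sh θ) {c : Ix n → ℂ} (hc : RD c) (i : Fin n) (m : ℕ) :
    nm m (dcs θ i c) ≤ 7 * nm (m + 1) c := by
  unfold nm
  rw [← tsum_mul_left]
  refine Summable.tsum_le_tsum (fun k => ?_) (hθ.rd_dcs hc i m) ((hc (m + 1)).mul_left _)
  unfold dcs
  rw [norm_mul]
  calc wt k ^ m * (‖al θ i k‖ * ‖c k‖) ≤ wt k ^ m * (7 * wt k * ‖c k‖) := by
        refine mul_le_mul_of_nonneg_left ?_ (pow_nonneg (G.wt_nonneg k) _)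
        exact mul_le_mul_of_nonneg_right (hθ.al_le k i) (norm_nonneg _)
    _ = 7 * (wt k ^ (m + 1) * ‖c k‖) := by ring

lemma nm_mono_exp {c : Ix n → ℂ} (hc : RD c) {m m' : ℕ} (h : m ≤ m') : nm m c ≤ nm m' c := by
  unfold nm
  refine Summable.tsum_le_tsum (fun k => ?_) (hc m) (hc m')
  exact mul_le_mul_of_nonneg_right (pow_le_pow_right₀ (one_le_wt k) h) (norm_nonneg _)

/-- Bounds of a series and of its first and second derivatives. -/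
lemma Es_bds (a1 : RowA1) {θ : V n} (hθ : Sh θ) {c : Ix n → ℂ} (hc : RD c) {e : ℝ}
    (h : nm 2 c ≤ e) (x : V n) : ‖Es θ c x‖ ≤ e ∧ (∀ i, ‖pd i (Es θ c) x‖ ≤ 7 * e) ∧
      ∀ i j, ‖pd i (pd j (Es θ c)) x‖ ≤ 49 * e := by
  refine ⟨(norm_EsS_le hc x).trans ((nm_mono_exp hc (by norm_num)).trans h), fun i => ?_,
    fun i j => ?_⟩
  · rw [pd_EsS a1 hc i]
    refine (norm_EsS_le (hθ.rd_dcs hc i) x).trans ((nm_dcs_le hθ hc i 0).trans ?_)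
    have := nm_mono_exp hc (show 0 + 1 ≤ 2 by norm_num)
    linarith
  · rw [pd_EsS a1 hc j, pd_EsS a1 (hθ.rd_dcs hc j) i]
    refine (norm_EsS_le (hθ.rd_dcs (hθ.rd_dcs hc j) i) x).trans
      ((nm_dcs_le hθ (hθ.rd_dcs hc j) i 0).trans ?_)
    have := nm_dcs_le hθ hc j 1
    have h2 : nm (0 + 1) (dcs θ j c) = nm 1 (dcs θ j c) := rfl
    have h3 : nm (1 + 1) c = nm 2 c := rfl
    rw [h2]
    linarith

lemma cl_aff {k : ℕ} {δ D : ℝ} {f : V n → ℂ} (hf : ContDiff ℝ ∞ f) (T : V n →L[ℝ] V n)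
    (b : V n) (hD : 1 ≤ D) (hT : ‖T‖ ≤ D) (h : Cl k δ f) :
    Cl k (D ^ k * δ) (fun x => f (T x + b)) := by
  intro l hl x
  have hδ : 0 ≤ δ := (norm_nonneg _).trans (h 0 (Nat.zero_le _) 0)
  have hfb : ContDiff ℝ ∞ (fun y => f (y + b)) := hf.comp (contDiff_id.add contDiff_const)
  have e1 : (fun x => f (T x + b)) = (fun y => f (y + b)) ∘ T := rfl
  rw [e1, T.iteratedFDeriv_comp_right hfb x (by exact_mod_cast le_top)]
  refine (ContinuousMultilinearMap.norm_compContinuousLinearMap_le _ _).trans ?_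
  rw [iteratedFDeriv_comp_add_right, Finset.prod_const, Finset.card_univ, Fintype.card_fin]
  calc ‖iteratedFDeriv ℝ l f (T x + b)‖ * ‖T‖ ^ l ≤ δ * D ^ k := by
        refine mul_le_mul (h l hl _) ?_ (by positivity) hδ
        exact (pow_le_pow_left₀ (norm_nonneg _) hT l).trans (pow_le_pow_right₀ hD hl)
    _ = D ^ k * δ := by ring

end Vale.Agent.P088.LR.H27
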