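import Vale.Agent.P088.H27.KCG2
import Vale.Agent.P088.H198.K.Defs

/-!
# P088, stage JB, row K_CG (3): any direction, any ball
-/

open MeasureTheory Set Filter
open scoped ContDiff Matrix Topology ComplexConjugate

noncomputable section

namespace Vale.Agent.P088.LR.H27

open Vale.Agent.P088.LR Vale.Agent.P088.LR.U Vale.Agent.P088.LR.H158 Vale.Agent.P088.H833
  Vale.Agent.P088.LR.K

variable {n N : ℕ}

/-- The linear part of `iaf`. -/
def iT (O : Matrix (Fin n) (Fin n) ℝ) (L : ℝ) : V n →L[ℝ] V n :=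
  ContinuousLinearMap.pi fun i => L • ∑ k, O i k •
    (ContinuousLinearMap.proj k : V n →L[ℝ] ℝ)

/-- The constant part of `iaf`. -/
def iB (O : Matrix (Fin n) (Fin n) ℝ) (L : ℝ) : V n := fun i => -(L * ∑ k, O i k * (1 / 2))

lemma iT_apply (O : Matrix (Fin n) (Fin n) ℝ) (L : ℝ) (x : V n) (i : Fin n) :
    iT O L x i = L * ∑ k, O i k * x k := by
  unfold iT
  simp [ContinuousLinearMap.pi_apply]

lemma iaf_eq (O : Matrix (Fin n) (Fin n) ℝ) (L : ℝ) (x : V n) :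
    iaf O L x = iT O L x + iB O L := by
  funext i
  rw [Pi.add_apply, iT_apply]
  unfold iaf iB
  simp only [mul_sub, Finset.sum_sub_distrib]
  ring

lemma norm_iT_le {O : Matrix (Fin n) (Fin n) ℝ} (h : CF.H952.Rf O) {L : ℝ} (hL : 0 ≤ L) :
    ‖iT O L‖ ≤ L * n := by
  refine ContinuousLinearMap.opNorm_le_bound _ (by positivity) fun x => ?_
  rw [pi_norm_le_iff_of_nonneg (by positivity)]
  intro i
  rw [iT_apply, Real.norm_eq_abs, abs_mul, abs_of_nonneg hL, mul_assoc]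
  refine mul_le_mul_of_nonneg_left ?_ hL
  calc |∑ k, O i k * x k| ≤ ∑ k, |O i k * x k| := Finset.abs_sum_le_sum_abs _ _
    _ ≤ ∑ _k : Fin n, ‖x‖ := by
        refine Finset.sum_le_sum fun k _ => ?_
        rw [abs_mul]
        have h2 : |x k| ≤ ‖x‖ := norm_le_pi_norm x k
        calc |O i k| * |x k| ≤ 1 * ‖x‖ :=
              mul_le_mul (CF.H952.abs_le h i k) h2 (abs_nonneg _) zero_le_one
          _ = ‖x‖ := one_mul _
    _ = n * ‖x‖ := by simp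

lemma cl_iaf {k : ℕ} {δ L : ℝ} {O : Matrix (Fin n) (Fin n) ℝ} (h : CF.H952.Rf O) (hL : 0 ≤ L)
    {f : V n → ℂ} (hf : ContDiff ℝ ∞ f) (hc : Cl k δ f) :
    Cl k ((1 + L * n) ^ k * δ) (fun x => f (iaf O L x)) := by
  have h1 := cl_aff hf (iT O L) (iB O L) (D := 1 + L * n) (by nlinarith [Nat.cast_nonneg (α := ℝ) n])
    ((norm_iT_le h hL).trans (by linarith)) hc
  have e : (fun x => f (iaf O L x)) = fun x => f (iT O L x + iB O L) := by
    funext x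
    rw [iaf_eq]
  rw [e]
  exact h1

lemma cl_cmul {k : ℕ} {a δ : ℝ} {c : ℂ} (hc : ‖c‖ ≤ a) {f : V n → ℂ} (hf : ContDiff ℝ ∞ f)
    (h : Cl k δ f) : Cl k (a * δ) (fun y => c * f y) := by
  intro l hl x
  have hδ : 0 ≤ δ := (norm_nonneg _).trans (h 0 (Nat.zero_le _) 0)
  set T : ℂ →L[ℝ] ℂ := c • (ContinuousLinearMap.id ℝ ℂ) with hT
  have hTn : ‖T‖ ≤ a := by
    refine ContinuousLinearMap.opNorm_le_bound _ ((norm_nonneg c).trans hc) fun y => ?_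
    have : T y = c * y := by simp [hT]
    rw [this, norm_mul]
    exact mul_le_mul_of_nonneg_right hc (norm_nonneg _)
  have e : iteratedFDeriv ℝ l (fun y => T (f y)) x =
      T.compContinuousMultilinearMap (iteratedFDeriv ℝ l f x) :=
    T.iteratedFDeriv_comp_left (hf.contDiffAt) (by exact_mod_cast le_top)
  have e2 : (fun y => c * f y) = fun y => T (f y) := by
    funext y
    simp [hT]
  rw [e2, e]
  refine (T.norm_compContinuousMultilinearMap_le _).trans ?_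
  exact mul_le_mul hTn (h l hl x) (norm_nonneg _) ((norm_nonneg _).trans hTn)

/-! ### the transported coefficients -/

/-- First order coefficients. -/
def tL (χ : V n → ℂ) (O : Matrix (Fin n) (Fin n) ℝ) (L : ℝ) (Λ : Fin n → MC n N) (a : Fin n) :
    MC n N := fun X => Matrix.of fun α β =>
  χ X * ((L : ℂ) * ∑ i, ((O a i : ℝ) : ℂ) * Λ i (iaf O L X) α β)

/-- Zero order coefficient. -/
def tQ (χ : V n → ℂ) (O : Matrix (Fin n) (Fin n) ℝ) (L : ℝ) (Q : MC n N) : MC n N :=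
  fun X => Matrix.of fun α β => χ X * (((L ^ 2 : ℝ) : ℂ) * Q (iaf O L X) α β)

lemma zq_norm_le (i₀ : Fin n) (τ : V n) (hτ : ∑ j, τ j ^ 2 ≤ 1) (j : Fin n) :
    ‖zq i₀ τ j‖ ≤ 2 := by
  unfold zq
  refine (norm_add_le _ _).trans ?_
  have h1 : ‖(((if j = i₀ then (1 : ℝ) else 0 : ℝ)) : ℂ)‖ ≤ 1 := by
    split_ifs <;> simp
  have h2 : |τ j| ≤ 1 := by
    have h3 : τ j ^ 2 ≤ 1 := le_trans (Finset.single_le_sum (f := fun j => τ j ^ 2)
      (fun _ _ => sq_nonneg _) (Finset.mem_univ j)) hτ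
    exact abs_le_one_iff_mul_self_le_one.2 (by nlinarith)
  have h4 : ‖Complex.I * (τ j : ℂ)‖ ≤ 1 := by
    rw [norm_mul, Complex.norm_I, one_mul, Complex.norm_real]
    exact h2
  linarith

lemma tsub {χ : V n → ℂ} (hχs : tsupport χ ⊆ cube n) {f : V n → ℂ}
    (h : ∀ x, χ x = 0 → f x = 0) : tsupport f ⊆ cube n := by
  refine (closure_minimal (fun x hx => ?_) (isClosed_tsupport χ)).trans hχs
  by_contra hx'
  exact hx (h x (image_eq_zero_of_notMem_tsupport hx'))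

section main

variable {χ : V n → ℂ} {O : Matrix (Fin n) (Fin n) ℝ} {L : ℝ}

lemma sm_tL (hχ : ContDiff ℝ ∞ χ) {Λ : Fin n → MC n N} (hΛ : ∀ i, SmC (Λ i)) (a : Fin n) :
    SmC (tL χ O L Λ a) := fun α β =>
  hχ.mul (contDiff_const.mul (ContDiff.sum fun i _ => contDiff_const.mul
    ((hΛ i α β).comp (iaf_contDiff O L))))

lemma sm_tQ (hχ : ContDiff ℝ ∞ χ) {Q : MC n N} (hQ : SmC Q) : SmC (tQ χ O L Q) := fun α β =>
  hχ.mul (contDiff_const.mul ((hQ α β).comp (iaf_contDiff O L)))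

lemma cl_t1 (hO : CF.H952.Rf O) (hL : 1 ≤ L) {k : ℕ} {δ : ℝ} {Λ : Fin n → MC n N}
    (hΛ : ∀ i, SmC (Λ i)) (h : ∀ i, ClC k δ (Λ i)) (a : Fin n) (α β : Fin N) (i : Fin n) :
    ContDiff ℝ ∞ (fun x => ((O a i : ℝ) : ℂ) * Λ i (iaf O L x) α β) ∧
    Cl k (1 * ((1 + L * n) ^ k * δ)) (fun x => ((O a i : ℝ) : ℂ) * Λ i (iaf O L x) α β) := by
  have s1 : ContDiff ℝ ∞ (fun x => Λ i (iaf O L x) α β) := (hΛ i α β).comp (iaf_contDiff O L)
  have s2 : Cl k ((1 + L * n) ^ k * δ) (fun x => Λ i (iaf O L x) α β) :=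
    cl_iaf (f := fun x => Λ i x α β) hO (by linarith) (hΛ i α β) (h i α β)
  have s3 : ‖((O a i : ℝ) : ℂ)‖ ≤ 1 := by
    rw [Complex.norm_real]
    exact CF.H952.abs_le hO a i
  exact ⟨contDiff_const.mul s1, cl_cmul s3 s1 s2⟩

lemma cl_tL (hχ : ContDiff ℝ ∞ χ) (hO : CF.H952.Rf O) (hL : 1 ≤ L) {k : ℕ} {X δ : ℝ}
    (hX : Cl k X χ) {Λ : Fin n → MC n N} (hΛ : ∀ i, SmC (Λ i)) (h : ∀ i, ClC k δ (Λ i))
    (a : Fin n) (α β : Fin N) : Cl k (2 ^ k * (X * (L * (n * (1 * ((1 + L * n) ^ k * δ))))))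
      (fun x => tL χ O L Λ a x α β) := by
  have h1 := fun i => (cl_t1 hO hL hΛ h a α β i).1
  have h2 := H535.cl_sum Finset.univ h1 fun i => (cl_t1 hO hL hΛ h a α β i).2
  rw [Finset.card_univ, Fintype.card_fin] at h2
  have s3 : ‖((L : ℝ) : ℂ)‖ ≤ L := by
    rw [Complex.norm_real, Real.norm_eq_abs, abs_of_nonneg (by linarith)]
  have s4 : ContDiff ℝ ∞ (fun x => ∑ i, ((O a i : ℝ) : ℂ) * Λ i (iaf O L x) α β) :=
    ContDiff.sum fun i _ => h1 i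
  have h3 := cl_cmul s3 s4 h2
  have s5 : ContDiff ℝ ∞ (fun x => (L : ℂ) * ∑ i, ((O a i : ℝ) : ℂ) * Λ i (iaf O L x) α β) :=
    contDiff_const.mul s4
  have h4 := H535.cl_mul hχ s5 hX h3
  exact h4

lemma cl_tQ (hχ : ContDiff ℝ ∞ χ) (hO : CF.H952.Rf O) (hL : 1 ≤ L) {k : ℕ} {X δ : ℝ}
    (hX : Cl k X χ) {Q : MC n N} (hQ : SmC Q) (h : ClC k δ Q) (α β : Fin N) :
    Cl k (2 ^ k * (X * (L ^ 2 * ((1 + L * n) ^ k * δ)))) (fun x => tQ χ O L Q x α β) := by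
  have s1 : ContDiff ℝ ∞ (fun x => Q (iaf O L x) α β) := (hQ α β).comp (iaf_contDiff O L)
  have s2 : Cl k ((1 + L * n) ^ k * δ) (fun x => Q (iaf O L x) α β) :=
    cl_iaf (f := fun x => Q x α β) hO (by linarith) (hQ α β) (h α β)
  have s3 : ‖((L ^ 2 : ℝ) : ℂ)‖ ≤ L ^ 2 := by
    have h0 : (0 : ℝ) ≤ L ^ 2 := sq_nonneg L
    rw [Complex.norm_real, Real.norm_eq_abs, abs_of_nonneg h0]
  have h3 := cl_cmul s3 s1 s2
  have s5 : ContDiff ℝ ∞ (fun x => ((L ^ 2 : ℝ) : ℂ) * Q (iaf O L x) α β) :=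
    contDiff_const.mul s1
  have h4 := H535.cl_mul hχ s5 hX h3
  exact h4

lemma num_tL {L X P δ : ℝ} (n k : ℕ) (hL : 1 ≤ L) (hX : 0 ≤ X) (hP : 0 ≤ P) (hδ : 0 ≤ δ) :
    2 ^ k * (X * (L * (n * (1 * (P * δ))))) ≤ 2 ^ k * (X * (L ^ 2 * (n + 1) * P)) * δ ∧
    2 ^ k * (X * (L ^ 2 * (P * δ))) ≤ 2 ^ k * (X * (L ^ 2 * (n + 1) * P)) * δ := by
  have hn : (0 : ℝ) ≤ n := Nat.cast_nonneg n
  have h2 : (0 : ℝ) ≤ 2 ^ k * X := by positivity
  have e3 : L * n ≤ L ^ 2 * (n + 1) := by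
    have h5 : L ≤ L ^ 2 := by nlinarith
    calc L * n ≤ L ^ 2 * n := mul_le_mul_of_nonneg_right h5 hn
      _ ≤ L ^ 2 * (n + 1) := mul_le_mul_of_nonneg_left (by linarith) (sq_nonneg L)
  have e4 : L ^ 2 ≤ L ^ 2 * (n + 1) := by nlinarith [sq_nonneg L]
  have e1 : (0 : ℝ) ≤ P * δ := by positivity
  constructor
  · calc 2 ^ k * (X * (L * (n * (1 * (P * δ))))) = (2 ^ k * X) * ((L * n) * (P * δ)) := by ring
      _ ≤ (2 ^ k * X) * ((L ^ 2 * (n + 1)) * (P * δ)) :=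
        mul_le_mul_of_nonneg_left (mul_le_mul_of_nonneg_right e3 e1) h2
      _ = _ := by ring
  · calc 2 ^ k * (X * (L ^ 2 * (P * δ))) = (2 ^ k * X) * (L ^ 2 * (P * δ)) := by ring
      _ ≤ (2 ^ k * X) * ((L ^ 2 * (n + 1)) * (P * δ)) :=
        mul_le_mul_of_nonneg_left (mul_le_mul_of_nonneg_right e4 e1) h2
      _ = _ := by ring

lemma cl_Gz {i₀ : Fin n} {τ : V n} (hτ : ∑ j, τ j ^ 2 ≤ 1) {M : ℝ} (hM : 1 ≤ M) {k : ℕ} {b : ℝ}
    {Λ : Fin n → MC n N} {Q : MC n N} (hΛ : ∀ i, SmC (Λ i)) (hQ : SmC Q) (α γ : Fin N)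
    (h1 : ∀ i, Cl k b (fun x => Λ i x α γ)) (h2 : Cl k b (fun x => Q x α γ)) :
    Cl k ((2 * n + 1) * b) (Gz i₀ τ M Λ Q α γ) := by
  have s1 : ∀ j, ContDiff ℝ ∞ fun x => zq i₀ τ j * Λ j x α γ := fun j =>
    contDiff_const.mul (hΛ j α γ)
  have c1 : ∀ j, Cl k (2 * b) fun x => zq i₀ τ j * Λ j x α γ := fun j =>
    cl_cmul (zq_norm_le i₀ τ hτ j) (hΛ j α γ) (h1 j)
  have c2 := H535.cl_sum Finset.univ s1 c1
  have c3 : Cl k (1 * b) fun x => ((M : ℂ))⁻¹ * Q x α γ := cl_cmul (by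
    rw [norm_inv, Complex.norm_real, Real.norm_of_nonneg (by linarith)]
    exact inv_le_one_of_one_le₀ hM) (hQ α γ) h2
  have c4 := H535.cl_add (ContDiff.sum fun j _ => s1 j) (contDiff_const.mul (hQ α γ)) c2 c3
  refine H535.cl_le c4 le_rfl (le_of_eq ?_)
  rw [Finset.card_univ, Fintype.card_fin]
  ring

end main

end Vale.Agent.P088.LR.H27
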