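import Vale.Agent.P088.H27.KCG3

/-!
# P088, stage JB, row K_CG (4): the row
-/

open MeasureTheory Set Filter
open scoped ContDiff Matrix Topology ComplexConjugate

noncomputable section

namespace Vale.Agent.P088.LR.H27

open Vale.Agent.P088.LR Vale.Agent.P088.LR.U Vale.Agent.P088.LR.H158 Vale.Agent.P088.H833
  Vale.Agent.P088.LR.K

variable {n N : ℕ}

lemma aff_core {O : Matrix (Fin n) (Fin n) ℝ} (hO : CF.H952.Rf O) (R : ℝ) {x : V n}
    (hx : ‖x‖ ≤ R) : aff O (4 * (n * |R| + 1)) x ∈ core n := by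
  set L : ℝ := 4 * (n * |R| + 1) with hL
  have hL1 : 1 ≤ L := by
    have : 0 ≤ (n : ℝ) * |R| := by positivity
    linarith
  intro j
  have h1 : |∑ k, O j k * x k| ≤ n * |R| := by
    calc |∑ k, O j k * x k| ≤ ∑ k, |O j k * x k| := Finset.abs_sum_le_sum_abs _ _
      _ ≤ ∑ _k : Fin n, |R| := by
          refine Finset.sum_le_sum fun k _ => ?_
          rw [abs_mul]
          have h2 : |x k| ≤ |R| := by
            have := norm_le_pi_norm x k
            rw [Real.norm_eq_abs] at this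
            exact this.trans (hx.trans (le_abs_self R))
          calc |O j k| * |x k| ≤ 1 * |R| :=
                mul_le_mul (CF.H952.abs_le hO j k) h2 (abs_nonneg _) zero_le_one
            _ = |R| := one_mul _
      _ = n * |R| := by simp
  have h3 : |L⁻¹ * ∑ k, O j k * x k| ≤ 1 / 4 := by
    rw [abs_mul, abs_inv, abs_of_pos (by linarith : (0 : ℝ) < L), inv_mul_le_iff₀ (by linarith)]
    refine h1.trans ?_
    rw [hL]
    linarith
  have h4 := abs_le.1 h3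
  unfold aff
  constructor <;> linarith [h4.1, h4.2]

/-- Bounds after the affine substitution. -/
lemma aff_bds {O : Matrix (Fin n) (Fin n) ℝ} (hO : CF.H952.Rf O) {L : ℝ} (hL : 1 ≤ L)
    {f : V n → ℂ} (hf : ContDiff ℝ ∞ f) {e : ℝ} (h0 : ∀ x, ‖f x‖ ≤ e)
    (h1 : ∀ x i, ‖pd i f x‖ ≤ 7 * e) (h2 : ∀ x i j, ‖pd i (pd j f) x‖ ≤ 49 * e) (x : V n) :
    ‖f (aff O L x)‖ ≤ 49 * (n + 1) ^ 2 * e ∧
    (∀ i, ‖pd i (fun y => f (aff O L y)) x‖ ≤ 49 * (n + 1) ^ 2 * e) ∧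
    ∀ i j, ‖pd i (pd j (fun y => f (aff O L y))) x‖ ≤ 49 * (n + 1) ^ 2 * e := by
  have he : 0 ≤ e := (norm_nonneg _).trans (h0 x)
  have hn : (0 : ℝ) ≤ n := Nat.cast_nonneg n
  have hLi : L⁻¹ ≤ 1 := inv_le_one_of_one_le₀ hL
  have hLp : 0 < L := by linarith
  have hc : ∀ i j, ‖((L⁻¹ * O i j : ℝ) : ℂ)‖ ≤ 1 := fun i j => by
    rw [Complex.norm_real, Real.norm_eq_abs, abs_mul, abs_inv, abs_of_pos hLp]
    calc L⁻¹ * |O i j| ≤ 1 * 1 :=
          mul_le_mul hLi (CF.H952.abs_le hO i j) (abs_nonneg _) zero_le_one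
      _ = 1 := one_mul _
  refine ⟨?_, fun i => ?_, fun i j => ?_⟩
  · refine (h0 _).trans ?_
    nlinarith [mul_nonneg hn he, mul_nonneg (mul_nonneg hn hn) he]
  · rw [pd_aff O L hf]
    calc ‖∑ a, ((L⁻¹ * O a i : ℝ) : ℂ) * pd a f (aff O L x)‖
        ≤ ∑ a, ‖((L⁻¹ * O a i : ℝ) : ℂ) * pd a f (aff O L x)‖ := norm_sum_le _ _
      _ ≤ ∑ _a : Fin n, 7 * e := by
          refine Finset.sum_le_sum fun a _ => ?_
          rw [norm_mul]
          calc ‖((L⁻¹ * O a i : ℝ) : ℂ)‖ * ‖pd a f (aff O L x)‖ ≤ 1 * (7 * e) :=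
                mul_le_mul (hc a i) (h1 _ a) (norm_nonneg _) zero_le_one
            _ = 7 * e := one_mul _
      _ = n * (7 * e) := by simp
      _ ≤ _ := by nlinarith [mul_nonneg hn he, mul_nonneg (mul_nonneg hn hn) he]
  · have e2 : pd j (fun y => f (aff O L y)) = fun y => ∑ a, ((L⁻¹ * O a j : ℝ) : ℂ) *
        (fun z => pd a f (aff O L z)) y := by
      funext y
      exact pd_aff O L hf j y
    have e3 : ∀ a, ContDiff ℝ ∞ (fun z => pd a f (aff O L z)) := fun a =>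
      (CF.H952.contDiff_pd hf a).comp (aff_contDiff O L)
    rw [e2, CF.H952.pd_sum (fun a => (e3 a).differentiable (by simp) x)]
    calc ‖∑ a, ((L⁻¹ * O a j : ℝ) : ℂ) * pd i (fun z => pd a f (aff O L z)) x‖
        ≤ ∑ a, ‖((L⁻¹ * O a j : ℝ) : ℂ) * pd i (fun z => pd a f (aff O L z)) x‖ :=
          norm_sum_le _ _
      _ ≤ ∑ _a : Fin n, n * (49 * e) := by
          refine Finset.sum_le_sum fun a _ => ?_
          rw [norm_mul]
          refine (mul_le_mul (hc a j) ?_ (norm_nonneg _) zero_le_one).trans (one_mul _).le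
          rw [pd_aff O L (CF.H952.contDiff_pd hf a)]
          refine (norm_sum_le _ _).trans ?_
          calc ∑ b, ‖((L⁻¹ * O b i : ℝ) : ℂ) * pd b (pd a f) (aff O L x)‖ ≤
              ∑ _b : Fin n, 49 * e := by
                refine Finset.sum_le_sum fun b _ => ?_
                rw [norm_mul]
                exact (mul_le_mul (hc b i) (h2 _ b a) (norm_nonneg _) zero_le_one).trans
                  (one_mul _).le
            _ = n * (49 * e) := by simp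
      _ = n * (n * (49 * e)) := by simp
      _ ≤ _ := by nlinarith [mul_nonneg hn he, mul_nonneg (mul_nonneg hn hn) he]

/-- The directional derivative. -/
lemma ze_aff {O : Matrix (Fin n) (Fin n) ℝ} (hO : CF.H952.Rf O) {L : ℝ} {i₀ : Fin n}
    {ν τ : V n} (hOν : ∀ k, O k i₀ = ν k) {f : V n → ℂ} (hf : ContDiff ℝ ∞ f) (x : V n) :
    ∑ j, ze ν τ j * pd j (fun y => f (aff O L y)) x =
      ((L⁻¹ : ℝ) : ℂ) * ∑ i, zq i₀ (fun i => ∑ k, O i k * τ k) i * pd i f (aff O L x) := by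
  have e3 : ∀ j, ze ν τ j * pd j (fun y => f (aff O L y)) x = ∑ i, ((L⁻¹ : ℝ) : ℂ) *
      ((((O i j * ν j : ℝ) : ℂ) + Complex.I * ((O i j * τ j : ℝ) : ℂ)) *
        pd i f (aff O L x)) := by
    intro j
    rw [pd_aff O L hf, Finset.mul_sum]
    refine Finset.sum_congr rfl fun i _ => ?_
    unfold ze
    push_cast
    ring
  rw [Finset.sum_congr rfl fun j _ => e3 j, Finset.sum_comm, Finset.mul_sum]
  refine Finset.sum_congr rfl fun i _ => ?_
  rw [← Finset.mul_sum, ← Finset.sum_mul, Finset.sum_add_distrib, ← Finset.mul_sum,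
    ← Complex.ofReal_sum, ← Complex.ofReal_sum]
  congr 2
  unfold zq
  congr 2
  have e4 : ∑ j, O i j * ν j = ∑ j, O i j * O j i₀ :=
    Finset.sum_congr rfl fun j _ => by rw [hOν]
  rw [e4, hO.sq]

lemma zq_O {O : Matrix (Fin n) (Fin n) ℝ} (hO : CF.H952.Rf O) {i₀ : Fin n}
    {ν τ : V n} (hOν : ∀ k, O k i₀ = ν k) (i : Fin n) :
    ∑ j, zq i₀ (fun i => ∑ k, O i k * τ k) j * ((O j i : ℝ) : ℂ) = ze ν τ i := by
  unfold zq ze
  have h1 : ∀ j, ((((if j = i₀ then (1 : ℝ) else 0 : ℝ)) : ℂ) +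
      Complex.I * ((∑ k, O j k * τ k : ℝ) : ℂ)) * ((O j i : ℝ) : ℂ) =
      (((if j = i₀ then (1 : ℝ) else 0) * O j i : ℝ) : ℂ) +
        Complex.I * ((∑ k, O i j * O j k * τ k : ℝ) : ℂ) := by
    intro j
    rw [hO.sy i j]
    push_cast
    rw [Finset.sum_congr rfl fun k _ => mul_assoc ((O j i : ℝ) : ℂ) _ _, ← Finset.mul_sum]
    ring
  rw [Finset.sum_congr rfl fun j _ => h1 j, Finset.sum_add_distrib, ← Finset.mul_sum,
    ← Complex.ofReal_sum, ← Complex.ofReal_sum]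
  congr 3
  · rw [Finset.sum_congr rfl fun j _ => ite_mul (j = i₀) (1 : ℝ) 0 (O j i)]
    simp only [one_mul, zero_mul]
    rw [Finset.sum_ite_eq' Finset.univ i₀, if_pos (Finset.mem_univ _), hO.sy, hOν]
  · rw [Finset.sum_comm]
    have h2 : ∀ k, ∑ j, O i j * O j k * τ k = (if i = k then 1 else 0) * τ k := fun k => by
      rw [← Finset.sum_mul, hO.sq]
    rw [Finset.sum_congr rfl fun k _ => h2 k]
    simp

lemma ta_sq {O : Matrix (Fin n) (Fin n) ℝ} (hO : CF.H952.Rf O) {τ : V n}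
    (hτ : ∑ i, τ i ^ 2 = 1) : ∑ j, (∑ k, O j k * τ k) ^ 2 ≤ 1 := by
  have h1 : ∀ j, (∑ k, O j k * τ k) ^ 2 = ∑ k, ∑ l, (O l j * O j k) * (τ k * τ l) := by
    intro j
    rw [pow_two, Finset.sum_mul_sum]
    refine Finset.sum_congr rfl fun k _ => Finset.sum_congr rfl fun l _ => ?_
    rw [hO.sy l j]
    ring
  rw [Finset.sum_congr rfl fun j _ => h1 j, Finset.sum_comm]
  have h2 : ∀ k, ∑ j, ∑ l, (O l j * O j k) * (τ k * τ l) = τ k ^ 2 := by
    intro k
    rw [Finset.sum_comm]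
    have h3 : ∀ l, ∑ j, (O l j * O j k) * (τ k * τ l) = (if l = k then 1 else 0) * (τ k * τ l) :=
      fun l => by rw [← Finset.sum_mul, hO.sq]
    rw [Finset.sum_congr rfl fun l _ => h3 l]
    simp only [ite_mul, one_mul, zero_mul]
    rw [Finset.sum_ite_eq' Finset.univ k, if_pos (Finset.mem_univ _)]
    ring
  rw [Finset.sum_congr rfl fun k _ => h2 k, hτ]

/-- The equation in the original coordinates. -/
theorem eq_aff {χ : V n → ℂ} (hχ1 : ∀ x ∈ core n, χ x = 1) {O : Matrix (Fin n) (Fin n) ℝ}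
    (hO : CF.H952.Rf O) {L : ℝ} (hL0 : L ≠ 0) {i₀ : Fin n} {ν τ : V n} (hOν : ∀ k, O k i₀ = ν k)
    {M : ℝ} (hM : M ≠ 0) (Λ : Fin n → MC n N) (Q : MC n N) {f : Fin N → Fin N → V n → ℂ}
    (hf : ∀ α β, ContDiff ℝ ∞ (f α β)) {x : V n} (hX : aff O L x ∈ core n) {α β : Fin N}
    (h : ((∑ i, pd i (pd i (f α β)) (aff O L x)) + 2 * ((M * L : ℝ) : ℂ) *
      ∑ j, zq i₀ (fun i => ∑ k, O i k * τ k) j * pd j (f α β) (aff O L x)) +
      (((M * L : ℝ) : ℂ) * Gz i₀ (fun i => ∑ k, O i k * τ k) (M * L) (tL χ O L Λ) (tQ χ O L Q)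
        α β (aff O L x) + ∑ γ, (Gz i₀ (fun i => ∑ k, O i k * τ k) (M * L) (tL χ O L Λ)
        (tQ χ O L Q) α γ (aff O L x) * (((M * L : ℝ) : ℂ) * f γ β (aff O L x)) +
          ∑ j, tL χ O L Λ j (aff O L x) α γ * pd j (f γ β) (aff O L x))) = 0) :
    (∑ j, pd j (pd j (fun y => f α β (aff O L y))) x) + 2 * (M : ℂ) *
      ∑ j, ze ν τ j * pd j (fun y => f α β (aff O L y)) x +
      ∑ j, ∑ γ, Λ j x α γ * (pd j (fun y => f γ β (aff O L y)) x + (M : ℂ) * ze ν τ j *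
        ((if γ = β then 1 else 0) + f γ β (aff O L x))) +
      ∑ γ, Q x α γ * ((if γ = β then 1 else 0) + f γ β (aff O L x)) = 0 := by
  have hLc : (L : ℂ) ≠ 0 := by exact_mod_cast hL0
  have hMc : (M : ℂ) ≠ 0 := by exact_mod_cast hM
  have hχ := hχ1 _ hX
  have hi := iaf_aff hO hL0 x
  have tLx : ∀ j γ, tL χ O L Λ j (aff O L x) α γ = (L : ℂ) *
      ∑ i, ((O j i : ℝ) : ℂ) * Λ i x α γ := by
    intro j γ
    change χ (aff O L x) * ((L : ℂ) * ∑ i, ((O j i : ℝ) : ℂ) *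
      Λ i (iaf O L (aff O L x)) α γ) = _
    rw [hχ, hi, one_mul]
  have tQx : ∀ γ, tQ χ O L Q (aff O L x) α γ = ((L ^ 2 : ℝ) : ℂ) * Q x α γ := by
    intro γ
    change χ (aff O L x) * (((L ^ 2 : ℝ) : ℂ) * Q (iaf O L (aff O L x)) α γ) = _
    rw [hχ, hi, one_mul]
  set a : Fin N → ℂ := fun γ => ∑ i, ze ν τ i * Λ i x α γ with ha
  have hG : ∀ γ, Gz i₀ (fun i => ∑ k, O i k * τ k) (M * L) (tL χ O L Λ) (tQ χ O L Q) α γ
      (aff O L x) = (L : ℂ) * a γ + (L : ℂ) * (M : ℂ)⁻¹ * Q x α γ := by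
    intro γ
    unfold Gz
    rw [tQx]
    congr 1
    · have h1 : ∀ j, zq i₀ (fun i => ∑ k, O i k * τ k) j * tL χ O L Λ j (aff O L x) α γ =
          ∑ i, (L : ℂ) * ((zq i₀ (fun i => ∑ k, O i k * τ k) j * ((O j i : ℝ) : ℂ)) *
            Λ i x α γ) := by
        intro j
        rw [tLx, Finset.mul_sum, Finset.mul_sum]
        exact Finset.sum_congr rfl fun i _ => by ring
      rw [Finset.sum_congr rfl fun j _ => h1 j, Finset.sum_comm, ha, Finset.mul_sum]
      refine Finset.sum_congr rfl fun i _ => ?_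
      rw [← Finset.mul_sum, ← Finset.sum_mul, zq_O hO hOν]
    · push_cast
      field_simp
  have hS : ∀ γ, ∑ j, tL χ O L Λ j (aff O L x) α γ * pd j (f γ β) (aff O L x) =
      ((L ^ 2 : ℝ) : ℂ) * ∑ i, Λ i x α γ * pd i (fun y => f γ β (aff O L y)) x := by
    intro γ
    have h1 : ∀ i, Λ i x α γ * pd i (fun y => f γ β (aff O L y)) x =
        ∑ j, ((L⁻¹ : ℝ) : ℂ) * (((O j i : ℝ) : ℂ) * Λ i x α γ * pd j (f γ β) (aff O L x)) := by
      intro i
      rw [pd_aff O L (hf γ β), Finset.mul_sum]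
      refine Finset.sum_congr rfl fun j _ => ?_
      push_cast
      ring
    rw [Finset.sum_congr rfl fun i _ => h1 i, Finset.sum_comm, Finset.mul_sum]
    refine Finset.sum_congr rfl fun j _ => ?_
    rw [tLx, ← Finset.mul_sum, ← Finset.sum_mul]
    push_cast
    field_simp
  have hg : ∀ γ, Gz i₀ (fun i => ∑ k, O i k * τ k) (M * L) (tL χ O L Λ)
        (tQ χ O L Q) α γ (aff O L x) * (((M * L : ℝ) : ℂ) * f γ β (aff O L x)) +
          ∑ j, tL χ O L Λ j (aff O L x) α γ * pd j (f γ β) (aff O L x) =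
      ((L ^ 2 : ℝ) : ℂ) * (((M : ℂ) * a γ + Q x α γ) * f γ β (aff O L x) +
        ∑ i, Λ i x α γ * pd i (fun y => f γ β (aff O L y)) x) := by
    intro γ
    rw [hG, hS]
    push_cast
    field_simp
  rw [Finset.sum_congr rfl fun γ _ => hg γ, ← Finset.mul_sum, hG β] at h
  have hl : ∑ j, pd j (pd j (fun y => f α β (aff O L y))) x =
      ((L⁻¹ ^ 2 : ℝ) : ℂ) * ∑ i, pd i (pd i (f α β)) (aff O L x) := lap_aff hO L (hf α β) x
  rw [hl, ze_aff hO hOν (hf α β)]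
  have e1 : ∑ j, ∑ γ, Λ j x α γ * (pd j (fun y => f γ β (aff O L y)) x + (M : ℂ) * ze ν τ j *
        ((if γ = β then 1 else 0) + f γ β (aff O L x))) =
      ∑ γ, (∑ j, Λ j x α γ * pd j (fun y => f γ β (aff O L y)) x +
        (M : ℂ) * a γ * f γ β (aff O L x)) + (M : ℂ) * a β := by
    rw [Finset.sum_comm]
    have e2 : ∀ γ, ∑ j, Λ j x α γ * (pd j (fun y => f γ β (aff O L y)) x +
        (M : ℂ) * ze ν τ j * ((if γ = β then 1 else 0) + f γ β (aff O L x))) =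
        (∑ j, Λ j x α γ * pd j (fun y => f γ β (aff O L y)) x +
          (M : ℂ) * a γ * f γ β (aff O L x)) + (if γ = β then (M : ℂ) * a γ else 0) := by
      intro γ
      have e3 : (if γ = β then (M : ℂ) * a γ else 0) = (M : ℂ) * a γ * (if γ = β then 1 else 0) := by
        split_ifs <;> simp
      rw [e3, ha]
      simp only [Finset.mul_sum, Finset.sum_mul, ← Finset.sum_add_distrib]
      exact Finset.sum_congr rfl fun j _ => by ring
    rw [Finset.sum_congr rfl fun γ _ => e2 γ, Finset.sum_add_distrib,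
      Finset.sum_ite_eq' Finset.univ β, if_pos (Finset.mem_univ _)]
  have e4 : ∑ γ, Q x α γ * ((if γ = β then 1 else 0) + f γ β (aff O L x)) =
      ∑ γ, Q x α γ * f γ β (aff O L x) + Q x α β := by
    have e5 : ∀ γ, Q x α γ * ((if γ = β then 1 else 0) + f γ β (aff O L x)) =
        Q x α γ * f γ β (aff O L x) + (if γ = β then Q x α γ else 0) := by
      intro γ
      split_ifs <;> ring
    rw [Finset.sum_congr rfl fun γ _ => e5 γ, Finset.sum_add_distrib,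
      Finset.sum_ite_eq' Finset.univ β, if_pos (Finset.mem_univ _)]
  have e6 : ∑ γ, (((M : ℂ) * a γ + Q x α γ) * f γ β (aff O L x) +
        ∑ i, Λ i x α γ * pd i (fun y => f γ β (aff O L y)) x) =
      ∑ γ, (∑ j, Λ j x α γ * pd j (fun y => f γ β (aff O L y)) x +
        (M : ℂ) * a γ * f γ β (aff O L x)) + ∑ γ, Q x α γ * f γ β (aff O L x) := by
    rw [← Finset.sum_add_distrib]
    exact Finset.sum_congr rfl fun γ _ => by ring
  rw [e6] at h
  rw [e1, e4]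
  generalize ∑ γ, (∑ j, Λ j x α γ * pd j (fun y => f γ β (aff O L y)) x +
        (M : ℂ) * a γ * f γ β (aff O L x)) = S1 at h ⊢
  generalize ∑ γ, Q x α γ * f γ β (aff O L x) = S2 at h ⊢
  generalize ∑ i, pd i (pd i (f α β)) (aff O L x) = S3 at h ⊢
  generalize ∑ j, zq i₀ (fun i => ∑ k, O i k * τ k) j * pd j (f α β) (aff O L x) = S4 at h ⊢
  have h7 : ((L : ℂ)⁻¹ ^ 2) * ((S3 + 2 * ((M * L : ℝ) : ℂ) * S4) + (((M * L : ℝ) : ℂ) *
      ((L : ℂ) * a β + (L : ℂ) * (M : ℂ)⁻¹ * Q x α β) + ((L ^ 2 : ℝ) : ℂ) * (S1 + S2))) = 0 := by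
    rw [h, mul_zero]
  rw [← h7]
  push_cast
  field_simp
  ring

end Vale.Agent.P088.LR.H27
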