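import Vale.Agent.P088.H27.JERes
import Vale.Agent.P088.H991.PTop
import Vale.Agent.P088.H991.UB
import Vale.Agent.P088.H924.P.Cut
import Vale.Agent.P088.H188.PUi
import Vale.Agent.P088.H231.VN
import Vale.Agent.P088.H72.P.Fl

namespace Vale.Agent.P088.LR.K27

open Vale.Agent.P088.LR

/-- All rows of the patch theorem. -/
theorem rowCUT27 : P.RowCUT :=
  H924.P.cut Vale.Agent.P088.H188.PU.ui (H991.ub Vale.Agent.P088.H188.PU.ui P.H231.vn) P72.fl

/-- Equal data on a patch, the pairs agree near the rest of the boundary: equal data on the whole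
boundary. -/
theorem rowSDU : RowSDU := fun ρ hρ g₁ g₂ A₁ A₂ h1 h2 p1 p2 a1 a2 G hG ha hS =>
  H991.sdg_sdu rowCUT27 ρ hρ g₁ g₂ A₁ A₂ h1 h2 p1 p2 a1 a2 G hG ha hS

end Vale.Agent.P088.LR.K27
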