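import Vale.Agent.P088.H27.GaugeB
import Vale.Agent.P088.H53.T

/-!
# P088: calculus of functions which are periodic smooth on the cube
-/

open MeasureTheory Set Filter
open scoped ContDiff Matrix Topology

noncomputable section

namespace Vale.Agent.P088.LR.H27

open Vale.Agent.P088.LR

variable {n : ℕ}

/-- `f` is given on the cube by a rapidly decreasing Fourier series. -/
def Pr (f : V n → ℂ) : Prop := ∃ c : Ix n → ℂ, RD c ∧ ∀ x ∈ cube n, f x = Es 0 c x

lemma Pr.es {c : Ix n → ℂ} (hc : RD c) : Pr (Es 0 c) := ⟨c, hc, fun _ _ => rfl⟩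

lemma Pr.congr {f g : V n → ℂ} (hf : Pr f) (h : ∀ x ∈ cube n, f x = g x) : Pr g := by
  obtain ⟨c, hc, h'⟩ := hf
  exact ⟨c, hc, fun x hx => by rw [← h x hx, h' x hx]⟩

lemma rd_add {c d : Ix n → ℂ} (hc : RD c) (hd : RD d) : RD fun k => c k + d k := fun m => by
  refine Summable.of_nonneg_of_le (fun k => by have := one_le_wt k; positivity) (fun k => ?_)
    ((hc m).add (hd m))
  rw [← mul_add]
  exact mul_le_mul_of_nonneg_left (norm_add_le _ _) (by have := one_le_wt k; positivity)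

lemma rd_neg {c : Ix n → ℂ} (hc : RD c) : RD fun k => -c k := fun m => by
  simpa using hc m

lemma rd_single (a : ℂ) : RD (n := n) (Pi.single 0 a) := fun m => by
  refine summable_of_ne_finset_zero (s := {0}) fun k hk => ?_
  rw [Finset.mem_singleton] at hk
  rw [Pi.single_eq_of_ne hk, norm_zero, mul_zero]

lemma Pr.add {f g : V n → ℂ} (hf : Pr f) (hg : Pr g) : Pr fun x => f x + g x := by
  obtain ⟨c, hc, h⟩ := hf
  obtain ⟨d, hd, h'⟩ := hg
  refine ⟨_, rd_add hc hd, fun x hx => ?_⟩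
  rw [G.Es_add hc hd, ← h x hx, ← h' x hx]

lemma Pr.neg {f : V n → ℂ} (hf : Pr f) : Pr fun x => -f x := by
  obtain ⟨c, hc, h⟩ := hf
  refine ⟨_, rd_neg hc, fun x hx => ?_⟩
  rw [G.Es_neg, ← h x hx]

lemma Pr.sub {f g : V n → ℂ} (hf : Pr f) (hg : Pr g) : Pr fun x => f x - g x :=
  (hf.add hg.neg).congr fun _ _ => (sub_eq_add_neg _ _).symm

lemma Pr.const (a : ℂ) : Pr (n := n) fun _ => a := by
  refine ⟨_, rd_single a, fun x _ => ?_⟩
  unfold Es
  rw [tsum_eq_single 0]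
  · simp [fr, ex]
  · intro k hk
    rw [Pi.single_eq_of_ne hk, zero_mul]

lemma Pr.mul (a2 : RowA2) {f g : V n → ℂ} (hf : Pr f) (hg : Pr g) : Pr fun x => f x * g x := by
  obtain ⟨c, hc, h⟩ := hf
  obtain ⟨d, hd, h'⟩ := hg
  obtain ⟨h1, -, h3, -⟩ := a2 (0 : V n) 0 c d hc hd
  refine ⟨_, h1, fun x hx => ?_⟩
  have h4 := h3 x
  rw [add_zero] at h4
  rw [← h4, ← h x hx, ← h' x hx]

lemma Pr.sum {ι : Type*} (s : Finset ι) {f : ι → V n → ℂ} (h : ∀ i, Pr (f i)) :
    Pr fun x => ∑ i ∈ s, f i x := by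
  classical
  induction s using Finset.induction_on with
  | empty => exact (Pr.const 0).congr fun x _ => by simp
  | insert i s hi ih =>
    exact ((h i).add ih).congr fun x _ => by rw [Finset.sum_insert hi]

lemma Pr.pd (a1 : RowA1) {f : V n → ℂ} (hf : Pr f) (i : Fin n) : Pr (pd i f) := by
  obtain ⟨c, hc, h⟩ := hf
  refine ⟨_, G.rd_dc hc i, fun x hx => ?_⟩
  rw [← G.pd_Es a1 hc]
  refine pd_congr ?_ i
  filter_upwards [(isOpen_cube n).mem_nhds hx] with z hz
  exact h z hz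

lemma isFin_cube : IsFiniteMeasure ((volume : Measure (V n)).restrict (cube n)) :=
  ⟨by rw [Measure.restrict_apply_univ, G.volume_cube]; exact ENNReal.one_lt_top⟩

lemma Pr.integrableOn (a1 : RowA1) {f : V n → ℂ} (hf : Pr f) : IntegrableOn f (cube n) := by
  obtain ⟨c, hc, h⟩ := hf
  have := isFin_cube (n := n)
  have h1 : IntegrableOn (Es 0 c) (cube n) := by
    refine Integrable.of_bound (G.smooth_Es a1 hc).continuous.aestronglyMeasurable (nm 0 c) ?_
    exact Filter.Eventually.of_forall fun x => G.norm_Es_le hc 0 x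
  exact h1.congr_fun (fun x hx => (h x hx).symm) (isOpen_cube n).measurableSet

/-- Integration by parts on the cube. -/
lemma ibp (a1 : RowA1) (a2 : RowA2) {f g : V n → ℂ} (hf : Pr f) (hg : Pr g) (i : Fin n) :
    ∫ x in cube n, f x * pd i g x = -∫ x in cube n, pd i f x * g x := by
  obtain ⟨c, hc, h⟩ := hf
  obtain ⟨d, hd, h'⟩ := hg
  have e : ∀ {f : V n → ℂ} {c : Ix n → ℂ}, RD c → (∀ x ∈ cube n, f x = Es 0 c x) →
      ∀ x ∈ cube n, pd i f x = Es 0 (G.dc i c) x := by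
    intro f c hc h x hx
    rw [← G.pd_Es a1 hc]
    refine pd_congr ?_ i
    filter_upwards [(isOpen_cube n).mem_nhds hx] with z hz
    exact h z hz
  have h1 : ∫ x in cube n, f x * pd i g x = ∫ x in cube n, Es 0 c x * Es 0 (G.dc i d) x :=
    setIntegral_congr_fun (isOpen_cube n).measurableSet fun x hx => by
      simp only [h x hx, e hd h' x hx]
  have h2 : ∫ x in cube n, pd i f x * g x = ∫ x in cube n, Es 0 (G.dc i c) x * Es 0 d x :=
    setIntegral_congr_fun (isOpen_cube n).measurableSet fun x hx => by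
      simp only [h' x hx, e hc h x hx]
  rw [h1, h2, G.int_mul a2 hc (G.rd_dc hd i), G.int_mul a2 (G.rd_dc hc i) hd]
  unfold cv
  rw [← tsum_neg]
  refine tsum_congr fun l => ?_
  unfold G.dc
  simp only [zero_sub, Pi.neg_apply, Int.cast_neg, Complex.ofReal_neg]
  ring

/-- The entries of `s`. -/
lemma Pr.ent (a3 : RowA3) {s : MF n} (hs : SmM s) (h1 : ∀ x ∉ core n, s x = 1) (i j : Fin n) :
    Pr (ent s i j) := by
  obtain ⟨C, -, h⟩ := a3 n 0
  have h4 := h (LR.ent s i j) (G.smooth_ent hs i j)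
    ((G.tsupport_ent (subset_refl _) h1 i j).trans (core_sub_cube n)) 0 (fun j => by simp)
  exact ⟨_, h4.1, h4.2.1⟩

lemma Pr.mat (a3 : RowA3) {s : MF n} (hs : SmM s) (h1 : ∀ x ∉ core n, s x = 1) (i j : Fin n) :
    Pr fun x => ((s x i j : ℝ) : ℂ) :=
  ((Pr.ent a3 hs h1 i j).add (Pr.const (((1 : Matrix (Fin n) (Fin n) ℝ) i j : ℝ) : ℂ))).congr
    fun x _ => by
      unfold LR.ent
      push_cast
      ring

/-- The flux. -/
def fl (s : MF n) (W : V n → ℂ) (i : Fin n) (x : V n) : ℂ := ∑ j, (s x i j : ℂ) * pd j W x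

/-- `W` has periodic gradient on the cube. -/
def Pg (W : V n → ℂ) : Prop := ∀ j, Pr (pd j W)

lemma Pr.pg (a1 : RowA1) {f : V n → ℂ} (hf : Pr f) : Pg f := fun j => hf.pd a1 j

lemma Pg.wf (a1 : RowA1) (a : Fin n) {c : Ix n → ℂ} (hc : RD c) : Pg (Wf a c) := fun j =>
  ((Pr.const (if j = a then 1 else 0)).add ((Pr.es hc).pd a1 j)).congr fun x _ => by
    rw [pd_Wf a1 a hc]

lemma Pr.fl (a2 : RowA2) (a3 : RowA3) {s : MF n} (hs : SmM s) (h1 : ∀ x ∉ core n, s x = 1)
    {W : V n → ℂ} (hW : Pg W) (i : Fin n) : Pr (fl s W i) := by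
  unfold H27.fl
  exact Pr.sum _ fun j => (Pr.mat a3 hs h1 i j).mul a2 (hW j)

/-- Green's formula on the cube. -/
lemma green (a1 : RowA1) (a2 : RowA2) (a3 : RowA3) {s : MF n} (hs : SmM s)
    (h1 : ∀ x ∉ core n, s x = 1) {W φ : V n → ℂ} (hW : Pg W) (hφ : Pr φ) :
    ∫ x in cube n, ∑ i, pd i φ x * fl s W i x = -∫ x in cube n, φ x * dv s W x := by
  have hf := fun i => Pr.fl a2 a3 hs h1 hW i
  have e1 : ∫ x in cube n, ∑ i, pd i φ x * fl s W i x =
      ∑ i, ∫ x in cube n, pd i φ x * fl s W i x :=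
    integral_finsetSum _ fun i _ => ((hφ.pd a1 i).mul a2 (hf i)).integrableOn a1
  have e2 : ∫ x in cube n, φ x * dv s W x = ∑ i, ∫ x in cube n, φ x * pd i (fl s W i) x := by
    rw [← integral_finsetSum _ fun i _ => (hφ.mul a2 ((hf i).pd a1 i)).integrableOn a1]
    congr 1
    funext x
    unfold dv
    rw [Finset.mul_sum]
    rfl
  rw [e1, e2, ← Finset.sum_neg_distrib]
  refine Finset.sum_congr rfl fun i _ => ?_
  rw [ibp a1 a2 hφ (hf i) i, neg_neg]

end Vale.Agent.P088.LR.H27
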