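import Vale.Agent.P088.H27.JTorS

/-!
# P088, stage J: calculus of quasi-periodic functions on the cube
-/

open MeasureTheory Set Filter
open scoped ContDiff Matrix Topology ComplexConjugate

noncomputable section

namespace Vale.Agent.P088.LR.H27

open Vale.Agent.P088.LR

variable {n N : ℕ}

/-- `f` is given on the cube by a rapidly decreasing series with shift `θ`. -/
def Qp (θ : V n) (f : V n → ℂ) : Prop := ∃ c : Ix n → ℂ, RD c ∧ ∀ x ∈ cube n, f x = Es θ c x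

lemma Qp.es (θ : V n) {c : Ix n → ℂ} (hc : RD c) : Qp θ (Es θ c) := ⟨c, hc, fun _ _ => rfl⟩

lemma Qp.congr {θ : V n} {f g : V n → ℂ} (hf : Qp θ f) (h : ∀ x ∈ cube n, f x = g x) :
    Qp θ g := by
  obtain ⟨c, hc, h'⟩ := hf
  exact ⟨c, hc, fun x hx => by rw [← h x hx, h' x hx]⟩

lemma Qp.add {θ : V n} {f g : V n → ℂ} (hf : Qp θ f) (hg : Qp θ g) :
    Qp θ fun x => f x + g x := by
  obtain ⟨c, hc, h⟩ := hf
  obtain ⟨d, hd, h'⟩ := hg
  refine ⟨_, rd_add hc hd, fun x hx => ?_⟩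
  rw [G.Es_add hc hd, ← h x hx, ← h' x hx]

lemma Qp.neg {θ : V n} {f : V n → ℂ} (hf : Qp θ f) : Qp θ fun x => -f x := by
  obtain ⟨c, hc, h⟩ := hf
  refine ⟨_, rd_neg hc, fun x hx => ?_⟩
  rw [G.Es_neg, ← h x hx]

lemma Qp.sub {θ : V n} {f g : V n → ℂ} (hf : Qp θ f) (hg : Qp θ g) :
    Qp θ fun x => f x - g x :=
  (hf.add hg.neg).congr fun _ _ => (sub_eq_add_neg _ _).symm

lemma Qp.zero (θ : V n) : Qp θ fun _ => (0 : ℂ) := by
  refine ⟨fun _ => 0, fun m => by simp, fun x _ => ?_⟩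
  unfold Es
  simp

lemma Qp.sum {θ : V n} {ι : Type*} (s : Finset ι) {f : ι → V n → ℂ} (h : ∀ i, Qp θ (f i)) :
    Qp θ fun x => ∑ i ∈ s, f i x := by
  classical
  induction s using Finset.induction_on with
  | empty => exact (Qp.zero θ).congr fun x _ => by simp
  | insert i s hi ih =>
    exact ((h i).add ih).congr fun x _ => by rw [Finset.sum_insert hi]

/-- Periodic times quasi-periodic. -/
lemma Qp.pmul (a2 : RowA2) {θ : V n} {f g : V n → ℂ} (hf : Pr f) (hg : Qp θ g) :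
    Qp θ fun x => f x * g x := by
  obtain ⟨c, hc, h⟩ := hf
  obtain ⟨d, hd, h'⟩ := hg
  refine ⟨_, (a2 (0 : V n) θ c d hc hd).1, fun x hx => ?_⟩
  rw [← EsS_mul a2 θ hc hd, ← h x hx, ← h' x hx]

lemma Es_rfS (θ : V n) (c : Ix n → ℂ) (x : V n) : Es (-θ) (rf c) x = conj (Es θ c x) := by
  unfold Es
  rw [Complex.conj_tsum, ← (Equiv.neg (Ix n)).tsum_eq]
  refine tsum_congr fun k => ?_
  simp only [Equiv.neg_apply, rf, neg_neg, map_mul]
  congr 1
  unfold ex
  rw [← Complex.exp_conj]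
  congr 1
  simp only [map_mul, Complex.conj_I, Complex.conj_ofReal, map_ofNat]
  have : (∑ j, fr (-θ) (-k) j * x j) = -∑ j, fr θ k j * x j := by
    rw [← Finset.sum_neg_distrib]
    refine Finset.sum_congr rfl fun j _ => ?_
    simp only [fr, Pi.neg_apply, Int.cast_neg]
    ring
  rw [this]
  push_cast
  ring

lemma Qp.conj {θ : V n} {f : V n → ℂ} (hf : Qp θ f) : Qp (-θ) fun x => conj (f x) := by
  obtain ⟨c, hc, h⟩ := hf
  exact ⟨rf c, rd_rf hc, fun x hx => by simp only [Es_rfS, h x hx]⟩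

/-- The product of shifts `θ` and `-θ` is periodic. -/
lemma Qp.mulc (a2 : RowA2) {θ : V n} {f g : V n → ℂ} (hf : Qp θ f) (hg : Qp θ g) :
    Pr fun x => f x * starRingEnd ℂ (g x) := by
  obtain ⟨c, hc, h⟩ := hf
  obtain ⟨d, hd, h'⟩ := hg
  have h3 := a2 θ (-θ) c (rf d) hc (rd_rf hd)
  refine ⟨_, h3.1, fun x hx => ?_⟩
  have h4 := h3.2.2.1 x
  rw [add_neg_cancel, Es_rfS] at h4
  rw [← h4, ← h x hx, ← h' x hx]

lemma Qp.pd (a1 : RowA1) {θ : V n} (hθ : Sh θ) {f : V n → ℂ} (hf : Qp θ f) (i : Fin n) :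
    Qp θ (pd i f) := by
  obtain ⟨c, hc, h⟩ := hf
  refine ⟨_, hθ.rd_dcs hc i, fun x hx => ?_⟩
  rw [← pd_EsS a1 hc]
  refine pd_congr ?_ i
  filter_upwards [(isOpen_cube n).mem_nhds hx] with z hz
  exact h z hz

lemma pd_conj {f : V n → ℂ} {x : V n} (hf : DifferentiableAt ℝ f x) (i : Fin n) :
    pd i (fun y => starRingEnd ℂ (f y)) x = starRingEnd ℂ (pd i f x) := by
  have h : HasFDerivAt (fun y => starRingEnd ℂ (f y))
      ((Complex.conjCLE : ℂ →L[ℝ] ℂ).comp (fderiv ℝ f x)) x :=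
    (Complex.conjCLE : ℂ →L[ℝ] ℂ).hasFDerivAt.comp x hf.hasFDerivAt
  unfold LR.pd
  rw [h.fderiv]
  rfl

lemma pd_mul' {f g : V n → ℂ} {x : V n} (hf : DifferentiableAt ℝ f x)
    (hg : DifferentiableAt ℝ g x) (i : Fin n) :
    pd i (fun y => f y * g y) x = pd i f x * g x + f x * pd i g x := by
  unfold LR.pd
  rw [fderiv_fun_mul hf hg]
  simp only [FunLike.coe_add, FunLike.coe_smul, Pi.add_apply, Pi.smul_apply, smul_eq_mul]
  ring

/-- The integral of a derivative of a periodic function vanishes. -/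
lemma int_pd (a1 : RowA1) {f : V n → ℂ} (hf : Pr f) (i : Fin n) :
    ∫ x in cube n, pd i f x = 0 := by
  obtain ⟨c, hc, h⟩ := hf
  have h1 : ∫ x in cube n, pd i f x = ∫ x in cube n, Es 0 (G.dc i c) x :=
    setIntegral_congr_fun (isOpen_cube n).measurableSet fun x hx => by
      rw [← G.pd_Es a1 hc]
      refine pd_congr ?_ i
      filter_upwards [(isOpen_cube n).mem_nhds hx] with z hz
      exact h z hz
  rw [h1, G.int_Es (G.rd_dc hc i)]
  simp [G.dc]

/-- Integration by parts for quasi-periodic functions. -/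
lemma ibpQ (a1 : RowA1) (a2 : RowA2) {θ : V n} (hθ : Sh θ) {f g : V n → ℂ} (hf : Qp θ f)
    (hg : Qp θ g) (sf : ContDiff ℝ ∞ f) (sg : ContDiff ℝ ∞ g) (i : Fin n) :
    ∫ x in cube n, f x * starRingEnd ℂ (pd i g x) =
      -∫ x in cube n, pd i f x * starRingEnd ℂ (g x) := by
  have h1 : ∀ x, pd i (fun y => f y * starRingEnd ℂ (g y)) x =
      pd i f x * starRingEnd ℂ (g x) + f x * starRingEnd ℂ (pd i g x) := fun x => by
    have hg' : DifferentiableAt ℝ (fun y => starRingEnd ℂ (g y)) x :=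
      (Complex.conjCLE : ℂ →L[ℝ] ℂ).differentiableAt.comp x (sm_diff sg x)
    rw [pd_mul' (sm_diff sf x) hg', pd_conj (sm_diff sg x)]
  have h2 := int_pd a1 (hf.mulc a2 hg) i
  simp_rw [h1] at h2
  rw [integral_add (((hf.pd a1 hθ i).mulc a2 hg).integrableOn a1)
    ((hf.mulc a2 (hg.pd a1 hθ i)).integrableOn a1)] at h2
  linear_combination h2

end Vale.Agent.P088.LR.H27
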