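import Vale.Agent.P088.H27.Per

/-!
# P088: the equation `div (s ∇ φ) = ψ` on the torus
-/

open MeasureTheory Set Filter
open scoped ContDiff Matrix Topology

noncomputable section

namespace Vale.Agent.P088.LR.H27

open Vale.Agent.P088.LR

variable {n : ℕ}

/-- The Neumann solution with an arbitrary right hand side. -/
lemma neumannB (a2 : RowA2) (neu : RowNEU) (M : ℕ) (h : Fin n → Fin n → Ix n → ℂ)
    (hh : ∀ i j, RD (h i j)) (b : Fin n → Ix n → ℂ) (hb : ∀ i, RD (b i)) (δ : ℝ)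
    (hδ : n ^ 2 * δ ≤ 1 / 2) (hM : ∀ i j, nm M (h i j) ≤ δ) :
    ∃ y : Ix n → Fin n → ℂ, (∀ i, RD fun k => y k i) ∧
      (∀ k i, y k i = b i k - ∑ m, cv (h i m) (G.GG y m) k) ∧
      ∀ m ≤ M, (∑ i, nm m fun k => y k i) ≤ 2 * ∑ i, nm m (b i) := by
  obtain ⟨y, hy, he, hb'⟩ := neu (n := n) (d := n)
    (fun k l i j => -∑ m, h i m (k - l) * G.PP l m j) (fun k => ∑ i, ∑ m, ‖h i m k‖)
    (fun k i => b i k)
    (fun m => by
      have h1 : Summable fun k : Ix n => ∑ i, ∑ j, wt k ^ m * ‖h i j k‖ :=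
        summable_sum fun i _ => summable_sum fun j _ => hh i j m
      simpa only [Finset.mul_sum] using h1)
    (fun k => Finset.sum_nonneg fun _ _ => Finset.sum_nonneg fun _ _ => norm_nonneg _)
    (fun k l i => by
      refine Finset.sum_le_sum fun j _ => ?_
      rw [norm_neg]
      refine (norm_sum_le _ _).trans (Finset.sum_le_sum fun m _ => ?_)
      rw [norm_mul]
      exact mul_le_of_le_one_right (norm_nonneg _) (G.norm_PP_le l m i))
    (fun i => hb i) M
    (by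
      have h1 : ∑' k : Ix n, wt k ^ M * ∑ i, ∑ m, ‖h i m k‖ = ∑ i, ∑ m, nm M (h i m) := by
        simp_rw [Finset.mul_sum]
        rw [Summable.tsum_finsetSum fun i _ => summable_sum fun j _ => hh i j M]
        refine Finset.sum_congr rfl fun i _ => ?_
        rw [Summable.tsum_finsetSum fun j _ => hh i j M]
        rfl
      rw [h1]
      calc ∑ i, ∑ m, nm M (h i m) ≤ ∑ _i : Fin n, ∑ _m : Fin n, δ :=
            Finset.sum_le_sum fun i _ => Finset.sum_le_sum fun m _ => hM i m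
        _ = n ^ 2 * δ := by simp; ring
        _ ≤ 1 / 2 := hδ)
  refine ⟨y, hy, fun k i => ?_, hb'⟩
  have hs : ∀ m, Summable fun l => h i m (k - l) * G.GG y m l := fun m =>
    (a2 (0 : V n) 0 (h i m) (G.GG y m) (hh i m) (G.rd_GG hy m)).2.1 k
  rw [he k i, sub_eq_add_neg]
  congr 1
  unfold cv
  rw [← Summable.tsum_finsetSum fun m _ => hs m, ← tsum_neg]
  refine tsum_congr fun l => ?_
  simp only [G.GG, neg_mul, Finset.sum_mul, Finset.mul_sum, Finset.sum_neg_distrib]
  rw [Finset.sum_comm]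
  congr 1
  exact Finset.sum_congr rfl fun m _ => Finset.sum_congr rfl fun j _ => by ring

/-- **The solver.** `div (s ∇ φ) = ψ` on the cube, with a periodic `φ`. -/
theorem solve (a1 : RowA1) (a2 : RowA2) (a3 : RowA3) (neu : RowNEU) {s : MF n} (hs : SmM s)
    (h1 : ∀ x ∉ core n, s x = 1) {δ : ℝ} (hδ : n ^ 2 * δ ≤ 1 / 2)
    (hM : ∀ i j, nm 0 (cf 0 (ent s i j)) ≤ δ) {ψ : V n → ℂ} (hψ : ContDiff ℝ ∞ ψ)
    (hψs : tsupport ψ ⊆ cube n) (hψ0 : ∫ x, ψ x = 0) :
    ∃ c : Ix n → ℂ, RD c ∧ ∀ x ∈ cube n, dv s (Es 0 c) x = ψ x := by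
  -- the data
  obtain ⟨C, -, hA3'⟩ := a3 n 0
  obtain ⟨hd, hrep, -⟩ := hA3' ψ hψ hψs 0 (fun j => by simp)
  set d := cf 0 ψ with hd_def
  have hd0 : d 0 = 0 := by
    rw [hd_def]
    unfold cf ft
    rw [← hψ0]
    congr 1
    funext x
    have : -(fr (0 : V n) (0 : Ix n)) = 0 := by
      funext j
      simp [fr]
    rw [this]
    simp [ex]
  have hl : RD (lap d) := rd_mono hd (norm_lap_le d)
  have hent : ∀ i j, RD (cf 0 (ent s i j)) ∧ ∀ x ∈ cube n, ent s i j x
      = Es 0 (cf 0 (ent s i j)) x := fun i j => by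
    obtain ⟨C, -, h⟩ := a3 n 0
    have h4 := h (ent s i j) (G.smooth_ent hs i j)
      ((G.tsupport_ent (subset_refl _) h1 i j).trans (core_sub_cube n)) 0 (fun j => by simp)
    exact ⟨h4.1, h4.2.1⟩
  have hcv : ∀ i j, RD (cv (cf 0 (ent s i j)) (G.dc j (lap d))) := fun i j =>
    (a2 (0 : V n) 0 _ _ (hent i j).1 (G.rd_dc hl j)).1
  set b : Fin n → Ix n → ℂ := fun i k => ∑ j, cv (cf 0 (ent s i j)) (G.dc j (lap d)) k with hb
  obtain ⟨y, hy, he, -⟩ := neumannB a2 neu 0 (fun i j => cf 0 (ent s i j))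
    (fun i j => (hent i j).1) b (fun i => G.rdSum _ (hcv i)) δ hδ hM
  have hG : ∀ m, RD (G.GG y m) := G.rd_GG hy
  have hcv' : ∀ i m, RD (cv (cf 0 (ent s i m)) (G.GG y m)) := fun i m =>
    (a2 (0 : V n) 0 _ _ (hent i m).1 (hG m)).1
  refine ⟨fun k => G.wh y k + lap d k, rd_add (G.rd_wh hy) hl, ?_⟩
  have hc : RD fun k => G.wh y k + lap d k := rd_add (G.rd_wh hy) hl
  -- the flux on the cube
  have hfl : ∀ i, ∀ x ∈ cube n, ∑ j, (s x i j : ℂ) * pd j (Es 0 fun k => G.wh y k + lap d k) x =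
      Es 0 (fun k => y k i) x + Es 0 (G.dc i fun k => G.wh y k + lap d k) x := by
    intro i x hx
    have e1 : (fun k => y k i)
        = fun k => b i k - ∑ m, cv (cf 0 (ent s i m)) (G.GG y m) k := funext fun k => he k i
    have e2 : ∀ m, Es 0 (cv (cf 0 (ent s i m)) (G.GG y m)) x =
        ent s i m x * Es 0 (G.GG y m) x := fun m => by
      have h5 := (a2 (0 : V n) 0 _ _ (hent i m).1 (hG m)).2.2.1 x
      rw [add_zero] at h5
      rw [← h5, ← (hent i m).2 x hx]
    have e3 : ∀ m, Es 0 (cv (cf 0 (ent s i m)) (G.dc m (lap d))) x =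
        ent s i m x * Es 0 (G.dc m (lap d)) x := fun m => by
      have h5 := (a2 (0 : V n) 0 _ _ (hent i m).1 (G.rd_dc hl m)).2.2.1 x
      rw [add_zero] at h5
      rw [← h5, ← (hent i m).2 x hx]
    have e4 : ∀ j, pd j (Es 0 fun k => G.wh y k + lap d k) x =
        -Es 0 (G.GG y j) x + Es 0 (G.dc j (lap d)) x := by
      intro j
      rw [G.pd_Es a1 hc]
      have h6 : G.dc j (fun k => G.wh y k + lap d k) =
          fun k => -G.GG y j k + G.dc j (lap d) k := by
        funext k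
        rw [← G.dc_wh y j k]
        unfold G.dc
        ring
      rw [h6, G.Es_add (rd_neg (hG j)) (G.rd_dc hl j), G.Es_neg]
    have e5 : Es 0 (fun k => y k i) x = ∑ j, ent s i j x *
        pd j (Es 0 fun k => G.wh y k + lap d k) x := by
      rw [e1, G.Es_sub (G.rdSum _ (hcv i)) (G.rdSum _ (hcv' i)), G.Es_sum _ (hcv i),
        G.Es_sum _ (hcv' i), ← Finset.sum_sub_distrib]
      refine Finset.sum_congr rfl fun j _ => ?_
      rw [e2, e3, e4]
      ring
    rw [e5, ← G.pd_Es a1 hc]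
    have e6 : pd i (Es 0 fun k => G.wh y k + lap d k) x =
        ∑ j, (((1 : Matrix (Fin n) (Fin n) ℝ) i j : ℝ) : ℂ) *
          pd j (Es 0 fun k => G.wh y k + lap d k) x := by
      rw [Finset.sum_eq_single i]
      · simp
      · intro j _ hj
        simp [hj.symm]
      · intro h
        exact absurd (Finset.mem_univ i) h
    rw [e6, ← Finset.sum_add_distrib]
    refine Finset.sum_congr rfl fun j _ => ?_
    unfold ent
    push_cast
    ring
  intro x hx
  rw [hrep x hx]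
  have hdd : ∀ i, RD (fun k => G.dc i (fun k => y k i) k +
      G.dc i (G.dc i fun k => G.wh y k + lap d k) k) := fun i =>
    rd_add (G.rd_dc (hy i) i) (G.rd_dc (G.rd_dc hc i) i)
  have key : ∀ i, pd i (fun z => ∑ j, (s z i j : ℂ) *
      pd j (Es 0 fun k => G.wh y k + lap d k) z) x =
      Es 0 (fun k => G.dc i (fun k => y k i) k +
        G.dc i (G.dc i fun k => G.wh y k + lap d k) k) x := by
    intro i
    have h1 : (fun z => ∑ j, (s z i j : ℂ) * pd j (Es 0 fun k => G.wh y k + lap d k) z) =ᶠ[𝓝 x]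
        fun z => Es 0 (fun k => y k i) z + Es 0 (G.dc i fun k => G.wh y k + lap d k) z := by
      filter_upwards [(isOpen_cube n).mem_nhds hx] with z hz
      exact hfl i z hz
    rw [pd_congr h1, pd_add (sm_diff (G.smooth_Es a1 (hy i)) x)
      (sm_diff (G.smooth_Es a1 (G.rd_dc hc i)) x), G.pd_Es a1 (hy i),
      G.pd_Es a1 (G.rd_dc hc i),
      G.Es_add (G.rd_dc (hy i) i) (G.rd_dc (G.rd_dc hc i) i)]
  unfold dv
  rw [Finset.sum_congr rfl fun i _ => key i, ← G.Es_sum _ hdd]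
  congr 1
  funext k
  have e := G.wh_eq y k
  have hlap := lap_spec hd0 k
  have e0 : ∀ i, G.dc i (fun k => y k i) k + G.dc i (G.dc i fun k => G.wh y k + lap d k) k =
      (2 * Real.pi) * (Complex.I * (((k i : ℝ) : ℂ) * y k i)) -
      (2 * Real.pi) * (2 * Real.pi * ((k i : ℝ) : ℂ) ^ 2 * G.wh y k) +
      2 * Real.pi * Complex.I * ((fr (0 : V n) k i : ℝ) : ℂ) *
      (2 * Real.pi * Complex.I * ((fr (0 : V n) k i : ℝ) : ℂ) * lap d k) := by
    intro i
    unfold G.dc
    simp only [fr, Pi.zero_apply, add_zero, Complex.ofReal_intCast]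
    linear_combination 4 * (Real.pi : ℂ) ^ 2 * (k i : ℂ) ^ 2 * G.wh y k * Complex.I_sq
  rw [Finset.sum_congr rfl fun i _ => e0 i, Finset.sum_add_distrib, hlap,
    Finset.sum_sub_distrib, ← Finset.mul_sum,
    ← Finset.mul_sum, ← Finset.mul_sum, ← e, Finset.mul_sum, Finset.sum_mul, sub_self, zero_add]

end Vale.Agent.P088.LR.H27
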